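import Vale.Agent.P048.Basic

/-! Graphs with independence number two contain all short cycles. -/

namespace Vale.Agent.P048

open Finset

variable {V : Type} {G : SimpleGraph V}

/-- A cyclic list. -/
def CyW (G : SimpleGraph V) (L : List V) : Prop :=
  L.Nodup ∧ L.IsChain G.Adj ∧ ∀ x ∈ L.getLast?, ∀ y ∈ L.head?, G.Adj x y

theorem CyW.cyc {L : List V} (h : CyW G L) (hL : L ≠ []) : Cyc G L.length := by
  obtain ⟨a, l, rfl⟩ := List.exists_cons_of_ne_nil hL
  refine ⟨a, l, h.1, rfl, ?_⟩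
  rw [← List.cons_append]
  exact List.isChain_append.2 ⟨h.2.1, List.IsChain.singleton _, fun x hx y hy =>
    h.2.2 x hx y (by simpa using hy)⟩

theorem CyW.rotate {X Y : List V} (h : CyW G (X ++ Y)) : CyW G (Y ++ X) := by
  rcases eq_or_ne X [] with rfl | hX
  · simpa using h
  rcases eq_or_ne Y [] with rfl | hY
  · simpa using h
  obtain ⟨h1, h2, h3⟩ := h
  obtain ⟨h4, h5, h6⟩ := List.isChain_append.1 h2
  rw [List.getLast?_append_of_ne_nil _ hY, List.head?_append_of_ne_nil _ hX] at h3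
  refine ⟨List.perm_append_comm.nodup_iff.1 h1, List.isChain_append.2 ⟨h5, h4, h3⟩, ?_⟩
  rwa [List.getLast?_append_of_ne_nil _ hX, List.head?_append_of_ne_nil _ hY]

theorem CyW.ins {a b u : V} {P : List V} (h : CyW G (a :: (P ++ [b]))) (hu : u ∉ a :: (P ++ [b]))
    (ha : G.Adj u a) (hb : G.Adj u b) : CyW G (u :: a :: (P ++ [b])) := by
  refine ⟨List.nodup_cons.2 ⟨hu, h.1⟩, List.IsChain.cons_cons ha h.2.1, fun x hx y hy => ?_⟩
  have e : (u :: a :: (P ++ [b])).getLast? = some b := by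
    rw [← List.cons_append, ← List.cons_append, List.getLast?_append_of_ne_nil _ (by simp)]; rfl
  rw [e] at hx
  obtain rfl : b = x := by simpa using hx
  obtain rfl : u = y := by simpa using hy
  exact hb.symm

theorem CyW.extend {L : List V} (h : CyW G L) {u a b : V} (hu : u ∉ L) (ha : a ∈ L) (hb : b ∈ L)
    (hab : a ≠ b) (hua : G.Adj u a) (hub : G.Adj u b)
    (h3 : ∀ p ∈ L, ∀ q ∈ L, p ≠ q → G.Adj u p ∨ G.Adj u q ∨ G.Adj p q) :
    ∃ L', CyW G L' ∧ L'.Perm (u :: L) := by
  obtain ⟨X, Y, rfl⟩ := List.append_of_mem ha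
  have h1 := h.rotate
  have hp : (a :: (Y ++ X)).Perm (X ++ a :: Y) := List.perm_append_comm (l₁ := a :: Y)
  rw [List.cons_append] at h1
  rw [← hp.mem_iff] at hu hb
  replace h3 := fun p h1 q h2 => h3 p (hp.mem_iff.1 h1) q (hp.mem_iff.1 h2)
  suffices ∃ L', CyW G L' ∧ L'.Perm (u :: a :: (Y ++ X)) from
    let ⟨L', h1, h2⟩ := this; ⟨L', h1, h2.trans (hp.cons u)⟩
  obtain ⟨P, Q, e⟩ := List.append_of_mem ((List.mem_cons.1 hb).resolve_left hab.symm)
  rw [e] at h1 hu h3 ⊢
  clear e hp hb ha h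
  have key : ∀ x y (A B : List V), A ++ [x] ++ y :: B = a :: (P ++ b :: Q) → G.Adj u x →
      G.Adj u y → ∃ L', CyW G L' ∧ L'.Perm (u :: a :: (P ++ b :: Q)) := by
    intro x y A B e hx hy
    rw [← e] at h1 hu ⊢
    have h2 := h1.rotate
    have hp : (y :: (B ++ A ++ [x])).Perm (A ++ [x] ++ y :: B) := by
      rw [List.append_assoc B]
      exact List.perm_append_comm (l₁ := y :: B)
    rw [List.cons_append, ← List.append_assoc] at h2
    exact ⟨_, h2.ins (fun h => hu (hp.mem_iff.1 h)) hy hx, hp.cons u⟩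
  rcases P with _ | ⟨p, P⟩
  · exact key a b [] Q rfl hua hub
  rcases Q with _ | ⟨q, Q⟩
  · exact ⟨_, h1.ins hu hua hub, List.Perm.refl _⟩
  have hpq : p ≠ q := by
    rintro rfl
    have := h1.1
    simp [List.nodup_append] at this
  rcases h3 p (by simp) q (by simp) hpq with h | h | h
  · exact key a p [] (P ++ b :: q :: Q) rfl hua h
  · exact key b q (a :: p :: P) Q (by simp) hub h
  have hp : (u :: b :: ((p :: P).reverse ++ q :: (Q ++ [a]))).Perm
      (u :: a :: (p :: P ++ b :: q :: Q)) := by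
    refine List.Perm.cons u ?_
    classical
    refine List.perm_iff_count.2 fun z => ?_
    simp only [List.count_cons, List.count_append, List.count_reverse, List.count_nil]
    omega
  refine ⟨_, ⟨hp.nodup_iff.2 (List.nodup_cons.2 ⟨hu, h1.1⟩), ?_, fun x hx y hy => ?_⟩, hp⟩
  · have h4 : List.IsChain G.Adj ((p :: P ++ [b]) ++ q :: Q) := by simpa using h1.2.1.tail
    obtain ⟨h5, h6, -⟩ := List.isChain_append.1 h4
    have h7 : List.IsChain G.Adj (b :: (p :: P).reverse) := by
      have := List.isChain_reverse.2 (h5.imp fun _ _ h => h.symm)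
      simpa using this
    refine List.IsChain.cons_cons hub ?_
    rw [← List.cons_append]
    refine List.isChain_append.2 ⟨h7, ?_, fun x hx y hy => ?_⟩
    · rw [← List.cons_append]
      refine List.isChain_append.2 ⟨h6, List.IsChain.singleton _, fun x hx y hy => ?_⟩
      refine h1.2.2 x ?_ y hy
      rwa [← List.cons_append, List.getLast?_append_of_ne_nil _ (by simp),
        List.getLast?_cons_cons]
    · obtain rfl : p = x := by
        rw [List.reverse_cons, ← List.cons_append, List.getLast?_append_of_ne_nil _ (by simp)] at hx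
        simpa using hx
      obtain rfl : q = y := by simpa using hy
      exact h
  · obtain rfl : a = x := by
      rw [← List.cons_append, ← List.cons_append, List.getLast?_append_of_ne_nil _ (by simp),
        ← List.cons_append, List.getLast?_append_of_ne_nil _ (by simp)] at hx
      simpa using hx
    obtain rfl : u = y := by simpa using hy
    exact hua.symm

theorem chain_of_clique {S : Set V} (hS : G.IsClique S) {L : List V} (hL : L.Nodup)
    (h : ∀ x ∈ L, x ∈ S) : L.IsChain G.Adj :=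
  (List.Pairwise.imp_of_mem (fun hx hy hne => hS (h _ hx) (h _ hy) hne) hL).isChain

theorem alpha_two {V : Type} (G : SimpleGraph V) (t m : ℕ) (W : Finset V) (ht : 3 ≤ t)
    (hcl : ∀ s : Finset V, G.IsClique (s : Set V) → s.card ≤ t)
    (hal : ∀ I : Finset V, I ⊆ W → G.IsIndepSet (I : Set V) → I.card ≤ 2)
    (hW : 2 * t + 1 ≤ W.card) (hm3 : 3 ≤ m) (hm : m ≤ 2 * t + 1) : Cyc G m := by
  classical
  have tri : ∀ x ∈ W, ∀ y ∈ W, ∀ z ∈ W, x ≠ y → x ≠ z → y ≠ z →
      G.Adj x y ∨ G.Adj x z ∨ G.Adj y z := by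
    intro x hx y hy z hz h1 h2 h3
    by_contra hc
    simp only [not_or] at hc
    have := hal {x, y, z} (by simp [insert_subset_iff, hx, hy, hz]) (by
      intro p hp q hq hne hadj
      simp only [coe_insert, coe_singleton, Set.mem_insert_iff, Set.mem_singleton_iff] at hp hq
      rcases hp with rfl | rfl | rfl <;> rcases hq with rfl | rfl | rfl <;>
        first | exact hne rfl | exact hc.1 hadj | exact hc.2.1 hadj | exact hc.2.2 hadj
              | exact hc.1 hadj.symm | exact hc.2.1 hadj.symm | exact hc.2.2 hadj.symm)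
    rw [card_eq_three.2 ⟨x, y, z, h1, h2, h3, rfl⟩] at this
    omega
  have non : ∀ u ∈ W, ∀ S ⊆ W, u ∉ S →
      G.IsClique ((S.filter fun x => ¬ G.Adj u x : Finset V) : Set V) := by
    intro u hu S hS huS x hx y hy hne
    obtain ⟨hx, hx'⟩ := mem_filter.1 hx
    obtain ⟨hy, hy'⟩ := mem_filter.1 hy
    exact ((tri u hu x (hS hx) y (hS hy) (fun h => huS (h ▸ hx)) (fun h => huS (h ▸ hy))
      hne).resolve_left hx').resolve_left hy'
  suffices ∃ L : List V, CyW G L ∧ L.length = m ∧ ∀ x ∈ L, x ∈ W by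
    obtain ⟨L, h1, rfl, -⟩ := this
    exact h1.cyc (by rintro rfl; simp at hm3)
  induction m, hm3 using Nat.le_induction with
  | base =>
    obtain ⟨v, hv⟩ : W.Nonempty := card_pos.1 (by omega)
    have h1 := hcl _ (non v hv (W.erase v) (erase_subset _ _) (notMem_erase _ _))
    have h2 := card_filter_add_card_filter_not (s := W.erase v) fun x => G.Adj v x
    rw [card_erase_of_mem hv] at h2
    obtain ⟨x, y, z, hx, hy, hz, h3, h4, h5⟩ := two_lt_card_iff.1
      (show 2 < ((W.erase v).filter fun x => G.Adj v x).card by omega)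
    have mk : ∀ x y, x ∈ (W.erase v).filter (fun x => G.Adj v x) →
        y ∈ (W.erase v).filter (fun x => G.Adj v x) → G.Adj x y →
        ∃ L : List V, CyW G L ∧ L.length = 3 ∧ ∀ x ∈ L, x ∈ W := fun x y hx hy h => by
      obtain ⟨hx, hx'⟩ := mem_filter.1 hx
      obtain ⟨hy, hy'⟩ := mem_filter.1 hy
      exact ⟨[v, x, y], ⟨by simp [hx'.ne, hy'.ne, h.ne], by simp [hx', h], by simp [hy'.symm]⟩, rfl,
        by simp [hv, mem_of_mem_erase hx, mem_of_mem_erase hy]⟩
    rcases tri x (mem_of_mem_erase (mem_filter.1 hx).1) y (mem_of_mem_erase (mem_filter.1 hy).1)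
      z (mem_of_mem_erase (mem_filter.1 hz).1) h3 h4 h5 with h | h | h
    · exact mk _ _ hx hy h
    · exact mk _ _ hx hz h
    · exact mk _ _ hy hz h
  | succ m hm3 ih =>
    obtain ⟨L, hL, hl, hLW⟩ := ih (by omega)
    by_contra hc
    have hS : L.toFinset.card = m := by rw [List.toFinset_card_of_nodup hL.1, hl]
    have hSW : L.toFinset ⊆ W := fun x hx => hLW x (List.mem_toFinset.1 hx)
    obtain ⟨S, hSe⟩ : ∃ S, S = L.toFinset := ⟨_, rfl⟩
    have hO : (W \ S).card + m = W.card := by rw [hSe, ← hS]; exact card_sdiff_add_card_eq_card hSW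
    have h1 : ∀ u ∈ W \ S, ∀ a ∈ S, ∀ b ∈ S, G.Adj u a → G.Adj u b → a = b := by
      intro u hu a ha b hb hua hub
      by_contra hab
      rw [hSe] at hu ha hb
      have hu' : u ∉ L := fun h => (mem_sdiff.1 hu).2 (List.mem_toFinset.2 h)
      obtain ⟨L', h1, h2⟩ := hL.extend hu' (List.mem_toFinset.1 ha) (List.mem_toFinset.1 hb) hab
        hua hub fun p hp q hq hpq => tri u (mem_sdiff.1 hu).1 p (hLW p hp) q (hLW q hq)
          (fun h => hu' (h ▸ hp)) (fun h => hu' (h ▸ hq)) hpq
      refine hc ⟨L', h1, by rw [h2.length_eq, List.length_cons, hl], fun x hx => ?_⟩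
      rcases List.mem_cons.1 (h2.mem_iff.1 hx) with rfl | hx
      · exact (mem_sdiff.1 hu).1
      · exact hLW x hx
    rw [← hSe] at hS hSW
    clear hSe hL hl hLW
    have h2 : ∀ u ∈ W \ S, (S.filter fun x => G.Adj u x).card ≤ 1 := fun u hu =>
      card_le_one.2 fun a ha b hb => h1 u hu a (mem_filter.1 ha).1 b (mem_filter.1 hb).1
        (mem_filter.1 ha).2 (mem_filter.1 hb).2
    have h3 : G.IsClique ((W \ S : Finset V) : Set V) := by
      intro u hu u' hu' hne
      by_contra hadj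
      have : S ⊆ (S.filter fun x => G.Adj u x) ∪ S.filter fun x => G.Adj u' x := fun x hx => by
        rcases tri u (mem_sdiff.1 hu).1 u' (mem_sdiff.1 hu').1 x (hSW hx) hne
          (fun h => (mem_sdiff.1 hu).2 (h ▸ hx)) (fun h => (mem_sdiff.1 hu').2 (h ▸ hx))
          with h | h | h
        · exact absurd h hadj
        · exact mem_union_left _ (mem_filter.2 ⟨hx, h⟩)
        · exact mem_union_right _ (mem_filter.2 ⟨hx, h⟩)
      have h4 := (card_le_card this).trans (card_union_le _ _)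
      have := h2 u hu
      have := h2 u' hu'
      omega
    have h4 := hcl _ h3
    have h5 : ∀ u ∈ W \ S, m = t + 1 ∧ ∃ a ∈ S, G.Adj u a := fun u hu => by
      have h6 := hcl _ (non u (mem_sdiff.1 hu).1 S hSW (mem_sdiff.1 hu).2)
      have h7 := card_filter_add_card_filter_not (s := S) fun x => G.Adj u x
      have h8 := h2 u hu
      obtain ⟨a, ha⟩ : (S.filter fun x => G.Adj u x).Nonempty := card_pos.1 (by omega)
      exact ⟨by omega, a, (mem_filter.1 ha).1, (mem_filter.1 ha).2⟩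
    obtain ⟨u, hu⟩ : (W \ S).Nonempty := card_pos.1 (by omega)
    obtain ⟨hmt, a, ha, hua⟩ := h5 u hu
    by_cases h6 : ∀ u' ∈ W \ S, G.Adj u' a
    · have h7 := hcl (insert a (W \ S)) (by
        rw [coe_insert]
        exact h3.insert fun b hb _ => (h6 b hb).symm)
      rw [card_insert_of_notMem fun h => (mem_sdiff.1 h).2 ha] at h7
      omega
    simp only [not_forall] at h6
    obtain ⟨u', hu', hu'a⟩ := h6
    obtain ⟨-, a', ha', hua'⟩ := h5 u' hu'
    have haa : a ≠ a' := fun h => hu'a (h ▸ hua')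
    have huu : u ≠ u' := fun h => hu'a (h ▸ hua)
    obtain ⟨c, hcm⟩ : ((S.erase a).erase a').Nonempty := card_pos.1 (by
      rw [card_erase_of_mem (mem_erase.2 ⟨haa.symm, ha'⟩), card_erase_of_mem ha]; omega)
    obtain ⟨hca', hcm⟩ := mem_erase.1 hcm
    obtain ⟨hca, hcS⟩ := mem_erase.1 hcm
    have e1 : G.Adj c a' := non u (mem_sdiff.1 hu).1 S hSW (mem_sdiff.1 hu).2
      (mem_filter.2 ⟨hcS, fun h => hca (h1 u hu _ hcS _ ha h hua)⟩)
      (mem_filter.2 ⟨ha', fun h => haa (h1 u hu _ ha _ ha' hua h)⟩) hca'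
    have e2 : G.Adj a c := non u' (mem_sdiff.1 hu').1 S hSW (mem_sdiff.1 hu').2
      (mem_filter.2 ⟨ha, hu'a⟩)
      (mem_filter.2 ⟨hcS, fun h => hca' (h1 u' hu' _ hcS _ ha' h hua')⟩) hca.symm
    obtain ⟨R, hR, hRc⟩ := exists_subset_card_eq (s := ((W \ S).erase u).erase u') (n := t - 3) (by
      rw [card_erase_of_mem (mem_erase.2 ⟨huu.symm, hu'⟩), card_erase_of_mem hu]; omega)
    have hR' : ∀ x ∈ R, x ≠ u' ∧ x ≠ u ∧ x ∈ W \ S := fun x hx => by
      simpa only [mem_erase] using hR hx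
    have hn : ∀ x ∈ S, x ≠ u ∧ x ≠ u' ∧ x ∉ R := fun x hx =>
      ⟨fun h => (mem_sdiff.1 hu).2 (h ▸ hx), fun h => (mem_sdiff.1 hu').2 (h ▸ hx),
        fun h => (mem_sdiff.1 (hR' x h).2.2).2 hx⟩
    have hnd : (u' :: R.toList).Nodup :=
      List.nodup_cons.2 ⟨fun h => (hR' _ (mem_toList.1 h)).1 rfl, nodup_toList R⟩
    have hin : ∀ x ∈ u' :: R.toList, x ≠ u ∧ x ∈ W \ S := fun x hx => by
      rcases List.mem_cons.1 hx with rfl | hx
      · exact ⟨huu.symm, hu'⟩
      · exact (hR' x (mem_toList.1 hx)).2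
    refine hc ⟨u :: a :: c :: a' :: u' :: R.toList, ⟨?_, ?_, fun x hx y hy => ?_⟩, ?_, ?_⟩
    · obtain ⟨a1, a2, a3⟩ := hn a ha
      obtain ⟨b1, b2, b3⟩ := hn c hcS
      obtain ⟨c1, c2, c3⟩ := hn a' ha'
      have h8 : u ∉ R := fun h => (hR' _ h).2.1 rfl
      refine List.nodup_cons.2 ⟨?_, List.nodup_cons.2 ⟨?_, List.nodup_cons.2 ⟨?_,
        List.nodup_cons.2 ⟨?_, hnd⟩⟩⟩⟩ <;> simp only [List.mem_cons, mem_toList, not_or]
      · exact ⟨a1.symm, b1.symm, c1.symm, huu, h8⟩
      · exact ⟨Ne.symm hca, haa, a2, a3⟩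
      · exact ⟨hca', b2, b3⟩
      · exact ⟨c2, c3⟩
    · exact .cons_cons hua (.cons_cons e2 (.cons_cons e1 (.cons_cons hua'.symm
        (chain_of_clique h3 hnd fun x hx => (hin x hx).2))))
    · obtain rfl : u = y := by simpa using hy
      simp only [List.getLast?_cons_cons] at hx
      have := hin x (List.mem_of_getLast? hx)
      exact h3 this.2 hu this.1
    · simp [hRc]; omega
    · intro x hx
      rcases List.mem_cons.1 hx with rfl | hx
      · exact (mem_sdiff.1 hu).1
      rcases List.mem_cons.1 hx with rfl | hx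
      · exact hSW ha
      rcases List.mem_cons.1 hx with rfl | hx
      · exact hSW hcS
      rcases List.mem_cons.1 hx with rfl | hx
      · exact hSW ha'
      exact (mem_sdiff.1 (hin x hx).2).1

end Vale.Agent.P048
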