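import Vale.Agent.P048.Opt

namespace Vale.Agent.P048

open Finset

variable {V : Type}

structure Ctx [Fintype V] (G : SimpleGraph V) (k t : ℕ) : Prop extends Min G k where
  hk : 3 ≤ k
  clq : ∀ s : Finset V, G.IsClique (s : Set V) → s.card ≤ t
  two : ∀ W : Finset V, (∀ I : Finset V, I ⊆ W → G.IsIndepSet (I : Set V) → I.card ≤ 2) →
    W.card ≤ 2 * t

def InB (G : SimpleGraph V) (S : Finset V) (x : V) (r : ℕ) (v : V) : Prop :=
  ∃ p : List V, p.length < r ∧ (∀ u ∈ p, u ∉ S) ∧ v ∉ S ∧ List.IsChain G.Adj (x :: (p ++ [v]))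

def Lab (G : SimpleGraph V) (S : Finset V) (x : V) (r : ℕ) (v : V) : Prop :=
  (r = 0 ∧ v = x) ∨ InB G S x r v

def HasW (G : SimpleGraph V) (S : Finset V) (x : V) (r w : ℕ) : Prop :=
  ∃ I : Finset V, G.IsIndepSet (I : Set V) ∧ I.card = w ∧ ∀ v ∈ I, Lab G S x r v

def NoL (G : SimpleGraph V) (S : Finset V) (x y : V) (D : ℕ) : Prop :=
  ∀ d, 1 ≤ d → d ≤ D → ¬ Link G S x y d

def Compat (G : SimpleGraph V) (S : Finset V) (x : V) (r : ℕ) (y : V) (s : ℕ) : Prop :=
  x ≠ y ∧ (r + s = 0 → ¬ G.Adj x y) ∧ NoL G S x y (r + s)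

variable {G : SimpleGraph V} {S : Finset V}

lemma NoL.symm {x y : V} {D : ℕ} (h : NoL G S x y D) : NoL G S y x D :=
  fun d h1 h2 hl => h d h1 h2 hl.symm

lemma NoL.mono {x y : V} {D D' : ℕ} (h : NoL G S x y D) (hD : D' ≤ D) : NoL G S x y D' :=
  fun d h1 h2 => h d h1 (h2.trans hD)

lemma walk_link (x y : V) : ∀ (n : ℕ) (p : List V), p.length ≤ n → p ≠ [] → (∀ u ∈ p, u ∉ S) →
    List.IsChain G.Adj (x :: (p ++ [y])) → ∃ d, 1 ≤ d ∧ d ≤ n ∧ Link G S x y d := by
  intro n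
  induction n with
  | zero => intro p h1 h2; exact absurd (List.length_eq_zero_iff.mp (by omega)) h2
  | succ n ih =>
    intro p h1 h2 h3 h4
    by_cases hn : p.Nodup
    · exact ⟨p.length, List.length_pos_iff.mpr h2, h1, p, rfl, hn, h3, h4⟩
    · rw [List.nodup_iff_sublist] at hn
      push Not at hn
      obtain ⟨v, hv⟩ := hn
      obtain ⟨r1, r2, e, m1, m2⟩ := List.cons_sublist_iff.mp hv
      obtain ⟨a, b, rfl⟩ := List.append_of_mem m1
      obtain ⟨c, c', rfl⟩ := List.append_of_mem (List.singleton_sublist.mp m2)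
      subst e
      obtain ⟨d, d1, d2, d3⟩ := ih (a ++ v :: c') (by simp at h1 ⊢; omega) (by simp)
        (fun u hu => h3 u (by simp at hu ⊢; tauto)) (by
          have e1 : x :: ((a ++ v :: b ++ (c ++ v :: c')) ++ [y]) =
            (x :: a) ++ v :: ((b ++ c) ++ v :: (c' ++ [y])) := by simp
          rw [e1, List.isChain_split] at h4
          obtain ⟨h5, h6⟩ := h4
          rw [← List.cons_append, List.isChain_split] at h6
          have e2 : x :: ((a ++ v :: c') ++ [y]) = (x :: a) ++ v :: (c' ++ [y]) := by simp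
          rw [e2]
          exact chain_glue h5 h6.2)
      exact ⟨d, d1, by omega, d3⟩

lemma InB.not_mem {x v : V} {r : ℕ} (h : InB G S x r v) : v ∉ S := by
  obtain ⟨_, _, _, h, _⟩ := h
  exact h

lemma InB.mono {x v : V} {r r' : ℕ} (h : InB G S x r v) (hr : r ≤ r') : InB G S x r' v := by
  obtain ⟨p, h1, h2⟩ := h
  exact ⟨p, by omega, h2⟩

lemma InB.step {x v w : V} {r : ℕ} (h : InB G S x r v) (ha : G.Adj v w) (hw : w ∉ S) :
    InB G S x (r + 1) w := by
  obtain ⟨p, h1, h2, h3, h4⟩ := h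
  refine ⟨p ++ [v], by simp; omega, ?_, hw, ?_⟩
  · intro u hu
    rcases List.mem_append.mp hu with hu | hu
    · exact h2 u hu
    · simp only [List.mem_singleton] at hu
      exact hu ▸ h3
  · have : x :: (p ++ [v] ++ [w]) = (x :: p) ++ v :: [w] := by simp
    rw [this]
    exact chain_glue (by simpa using h4) (by simpa using ha)

lemma inB_one {x v : V} : InB G S x 1 v ↔ G.Adj x v ∧ v ∉ S := by
  constructor
  · rintro ⟨p, h1, _, h3, h4⟩
    have : p = [] := List.length_eq_zero_iff.mp (by omega)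
    subst this
    exact ⟨by simpa using h4, h3⟩
  · rintro ⟨h1, h2⟩
    exact ⟨[], by simp, by simp, h2, by simpa using h1⟩

lemma InB.link {x y v : V} {r : ℕ} (h : InB G S x r v) (ha : G.Adj v y) : ¬ NoL G S x y r := by
  obtain ⟨p, h1, h2, h3, h4⟩ := h
  intro hn
  obtain ⟨d, d1, d2, d3⟩ := walk_link (G := G) (S := S) x y r (p ++ [v]) (by simp; omega) (by simp)
    (by
      intro u hu
      rcases List.mem_append.mp hu with hu | hu
      · exact h2 u hu
      · simp only [List.mem_singleton] at hu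
        exact hu ▸ h3)
    (by
      have : x :: (p ++ [v] ++ [y]) = (x :: p) ++ v :: [y] := by simp
      rw [this]
      exact chain_glue (by simpa using h4) (by simpa using ha))
  exact hn d d1 d2 d3

lemma InB.back {x y v : V} {r s : ℕ} (h : InB G S x r v) (h' : InB G S y s v) :
    ¬ NoL G S x y (r + s - 1) := by
  obtain ⟨p, h1, h2, h3, h4⟩ := h
  obtain ⟨p', h1', h2', _, h4'⟩ := h'
  intro hn
  obtain ⟨d, d1, d2, d3⟩ := walk_link (G := G) (S := S) x y (r + s - 1) (p ++ v :: p'.reverse)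
    (by simp; omega) (by simp)
    (by
      intro u hu
      simp only [List.mem_append, List.mem_cons, List.mem_reverse] at hu
      rcases hu with hu | hu | hu
      · exact h2 u hu
      · exact hu ▸ h3
      · exact h2' u hu)
    (by
      have : x :: (p ++ v :: p'.reverse ++ [y]) = (x :: p) ++ v :: (p'.reverse ++ [y]) := by simp
      rw [this]
      exact chain_glue (by simpa using h4) (by simpa using chain_rev h4'))
  exact hn d d1 d2 d3

lemma Compat.sep {x y u w : V} {r s : ℕ} (hx : x ∈ S) (hy : y ∈ S) (h : Compat G S x r y s)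
    (hu : Lab G S x r u) (hw : Lab G S y s w) : u ≠ w ∧ ¬ G.Adj u w := by
  obtain ⟨c1, c2, c3⟩ := h
  rcases hu with ⟨rfl, rfl⟩ | hu <;> rcases hw with ⟨rfl, rfl⟩ | hw
  · exact ⟨c1, c2 rfl⟩
  · exact ⟨fun e => hw.not_mem (e ▸ hx), fun ha => hw.link ha.symm (c3.symm.mono (by omega))⟩
  · exact ⟨fun e => hu.not_mem (e ▸ hy), fun ha => hu.link ha (c3.mono (by omega))⟩
  · refine ⟨fun e => hu.back (e ▸ hw) (c3.mono (by omega)), fun ha => ?_⟩
    exact (hu.step ha hw.not_mem).back hw (c3.mono (by omega))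

lemma pack_aux {ι : Type} [DecidableEq ι] (x : ι → V) (r w : ι → ℕ) (s : Finset ι)
    (hx : ∀ a ∈ s, x a ∈ S) (hw : ∀ a ∈ s, HasW G S (x a) (r a) (w a))
    (hc : ∀ a ∈ s, ∀ b ∈ s, a ≠ b → Compat G S (x a) (r a) (x b) (r b)) :
    ∃ I : Finset V, G.IsIndepSet (I : Set V) ∧ I.card = ∑ a ∈ s, w a ∧
      ∀ v ∈ I, ∃ a ∈ s, Lab G S (x a) (r a) v := by
  classical
  induction s using Finset.induction_on with
  | empty => exact ⟨∅, by simp [SimpleGraph.IsIndepSet], by simp, by simp⟩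
  | insert a s ha ih =>
    obtain ⟨I, i1, i2, i3⟩ := ih (fun b hb => hx b (mem_insert_of_mem hb))
      (fun b hb => hw b (mem_insert_of_mem hb))
      (fun b hb c hc' => hc b (mem_insert_of_mem hb) c (mem_insert_of_mem hc'))
    obtain ⟨J, j1, j2, j3⟩ := hw a (mem_insert_self _ _)
    have hsep : ∀ u ∈ J, ∀ v ∈ I, u ≠ v ∧ ¬ G.Adj u v := by
      intro u hu v hv
      obtain ⟨b, hb, hl⟩ := i3 v hv
      exact (hc a (mem_insert_self _ _) b (mem_insert_of_mem hb)
        (fun e => ha (e ▸ hb))).sep (hx a (mem_insert_self _ _)) (hx b (mem_insert_of_mem hb))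
        (j3 u hu) hl
    refine ⟨J ∪ I, ?_, ?_, ?_⟩
    · intro u hu v hv huv
      simp only [coe_union, Set.mem_union, mem_coe] at hu hv
      rcases hu with hu | hu <;> rcases hv with hv | hv
      · exact j1 hu hv huv
      · exact (hsep u hu v hv).2
      · exact fun h => (hsep v hv u hu).2 h.symm
      · exact i1 hu hv huv
    · rw [card_union_of_disjoint, sum_insert ha, i2, j2]
      exact disjoint_left.mpr (fun u hu hv => (hsep u hu u hv).1 rfl)
    · intro v hv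
      rcases mem_union.mp hv with hv | hv
      · exact ⟨a, mem_insert_self _ _, j3 v hv⟩
      · obtain ⟨b, hb, hl⟩ := i3 v hv
        exact ⟨b, mem_insert_of_mem hb, hl⟩

lemma hasW_zero (x : V) : HasW G S x 0 1 :=
  ⟨{x}, by simp [SimpleGraph.IsIndepSet], by simp, by simp [Lab]⟩

lemma hasW_one {x u : V} {r : ℕ} (h : InB G S x r u) : HasW G S x r 1 :=
  ⟨{u}, by simp [SimpleGraph.IsIndepSet], by simp, fun v hv => Or.inr (mem_singleton.mp hv ▸ h)⟩

lemma hasW_two {x u w : V} {r : ℕ} (h : InB G S x r u) (h' : InB G S x r w) (hne : u ≠ w)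
    (ha : ¬ G.Adj u w) : HasW G S x r 2 := by
  classical
  refine ⟨{u, w}, ?_, card_pair hne, ?_⟩
  · intro a ha' b hb hab
    simp only [coe_insert, coe_singleton, Set.mem_insert_iff, Set.mem_singleton_iff] at ha' hb
    rcases ha' with rfl | rfl <;> rcases hb with rfl | rfl
    · exact absurd rfl hab
    · exact ha
    · exact fun h => ha h.symm
    · exact absurd rfl hab
  · intro v hv
    simp only [mem_insert, mem_singleton] at hv
    rcases hv with rfl | rfl
    · exact Or.inr h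
    · exact Or.inr h'

lemma HasW.mono {x : V} {r r' w : ℕ} (h : HasW G S x r w) (hr : 1 ≤ r) (hr' : r ≤ r') :
    HasW G S x r' w := by
  obtain ⟨I, h1, h2, h3⟩ := h
  refine ⟨I, h1, h2, fun v hv => ?_⟩
  rcases h3 v hv with h | h
  · omega
  · exact Or.inr (h.mono hr')

variable [Fintype V] {k t : ℕ}

lemma Ctx.pack (c : Ctx G k t) {ι : Type} [DecidableEq ι] (x : ι → V) (r w : ι → ℕ) (s : Finset ι)
    (hx : ∀ a ∈ s, x a ∈ S) (hw : ∀ a ∈ s, HasW G S (x a) (r a) (w a))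
    (hc : ∀ a ∈ s, ∀ b ∈ s, a ≠ b → Compat G S (x a) (r a) (x b) (r b))
    (hs : k + 1 ≤ ∑ a ∈ s, w a) : False := by
  obtain ⟨I, i1, i2, _⟩ := pack_aux x r w s hx hw hc
  have := c.alpha I i1
  omega

lemma Ctx.deg (c : Ctx G k t) (x : V) : k + 1 ≤ (nbhd G {x}).card := by
  have := c.exp {x} (by simp) (by simp [SimpleGraph.IsIndepSet])
  simpa using this

lemma Ctx.nonadj (c : Ctx G k t) (B : Finset V) (h : t < B.card) :
    ∃ u ∈ B, ∃ w ∈ B, u ≠ w ∧ ¬ G.Adj u w := by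
  by_contra hc
  push Not at hc
  have := c.clq B (fun u hu w hw hne => hc u hu w hw hne)
  omega

/-- The part of a closed neighbourhood outside `S` is large. -/
lemma out_card (I T : Finset V) (hT : ∀ y ∈ S, y ∈ nbhd G I → y ∈ T) :
    ∃ B : Finset V, (nbhd G I).card ≤ T.card + B.card ∧ ∀ v ∈ B, v ∉ S ∧ v ∈ nbhd G I := by
  classical
  refine ⟨nbhd G I \ S, ?_, fun v hv => ⟨(mem_sdiff.mp hv).2, (mem_sdiff.mp hv).1⟩⟩
  calc _ ≤ (T ∪ (nbhd G I \ S)).card := card_le_card (fun v hv => by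
        by_cases hS : v ∈ S
        · exact mem_union_left _ (hT v hS hv)
        · exact mem_union_right _ (mem_sdiff.mpr ⟨hv, hS⟩))
    _ ≤ _ := card_union_le _ _

lemma Ctx.out1 (c : Ctx G k t) {x : V} (hx : x ∈ S) (T : Finset V) (hxT : x ∈ T)
    (hT : ∀ y ∈ S, G.Adj x y → y ∈ T) :
    ∃ B : Finset V, k + 1 ≤ T.card + B.card ∧ ∀ v ∈ B, InB G S x 1 v := by
  obtain ⟨B, b1, b2⟩ := out_card (G := G) (S := S) {x} T (by
    intro y hy hn
    rw [mem_nbhd] at hn
    simp only [mem_singleton, exists_eq_left] at hn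
    rcases hn with rfl | hn
    · exact hxT
    · exact hT y hy hn)
  refine ⟨B, (c.deg x).trans b1, fun v hv => ?_⟩
  obtain ⟨h1, h2⟩ := b2 v hv
  rw [mem_nbhd] at h2
  simp only [mem_singleton, exists_eq_left] at h2
  rcases h2 with rfl | h2
  · exact absurd hx h1
  · exact inB_one.mpr ⟨h2, h1⟩

lemma Ctx.w1a (c : Ctx G k t) {x : V} (hx : x ∈ S) (T : Finset V) (hxT : x ∈ T)
    (hT : ∀ y ∈ S, G.Adj x y → y ∈ T) (h : T.card ≤ k) : ∃ u, InB G S x 1 u := by
  obtain ⟨B, b1, b2⟩ := c.out1 hx T hxT hT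
  obtain ⟨u, hu⟩ := card_pos.mp (by omega : 0 < B.card)
  exact ⟨u, b2 u hu⟩

lemma Ctx.w1b (c : Ctx G k t) {x : V} (hx : x ∈ S) (T : Finset V) (hxT : x ∈ T)
    (hT : ∀ y ∈ S, G.Adj x y → y ∈ T) (h : T.card + t ≤ k + 1) : HasW G S x 1 2 := by
  classical
  obtain ⟨B, b1, b2⟩ := c.out1 hx T hxT hT
  have hxB : x ∉ B := fun h => (b2 x h).not_mem hx
  obtain ⟨u, hu, w, hw, hne, ha⟩ := c.nonadj (insert x B) (by rw [card_insert_of_notMem hxB]; omega)
  rcases mem_insert.mp hu with e1 | hu' <;> rcases mem_insert.mp hw with e2 | hw'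
  · exact absurd (e1.trans e2.symm) hne
  · exact absurd (e1 ▸ (inB_one.mp (b2 w hw')).1) ha
  · exact absurd (e2 ▸ (inB_one.mp (b2 u hu')).1.symm) ha
  · exact hasW_two (b2 u hu') (b2 w hw') hne ha

lemma Ctx.out2 (c : Ctx G k t) {x u : V} {r : ℕ} (hu : InB G S x r u) (T : Finset V)
    (hT : ∀ y ∈ S, G.Adj u y → y ∈ T) :
    ∃ B : Finset V, k + 1 ≤ T.card + B.card ∧ ∀ v ∈ B, InB G S x (r + 1) v := by
  obtain ⟨B, b1, b2⟩ := out_card (G := G) (S := S) {u} T (by
    intro y hy hn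
    rw [mem_nbhd] at hn
    simp only [mem_singleton, exists_eq_left] at hn
    rcases hn with rfl | hn
    · exact absurd hy hu.not_mem
    · exact hT y hy hn)
  refine ⟨B, (c.deg u).trans b1, fun v hv => ?_⟩
  obtain ⟨h1, h2⟩ := b2 v hv
  rw [mem_nbhd] at h2
  simp only [mem_singleton, exists_eq_left] at h2
  rcases h2 with rfl | h2
  · exact hu.mono (by omega)
  · exact hu.step h2 h1

lemma Ctx.w2a (c : Ctx G k t) {x u : V} {r : ℕ} (hu : InB G S x r u) (T : Finset V)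
    (hT : ∀ y ∈ S, G.Adj u y → y ∈ T) (h : t + T.card ≤ k) : HasW G S x (r + 1) 2 := by
  obtain ⟨B, b1, b2⟩ := c.out2 hu T hT
  obtain ⟨a, ha, b, hb, hne, hadj⟩ := c.nonadj B (by omega)
  exact hasW_two (b2 a ha) (b2 b hb) hne hadj

lemma Ctx.far (c : Ctx G k t) {x u : V} (hx : x ∈ S) (hu : InB G S x 1 u) (T : Finset V)
    (hT : ∀ y ∈ S, G.Adj u y → y ∈ T) (h : t + T.card ≤ k + 1) :
    HasW G S x 2 2 ∨ ∃ w, InB G S x 2 w ∧ ¬ G.Adj x w := by
  classical
  obtain ⟨B, b1, b2⟩ := c.out2 hu T hT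
  have hxB : x ∉ B := fun h => (b2 x h).not_mem hx
  obtain ⟨a, ha, b, hb, hne, hadj⟩ := c.nonadj (insert x B)
    (by rw [card_insert_of_notMem hxB]; omega)
  rcases mem_insert.mp ha with e1 | ha' <;> rcases mem_insert.mp hb with e2 | hb'
  · exact absurd (e1.trans e2.symm) hne
  · exact Or.inr ⟨b, b2 b hb', e1 ▸ hadj⟩
  · exact Or.inr ⟨a, b2 a ha', fun h => hadj (e2 ▸ h.symm)⟩
  · exact Or.inl (hasW_two (b2 a ha') (b2 b hb') hne hadj)

lemma Ctx.wup (c : Ctx G k t) {x : V} {r : ℕ} (hr : 1 ≤ r) (hw : HasW G S x r 2) (T : Finset V)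
    (hT : ∀ y ∈ S, y ∈ T ∨ NoL G S x y r) (h : 2 * t + T.card ≤ 2 * k) :
    HasW G S x (r + 1) 3 := by
  obtain ⟨I, i1, i2, i3⟩ := hw
  have i4 : ∀ v ∈ I, InB G S x r v := fun v hv => by
    rcases i3 v hv with h | h
    · omega
    · exact h
  obtain ⟨B, b1, b2⟩ := out_card (G := G) (S := S) I T (by
    intro y hy hn
    rw [mem_nbhd] at hn
    rcases hn with hn | ⟨u, hu, hn⟩
    · exact absurd hy (i4 y hn).not_mem
    · rcases hT y hy with h | h
      · exact h
      · exact absurd h ((i4 u hu).link hn))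
  have he := c.exp I (card_pos.mp (by omega)) i1
  rw [i2] at he
  have : ¬ ∀ J : Finset V, J ⊆ B → G.IsIndepSet (J : Set V) → J.card ≤ 2 := fun hJ => by
    have := c.two B hJ
    omega
  push Not at this
  obtain ⟨J, j1, j2, j3⟩ := this
  obtain ⟨J', k1, k2⟩ := exists_subset_card_eq (by omega : 3 ≤ J.card)
  refine ⟨J', j2.mono (by exact_mod_cast k1), k2, fun v hv => Or.inr ?_⟩
  obtain ⟨h1, h2⟩ := b2 v (j1 (k1 hv))
  rw [mem_nbhd] at h2
  rcases h2 with h2 | ⟨u, hu, h2⟩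
  · exact (i4 v h2).mono (by omega)
  · exact (i4 u hu).step h2 h1

end Vale.Agent.P048
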