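import Mathlib

namespace Vale.Agent.P048

open Finset

variable {V : Type}

/-- A cycle on exactly `n` vertices, written as a list. -/
def Cyc (G : SimpleGraph V) (n : ℕ) : Prop :=
  ∃ (a : V) (l : List V), (a :: l).Nodup ∧ l.length + 1 = n ∧
    List.IsChain G.Adj (a :: (l ++ [a]))

open Classical in
/-- The closed neighbourhood of a finite set. -/
noncomputable def nbhd [Fintype V] (G : SimpleGraph V) (I : Finset V) : Finset V :=
  univ.filter (fun v => v ∈ I ∨ ∃ u ∈ I, G.Adj u v)

lemma mem_nbhd [Fintype V] {G : SimpleGraph V} {I : Finset V} {v : V} :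
    v ∈ nbhd G I ↔ v ∈ I ∨ ∃ u ∈ I, G.Adj u v := by
  classical
  simp [nbhd]

/-- Properties of a minimal counterexample. -/
structure Min [Fintype V] (G : SimpleGraph V) (k : ℕ) : Prop where
  nocyc : ¬ Cyc G (k + 1)
  alpha : ∀ I : Finset V, G.IsIndepSet (I : Set V) → I.card ≤ k
  exp : ∀ I : Finset V, I.Nonempty → G.IsIndepSet (I : Set V) → k * I.card + 1 ≤ (nbhd G I).card
  card : Fintype.card V ≤ k ^ 2 + 1

end Vale.Agent.P048
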