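import Vale.Agent.P048.Enum

namespace Vale.Agent.P048

def exList : List (ℕ × List ℕ) := [
  (3, [0, 0, 0]),
  (4, [0, 0, 0]),
  (4, [0, 1, 0]),
  (5, [0, 1, 0]),
  (6, [0, 1, 0]),
  (5, [0, 1, 1]),
  (6, [0, 1, 1]),
  (5, [0, 2, 0]),
  (6, [0, 2, 0]),
  (6, [0, 2, 1]),
  (6, [0, 3, 0]),
  (4, [0, 0, 0, 0]),
  (5, [0, 1, 0, 0]),
  (6, [0, 1, 0, 1]),
  (6, [0, 1, 1, 0]),
  (6, [0, 2, 0, 0]),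
  (7, [0, 2, 0, 1]),
  (7, [0, 2, 1, 0]),
  (7, [0, 3, 0, 0]),
  (8, [0, 3, 0, 0]),
  (8, [0, 2, 0, 2]),
  (8, [0, 2, 2, 0]),
  (8, [0, 3, 0, 1]),
  (8, [0, 3, 1, 0]),
  (8, [0, 4, 0, 0]),
  (8, [0, 3, 0, 0, 0]),
  (9, [0, 2, 2, 0, 0]),
  (9, [0, 4, 0, 0, 0]),
  (10, [0, 4, 0, 0, 0]),
  (10, [0, 3, 0, 2, 0]),
  (10, [0, 3, 2, 0, 0]),
  (10, [0, 4, 0, 1, 0]),
  (10, [0, 4, 1, 0, 0]),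
  (10, [0, 5, 0, 0, 0]),
  (10, [0, 2, 0, 2, 0, 0]),
  (10, [0, 4, 0, 0, 0, 0]),
  (11, [0, 3, 0, 2, 0, 0]),
  (11, [0, 5, 0, 0, 0, 0]),
  (12, [0, 2, 2, 0, 2, 0]),
  (12, [0, 2, 2, 2, 0, 0]),
  (12, [0, 3, 0, 3, 0, 0]),
  (12, [0, 3, 3, 0, 0, 0]),
  (12, [0, 4, 0, 2, 0, 0]),
  (12, [0, 5, 0, 1, 0, 0]),
  (12, [0, 5, 1, 0, 0, 0]),
  (12, [0, 6, 0, 0, 0, 0]),
  (13, [0, 2, 2, 0, 2, 0, 0]),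
  (13, [0, 3, 0, 3, 0, 0, 0]),
  (14, [0, 3, 0, 2, 2, 0, 0]),
  (14, [0, 3, 2, 0, 2, 0, 0]),
  (14, [0, 4, 0, 3, 0, 0, 0]),
  (14, [0, 2, 0, 2, 0, 2, 0, 0]),
  (15, [0, 3, 0, 2, 0, 2, 0, 0]),
  (16, [0, 2, 2, 0, 2, 2, 0, 0]),
  (16, [0, 2, 2, 2, 0, 2, 0, 0]),
  (16, [0, 3, 0, 3, 0, 2, 0, 0]),
  (16, [0, 4, 0, 2, 0, 2, 0, 0]),
  (16, [0, 4, 0, 4, 0, 0, 0, 0]),
  (17, [0, 2, 2, 0, 2, 0, 2, 0, 0]),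
  (18, [0, 3, 0, 2, 2, 0, 2, 0, 0]),
  (18, [0, 3, 0, 3, 0, 3, 0, 0, 0]),
  (18, [0, 3, 2, 0, 2, 0, 2, 0, 0])]

def finC (t L a b : ℕ) : Bool :=
  (Nat.beq b 0 && badGo [a, 0] 0 0 16) || enum (allK exList t L) (t - 3) (L - a - b) [b, a, 0]

lemma fin_of (t L : ℕ) (ht : 3 ≤ t) (h : ∀ a ≤ L, ∀ b ≤ L - a, finC t L a b = true) :
    finB exList t L = true := by
  obtain ⟨n, rfl⟩ : ∃ n, t = n + 3 := ⟨t - 3, by omega⟩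
  change enum (allK exList (n + 3) L) (n + 1 + 1) L [0] = true
  simp only [enum, List.all_eq_true, List.mem_range]
  intro a ha
  rw [Bool.or_eq_true, List.all_eq_true]
  right
  intro b hb
  exact h a (by omega) b (by have := List.mem_range.mp hb; omega)

end Vale.Agent.P048
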