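import Vale.Agent.P048.Cert1
import Vale.Agent.P048.Cert2
import Vale.Agent.P048.Cert3
import Vale.Agent.P048.Cert4
import Vale.Agent.P048.ExList

namespace Vale.Agent.P048

theorem exList_ok : ∀ a ∈ exList, ∃ ce, checkShape a.1 a.2 ce = true := by
  simp only [exList, List.forall_mem_cons, List.not_mem_nil, false_imp_iff, implies_true,
    and_true]
  exact ⟨⟨_, t3_000⟩,
    ⟨_, t4_000⟩,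
    ⟨_, t4_010⟩,
    ⟨_, t5_010⟩,
    ⟨_, t6_010⟩,
    ⟨_, t5_011⟩,
    ⟨_, t6_011⟩,
    ⟨_, t5_020⟩,
    ⟨_, t6_020⟩,
    ⟨_, t6_021⟩,
    ⟨_, t6_030⟩,
    ⟨_, t4_0000⟩,
    ⟨_, t5_0100⟩,
    ⟨_, t6_0101⟩,
    ⟨_, t6_0110⟩,
    ⟨_, t6_0200⟩,
    ⟨_, t7_0201⟩,
    ⟨_, t7_0210⟩,
    ⟨_, t7_0300⟩,
    ⟨_, t8_0300⟩,
    ⟨_, t8_0202⟩,
    ⟨_, t8_0220⟩,
    ⟨_, t8_0301⟩,
    ⟨_, t8_0310⟩,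
    ⟨_, t8_0400⟩,
    ⟨_, t8_03000⟩,
    ⟨_, t9_02200⟩,
    ⟨_, t9_04000⟩,
    ⟨_, t10_04000⟩,
    ⟨_, t10_03020⟩,
    ⟨_, t10_03200⟩,
    ⟨_, t10_04010⟩,
    ⟨_, t10_04100⟩,
    ⟨_, t10_05000⟩,
    ⟨_, t10_020200⟩,
    ⟨_, t10_040000⟩,
    ⟨_, t11_030200⟩,
    ⟨_, t11_050000⟩,
    ⟨_, t12_022020⟩,
    ⟨_, t12_022200⟩,
    ⟨_, t12_030300⟩,
    ⟨_, t12_033000⟩,
    ⟨_, t12_040200⟩,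
    ⟨_, t12_050100⟩,
    ⟨_, t12_051000⟩,
    ⟨_, t12_060000⟩,
    ⟨_, t13_0220200⟩,
    ⟨_, t13_0303000⟩,
    ⟨_, t14_0302200⟩,
    ⟨_, t14_0320200⟩,
    ⟨_, t14_0403000⟩,
    ⟨_, t14_02020200⟩,
    ⟨_, t15_03020200⟩,
    ⟨_, t16_02202200⟩,
    ⟨_, t16_02220200⟩,
    ⟨_, t16_03030200⟩,
    ⟨_, t16_04020200⟩,
    ⟨_, t16_04040000⟩,
    ⟨_, t17_022020200⟩,
    ⟨_, t18_030220200⟩,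
    ⟨_, t18_030303000⟩,
    ⟨_, t18_032020200⟩⟩

end Vale.Agent.P048
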