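import Vale.Agent.P048.Ball

namespace Vale.Agent.P048

open Finset

structure Par where
  k : ℕ
  t : ℕ
  L : ℕ
  e : ℕ
  f : ℕ

structure Cfg where
  n : ℕ
  E : ℕ
  F : ℕ

def impB (k t L e f L' e' f' : ℕ) : Bool :=
  (Nat.ble (L' + t) (k + 1 + f') && Nat.ble (k + 1) (L' + t)) ||
  (Nat.ble (L + 1) L' && Nat.ble (t + L') k) ||
  (Nat.beq L' L && (Nat.ble (e' + 1) e || (Nat.ble e' e && Nat.ble (f + 1) f')))

lemma impB_sound {k t L e f L' e' f' : ℕ} (h : impB k t L e f L' e' f' = true) :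
    Imp k t L e f L' e' f' := by
  simp only [impB, Bool.or_eq_true, Bool.and_eq_true, Nat.ble_eq, Nat.beq_eq] at h
  unfold Imp
  omega

def tb (E i : ℕ) : Bool := Nat.beq (Nat.land (Nat.shiftRight E i) 1) 1

lemma tb_eq (E i : ℕ) : tb E i = E.testBit i := by
  have h : Nat.land (Nat.shiftRight E i) 1 = (E >>> i) % 2 := Nat.and_one_is_mod _
  unfold tb
  rw [h, Nat.testBit, Nat.one_and_eq_mod_two]
  rcases Nat.mod_two_eq_zero_or_one (E >>> i) with h | h <;> rw [h] <;> rfl

def sb (E i : ℕ) : ℕ := Nat.lor E (Nat.shiftLeft 1 i)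

lemma tb_sb (E i j : ℕ) : tb (sb E i) j = true ↔ tb E j = true ∨ i = j := by
  have h : sb E i = E ||| 2 ^ i := by
    rw [← Nat.one_shiftLeft]; rfl
  rw [tb_eq, tb_eq, h, Nat.testBit_or, Nat.testBit_two_pow]
  simp

def adjB (E x y : ℕ) : Bool := tb E (32 * x + y) || tb E (32 * y + x)
def fB (F x y d : ℕ) : Bool := tb F (8 * (32 * x + y) + d) || tb F (8 * (32 * y + x) + d)

def chainB (E : ℕ) (a : ℕ) : List ℕ → Bool
  | [] => true
  | b :: l => adjB E a b && chainB E b l

def nd (n : ℕ) : List ℕ → ℕ → Bool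
  | [], _ => true
  | x :: l, m => Nat.ble (x + 1) n && !tb m x && nd n l (sb m x)

def allAdj (E x : ℕ) : List ℕ → Bool
  | [] => true
  | y :: l => adjB E x y && allAdj E x l

def clqB (E : ℕ) : List ℕ → Bool
  | [] => true
  | x :: l => allAdj E x l && clqB E l

def blkB (E : ℕ) (a : ℕ) : List (List ℕ × ℕ) → Bool
  | [] => true
  | b :: l => chainB E a (b.1 ++ [b.2]) && blkB E b.2 l

def eeL : List ℕ → ℕ
  | [] => 0
  | a :: l => (if a = 0 then 0 else 1) + eeL l

def ffL : List ℕ → ℕ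
  | [] => 0
  | a :: l => (if a = 0 ∧ l.getD 0 0 = 0 then 1 else 0) + ffL l

def sysB (p : Par) (c : Cfg) (q0 : ℕ) (bs : List (List ℕ × ℕ)) : Bool :=
  Nat.beq (bs.length + 1) p.t &&
  nd c.n (q0 :: bs.flatMap (fun b => b.1 ++ [b.2])) 0 &&
  clqB c.E (q0 :: bs.map (fun b => b.2)) && blkB c.E q0 bs &&
  impB p.k p.t p.L p.e p.f (0 :: bs.map (fun b => b.1.length)).sum
    (eeL (0 :: bs.map (fun b => b.1.length))) (ffL (0 :: bs.map (fun b => b.1.length)))

def digs : ℕ → ℕ → List ℕ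
  | 0, _ => []
  | s + 1, c => if c = 0 then [] else (c % 64 - 1) :: digs s (c / 64)

def parse : List ℕ → List ℕ × List (List ℕ × ℕ)
  | [] => ([], [])
  | a :: l => match parse l with
    | (r, bs) => if a < 32 then (a :: r, bs) else ([], (r, a - 32) :: bs)

def leafB (p : Par) (c : Cfg) (code : ℕ) : Bool :=
  match digs 40 code with
  | 0 :: q0 :: l => sysB p c q0 (parse l).2.reverse
  | 1 :: a :: l => Nat.beq l.length p.k && nd c.n (a :: l) 0 && chainB c.E a (l ++ [a])
  | 2 :: l => Nat.beq l.length (p.t + 1) && nd c.n l 0 && clqB c.E l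
  | _ => false

def addPath (E : ℕ) (a : ℕ) : List ℕ → ℕ
  | [] => E
  | b :: l => addPath (sb E (32 * a + b)) b l

def addLink (c : Cfg) (x y d : ℕ) : Cfg :=
  ⟨c.n + d, addPath c.E x (List.range' c.n d ++ [y]), c.F⟩

def addF (c : Cfg) (x y d : ℕ) : Cfg := ⟨c.n, c.E, sb c.F (8 * (32 * x + y) + d)⟩

def okL (c : Cfg) (x y d : ℕ) : Bool :=
  Nat.ble (x + 1) c.n && Nat.ble (y + 1) c.n && Nat.ble d 7 && Nat.ble (c.n + d) 32

def factsB (p : Par) : List ℕ → Cfg → Option Cfg
  | [], c => some c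
  | a :: l, c =>
    bif okL c (a % 32) (a / 32 % 32) (a / 1024 % 8) &&
      leafB p (addLink c (a % 32) (a / 32 % 32) (a / 1024 % 8)) (a / 8192)
    then factsB p l (addF c (a % 32) (a / 32 % 32) (a / 1024 % 8)) else none

def nolB (F x y : ℕ) : ℕ → Bool
  | 0 => true
  | D + 1 => fB F x y (D + 1) && nolB F x y D

def possL (c : Cfg) (x : ℕ) : List ℕ :=
  (List.range c.n).filter (fun y => Nat.beq y x || !fB c.F x y 0)

def nearL (c : Cfg) (x r : ℕ) : List ℕ :=
  (List.range c.n).filter (fun y => Nat.beq y x || !nolB c.F x y r)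

def cls (code y : ℕ) : ℕ := code / 16 ^ y % 16

def omB (p : Par) (c : Cfg) (x code : ℕ) : Bool :=
  (nearL c x 1).all (fun y => Nat.ble (cls code y + 1 + p.t) p.k &&
    (nearL c x 1).all (fun z => Nat.ble z y || !Nat.beq (cls code y) (cls code z) ||
      fB c.F y z 1))

def w2B (p : Par) (c : Cfg) (x r code : ℕ) : Bool :=
  (Nat.ble 1 r && Nat.ble ((possL c x).length + p.t) (p.k + 1)) ||
  (Nat.ble 2 r && Nat.ble (possL c x).length p.k && omB p c x code)

def labB (p : Par) (c : Cfg) (x r w code : ℕ) : Bool :=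
  Nat.ble (x + 1) c.n &&
  ((Nat.beq r 0 && Nat.beq w 1) ||
   (Nat.ble 1 r && Nat.beq w 1 && Nat.ble (possL c x).length p.k) ||
   (Nat.beq w 2 && w2B p c x r code) ||
   (Nat.beq w 3 && Nat.ble 2 r && w2B p c x (r - 1) code &&
     Nat.ble (2 * p.t + (nearL c x (r - 1)).length) (2 * p.k)))

def lx (a : ℕ) : ℕ := a % 32
def lr (a : ℕ) : ℕ := a / 32 % 4
def lw (a : ℕ) : ℕ := a / 128 % 4

def cmpB (c : Cfg) (a b : ℕ) : Bool :=
  !Nat.beq (lx a) (lx b) && (Nat.ble 1 (lr a + lr b) || fB c.F (lx a) (lx b) 0) &&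
    nolB c.F (lx a) (lx b) (lr a + lr b)

def pwB (c : Cfg) : List ℕ → Bool
  | [] => true
  | a :: l => l.all (cmpB c a) && pwB c l

def packB (p : Par) (c : Cfg) (l : List ℕ) : Bool :=
  l.all (fun a => labB p c (lx a) (lr a) (lw a) (a / 512)) && pwB c l &&
    Nat.ble (p.k + 1) (l.map lw).sum

inductive Cert where
  | leaf (code : ℕ)
  | facts (l : List ℕ) (rest : Cert)
  | link (x y d : ℕ) (yes no : Cert)
  | nbr (x : ℕ) (rest : Cert)
  | count (x : ℕ)
  | pack (l : List ℕ)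

def check (p : Par) : Cert → Cfg → Bool
  | .leaf code, c => leafB p c code
  | .facts l rest, c => match factsB p l c with
    | some c' => check p rest c'
    | none => false
  | .link x y d yes no, c => okL c x y d && check p yes (addLink c x y d) &&
      check p no (addF c x y d)
  | .nbr x rest, c => okL c x x 1 && Nat.ble (possL c x).length p.k &&
      check p rest ⟨c.n + 1, addPath c.E x [c.n], c.F⟩
  | .count x, c => Nat.ble (x + 1) c.n &&
      Nat.ble (p.k ^ 2 + 1 + (possL c x).length) (p.k + c.n)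
  | .pack l, c => packB p c l

def flags (s : List ℕ) : List Bool := s.flatMap (fun a => List.replicate a false ++ [true])

def addAll (E x : ℕ) : List ℕ → ℕ
  | [] => E
  | y :: l => addAll (sb E (32 * x + y)) x l

def addClq (E : ℕ) : List ℕ → ℕ
  | [] => E
  | x :: l => addClq (addAll E x l) l

def initCfg (s : List ℕ) : Cfg :=
  ⟨s.length + s.sum,
    addClq (addPath 0 0 (List.range' 1 (s.length + s.sum - 1)))
      ((List.range (s.length + s.sum)).filter (fun x => (flags s).getD x false)), 0⟩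

def checkShape (k : ℕ) (s : List ℕ) (ce : Cert) : Bool :=
  Nat.ble (s.length + s.sum) 32 && check ⟨k, s.length, s.sum, eeL s, ffL s⟩ ce (initCfg s)

end Vale.Agent.P048
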