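import Vale.Agent.P048.Strat
import Vale.Agent.P048.Arith

namespace Vale.Agent.P048

open Finset

lemma exists_typed (O : Finset ℕ) (τ p : ℕ → ℕ) (n : ℕ)
    (h : ∀ c < n, p c ≤ (O.filter (fun m => τ m = c)).card) :
    ∃ Ds ⊆ O, (∀ m ∈ Ds, τ m < n) ∧
      ∀ φ : ℕ → ℕ, ∑ m ∈ Ds, φ (τ m) = ∑ c ∈ range n, p c * φ c := by
  induction n with
  | zero => exact ⟨∅, by simp, by simp, by simp⟩
  | succ n ih =>
    obtain ⟨Ds, d1, d2, d3⟩ := ih (fun c hc => h c (by omega))
    obtain ⟨P, p1, p2⟩ := exists_subset_card_eq (h n (by omega))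
    have p3 : ∀ m ∈ P, m ∈ O ∧ τ m = n := fun m hm => mem_filter.mp (p1 hm)
    refine ⟨Ds ∪ P, union_subset d1 (fun m hm => (p3 m hm).1), fun m hm => ?_, fun φ => ?_⟩
    · rcases mem_union.mp hm with hm | hm
      · have := d2 m hm
        omega
      · have := (p3 m hm).2
        omega
    · have e : ∑ m ∈ P, φ (τ m) = ∑ _m ∈ P, φ n :=
        sum_congr rfl (fun m hm => by rw [(p3 m hm).2])
      rw [sum_union, sum_range_succ, d3, e, sum_const, p2, smul_eq_mul]
      refine disjoint_left.mpr (fun m hm hm' => ?_)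
      have := d2 m hm
      have := (p3 m hm').2
      omega

lemma sum_typed (O : Finset ℕ) (τ φ : ℕ → ℕ) (n : ℕ) (h : ∀ m ∈ O, τ m < n) :
    ∑ m ∈ O, φ (τ m) = ∑ c ∈ range n, (O.filter (fun m => τ m = c)).card * φ c := by
  rw [← sum_fiberwise_of_maps_to (s := O) (t := range n) (g := τ)
    (fun m hm => mem_range.mpr (h m hm))]
  refine sum_congr rfl (fun c _ => ?_)
  rw [sum_congr rfl (fun m hm => by rw [(mem_filter.mp hm).2]), sum_const, smul_eq_mul]

def ty (l : ℕ → ℕ) (m : ℕ) : ℕ :=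
  if l m = 0 then (if l (m + 1) = 0 then 10 else 11)
  else if l m ≤ 4 then (if l (m + 1) = 0 then l m - 1 else l m + 3)
  else (if l (m + 1) = 0 then 8 else 9)

def oth (t i j : ℕ) : Finset ℕ := ((range t).erase i).erase j

def NN (l : ℕ → ℕ) (t i j c : ℕ) : ℕ := ((oth t i j).filter (fun m => ty l m = c)).card

lemma sum_oth (g : ℕ → ℕ) {t i j : ℕ} (hi : i < t) (hj : j < t) (hij : i ≠ j) :
    ∑ m ∈ range t, g m = ∑ m ∈ oth t i j, g m + g i + g j := by
  unfold oth
  rw [← sum_erase_add _ _ (mem_range.mpr hi),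
    ← sum_erase_add _ _ (mem_erase.mpr ⟨hij.symm, mem_range.mpr hj⟩)]
  omega

lemma sum_oth_ty (l φ : ℕ → ℕ) (t i j : ℕ) :
    ∑ m ∈ oth t i j, φ (ty l m) = ∑ c ∈ range 12, NN l t i j c * φ c :=
  sum_typed _ _ _ _ (fun m _ => by unfold ty; split_ifs <;> omega)

def nz (a : ℕ) : ℕ := if a = 0 then 0 else 1
def fr1 (l : ℕ → ℕ) (m : ℕ) : ℕ := if l m = 0 ∧ l (m + 1) = 0 then 1 else 0
def la1 (l : ℕ → ℕ) (m : ℕ) : ℕ := if l m ≠ 0 ∧ l (m + 1) = 0 then 1 else 0

lemma cov_of_aw {k t : ℕ} {l : ℕ → ℕ} {i j d : ℕ} (hi : i < t) (hj : j < t) (hij : i ≠ j)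
    (hk : t + LL l t ≤ k)
    (h : AW (NN l t i j 0) (NN l t i j 1) (NN l t i j 2) (NN l t i j 3) (NN l t i j 4)
      (NN l t i j 5) (NN l t i j 6) (NN l t i j 7) (k - (t + LL l t)) (NN l t i j 10)
      (fr1 l i + fr1 l j) (nz (l i) + nz (l j)) d) : Cov k t l i j d := by
  obtain ⟨p1, p2, p3, p4, q1, q2, q3, q4, a1, a2, a3, a4, a5, a6, a7, a8, hc⟩ := h
  obtain ⟨Ds, d1, d2, d3⟩ := exists_typed (oth t i j) (ty l)
    (fun c => [p1, p2, p3, p4, q1, q2, q3, q4].getD c 0) 8 (by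
      intro c hc
      interval_cases c <;> assumption)
  have hO : ∀ m ∈ Ds, m < t ∧ m ≠ i ∧ m ≠ j := fun m hm => by
    have := d1 hm
    simp only [oth, mem_erase, mem_range] at this
    tauto
  have hsub : range t ∩ Ds = Ds := inter_eq_right.mpr (fun m hm => mem_range.mpr (hO m hm).1)
  have hty : ∀ m ∈ Ds, l m = ty l m % 4 + 1 ∧ (ty l m < 4 → l (m + 1) = 0) := fun m hm => by
    have := d2 m hm
    unfold ty at this ⊢
    split_ifs at this ⊢ <;> omega
  refine ⟨fun m => decide (m ∈ Ds), by simpa using fun h => (hO i h).2.1 rfl,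
    by simpa using fun h => (hO j h).2.2 rfl, ?_⟩
  have e1 : Lst l (fun m => decide (m ∈ Ds)) t + ∑ m ∈ Ds, (ty l m % 4 + 1) = LL l t := by
    rw [← sum_congr rfl (fun m hm => (hty m hm).1)]
    conv_lhs => rw [← hsub]
    rw [← sum_ite_mem, hsub]
    unfold Lst LL
    rw [← sum_add_distrib]
    refine sum_congr rfl (fun m _ => ?_)
    by_cases hm : m ∈ Ds <;> simp [hm]
  have e2 : est l (fun m => decide (m ∈ Ds)) i j t + ∑ _m ∈ Ds, 1 + nz (l i) + nz (l j) =
      ee l t + 1 := by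
    have : ∑ _m ∈ Ds, 1 = ∑ m ∈ oth t i j, if m ∈ Ds then 1 else 0 := by
      rw [sum_ite_mem, inter_eq_right.mpr d1]
    rw [this]
    unfold est ee
    rw [sum_oth _ hi hj hij, sum_oth (fun m => if l m = 0 then 0 else 1) hi hj hij,
      if_pos (by simp [zz]), if_pos (by simp [zz])]
    have : ∑ m ∈ oth t i j, (if zz l (fun m => decide (m ∈ Ds)) i j m then 0 else 1) +
        ∑ m ∈ oth t i j, (if m ∈ Ds then 1 else 0) =
        ∑ m ∈ oth t i j, if l m = 0 then 0 else 1 := by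
      rw [← sum_add_distrib]
      refine sum_congr rfl (fun m hm => ?_)
      simp only [oth, mem_erase] at hm
      by_cases h1 : m ∈ Ds
      · have := (hty m h1).1
        rw [if_pos (by simp [zz, h1]), if_pos h1, if_neg (by omega)]
      · simp [zz, h1, hm.1, hm.2.1]
    unfold nz
    omega
  have e3 : NN l t i j 10 + ∑ m ∈ Ds, (if ty l m < 4 then 1 else 0) ≤
      fst l (fun m => decide (m ∈ Ds)) i j t := by
    have : ∑ m ∈ Ds, (if ty l m < 4 then 1 else 0) =
        ∑ m ∈ oth t i j, if m ∈ Ds then (if ty l m < 4 then 1 else 0) else 0 := by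
      rw [sum_ite_mem, inter_eq_right.mpr d1]
    rw [this]
    unfold fst NN
    rw [sum_oth _ hi hj hij, card_filter, ← sum_add_distrib, add_assoc]
    refine le_trans (sum_le_sum (fun m hm => ?_)) (Nat.le_add_right _ _)
    simp only [oth, mem_erase] at hm
    by_cases h1 : m ∈ Ds
    · have h2 := hty m h1
      have h3 := d2 m h1
      rw [if_neg (by omega), if_pos h1]
      split_ifs with h4 h5
      · omega
      · exact absurd ⟨by simp [zz, h1], Or.inl (h2.2 h4), hm.2.1, hm.1⟩ h5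
      · omega
      · omega
    · rw [if_neg h1]
      split_ifs with h4 h5
      · omega
      · refine absurd ⟨Or.inl ?_, Or.inl ?_, hm.2.1, hm.1⟩ h5 <;> unfold ty at h4 <;>
          split_ifs at h4 <;> omega
      · omega
      · omega
  have e4 : ff l t = NN l t i j 10 + fr1 l i + fr1 l j := by
    unfold ff
    rw [sum_oth _ hi hj hij]
    unfold fr1 NN
    rw [card_filter]
    congr 2
    refine sum_congr rfl (fun m _ => ?_)
    unfold ty
    split_ifs <;> omega
  rw [d3 (fun c => c % 4 + 1)] at e1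
  rw [d3 (fun _ => 1)] at e2
  rw [d3 (fun c => if c < 4 then 1 else 0)] at e3
  simp only [sum_range_succ, sum_range_zero, List.getD_cons_zero, List.getD_cons_succ] at e1 e2 e3
  norm_num at e1 e2 e3
  unfold Imp
  omega

lemma count_eqs {t : ℕ} {l : ℕ → ℕ} {i j : ℕ} (hi : i < t) (hj : j < t) (hij : i ≠ j)
    (h0 : l 0 = 0) (ht : l t = 0) :
    t = 2 * (NN l t i j 0 + NN l t i j 1 + NN l t i j 2 + NN l t i j 3 + NN l t i j 8) +
      (NN l t i j 4 + NN l t i j 5 + NN l t i j 6 + NN l t i j 7 + NN l t i j 9) +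
      (nz (l i) + nz (l j)) + (la1 l i + la1 l j) + NN l t i j 10 + (fr1 l i + fr1 l j) ∧
    NN l t i j 0 + NN l t i j 4 + 2 * (NN l t i j 1 + NN l t i j 5) +
      3 * (NN l t i j 2 + NN l t i j 6) + 4 * (NN l t i j 3 + NN l t i j 7) +
      5 * (NN l t i j 8 + NN l t i j 9) + (l i + l j) ≤ LL l t ∧
    ff l t = NN l t i j 10 + (fr1 l i + fr1 l j) := by
  refine ⟨?_, ?_, ?_⟩
  · have a1 : ∑ m ∈ range t, (if l (m + 1) = 0 then 1 else 0) =
        ∑ m ∈ range t, (if l m = 0 then 1 else 0) := by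
      have b1 := sum_range_succ (fun m => if l m = 0 then 1 else 0) t
      have b2 := sum_range_succ' (fun m => if l m = 0 then 1 else 0) t
      rw [if_pos ht] at b1
      rw [if_pos h0] at b2
      omega
    have a2 : t = ∑ m ∈ range t, (nz (l m) + if l (m + 1) = 0 then 1 else 0) := by
      rw [sum_add_distrib, a1, ← sum_add_distrib,
        sum_congr rfl (g := fun _ => 1) (fun m _ => by unfold nz; split_ifs <;> rfl)]
      simp
    have a3 := sum_oth_ty l (fun c => [2, 2, 2, 2, 1, 1, 1, 1, 2, 1, 1, 0].getD c 0) t i j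
    rw [sum_oth _ hi hj hij, sum_congr rfl
      (g := fun m => [2, 2, 2, 2, 1, 1, 1, 1, 2, 1, 1, 0].getD (ty l m) 0) (fun m _ => by
        unfold nz ty
        split_ifs
        all_goals first
          | rfl
          | (have : l m = 1 ∨ l m = 2 ∨ l m = 3 ∨ l m = 4 := by omega
             rcases this with h | h | h | h <;> rw [h] <;> rfl)), a3] at a2
    simp only [sum_range_succ, sum_range_zero, List.getD_cons_zero, List.getD_cons_succ] at a2
    have b : ∀ m, (if l (m + 1) = 0 then 1 else 0) = la1 l m + fr1 l m := fun m => by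
      unfold la1 fr1
      split_ifs <;> omega
    rw [b, b] at a2
    omega
  · have a3 := sum_oth_ty l (fun c => [1, 2, 3, 4, 1, 2, 3, 4, 5, 5, 0, 0].getD c 0) t i j
    have a4 : ∑ m ∈ oth t i j, [1, 2, 3, 4, 1, 2, 3, 4, 5, 5, 0, 0].getD (ty l m) 0 ≤
        ∑ m ∈ oth t i j, l m := sum_le_sum (fun m _ => by
        unfold ty
        split_ifs
        all_goals first
          | (simp; done)
          | (simp; omega)
          | (have : l m = 1 ∨ l m = 2 ∨ l m = 3 ∨ l m = 4 := by omega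
             rcases this with h | h | h | h <;> rw [h] <;> simp))
    rw [a3] at a4
    simp only [sum_range_succ, sum_range_zero, List.getD_cons_zero, List.getD_cons_succ] at a4
    unfold LL
    rw [sum_oth _ hi hj hij]
    omega
  · unfold ff
    rw [sum_oth _ hi hj hij, add_assoc]
    unfold fr1 NN
    rw [card_filter]
    congr 1
    refine sum_congr rfl (fun m _ => ?_)
    unfold ty
    split_ifs <;> omega

lemma cov_large {k t : ℕ} {l : ℕ → ℕ} {i j d : ℕ} (hi : i < t) (hj : j < t) (hij : i ≠ j)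
    (h0 : l 0 = 0) (ht : l t = 0) (hk : t + LL l t ≤ k) (hk2 : k ≤ 2 * t) (h10 : 10 ≤ t)
    (hd1 : 1 ≤ d) (hd : d ≤ 5)
    (hT : d = 1 ∨ fr1 l i + fr1 l j = 0 ∨ t + LL l t < k ∨ ff l t = 0 ∨ 3 ≤ ff l t ∨
      ∃ m < t, l m = 1) :
    Cov k t l i j d := by
  apply cov_of_aw hi hj hij hk
  by_cases hd0 : d = 1
  · exact ⟨0, 0, 0, 0, 0, 0, 0, 0, by omega⟩
  obtain ⟨c1, c2, c3⟩ := count_eqs hi hj hij h0 ht
  have b1 : la1 l i + la1 l j ≤ nz (l i) + nz (l j) := by
    unfold la1 nz; split_ifs <;> omega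
  have b2 : nz (l i) + nz (l j) ≤ l i + l j := by
    unfold nz; split_ifs <;> omega
  have b3 : nz (l i) + nz (l j) + (fr1 l i + fr1 l j) ≤ 2 := by
    unfold fr1 nz; split_ifs <;> omega
  have b4 : 1 ≤ nz (l i) + nz (l j) ∨ fr1 l i + fr1 l j = 0 ∨ 1 ≤ k - (t + LL l t) ∨
      3 ≤ NN l t i j 10 + (fr1 l i + fr1 l j) ∨ 1 ≤ NN l t i j 0 + NN l t i j 4 := by
    rcases hT with h | h | h | h | h | ⟨m, hm, h⟩
    · omega
    · omega
    · omega
    · omega
    · omega
    · by_cases e1 : m = i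
      · subst e1; left; unfold nz; split_ifs <;> omega
      by_cases e2 : m = j
      · subst e2; left; unfold nz; split_ifs <;> omega
      have hmo : m ∈ oth t i j := by simp [oth, e1, e2, hm]
      right; right; right; right
      by_cases e3 : l (m + 1) = 0
      · have : 0 < NN l t i j 0 := card_pos.mpr ⟨m, mem_filter.mpr ⟨hmo, by simp [ty, h, e3]⟩⟩
        omega
      · have : 0 < NN l t i j 4 := card_pos.mpr ⟨m, mem_filter.mpr ⟨hmo, by simp [ty, h, e3]⟩⟩
        omega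
  have : d = 2 ∨ d = 3 ∨ d = 4 ∨ d = 5 := by omega
  rcases this with rfl | rfl | rfl | rfl
  · exact aw2 _ _ _ _ _ _ _ _ _ _ _ _ _ _ _ (l i + l j) t c1 (by omega) h10 b1 b2 b3 b4
  · exact aw3 _ _ _ _ _ _ _ _ _ _ _ _ _ _ _ (l i + l j) t c1 (by omega) h10 b1 b2 b3 b4
  · exact aw4 _ _ _ _ _ _ _ _ _ _ _ _ _ _ _ (l i + l j) t c1 (by omega) h10 b1 b2 b3 b4
  · exact aw5 _ _ _ _ _ _ _ _ _ _ _ _ _ _ _ (l i + l j) t c1 (by omega) h10 b1 b2 b3 b4

lemma cov_six {k t : ℕ} {l : ℕ → ℕ} {i j : ℕ} (hi : i < t) (hj : j < t) (hij : i ≠ j)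
    (h0 : l 0 = 0) (ht : l t = 0) (hk : t + LL l t = k) (hk2 : k ≤ 2 * t) (h10 : 10 ≤ t)
    (h1 : fr1 l i + fr1 l j = 0) (h2 : 1 ≤ ff l t) (h3 : ff l t ≤ 2) (h4 : ∀ m < t, l m ≠ 1) :
    Cov k t l i j 6 := by
  apply cov_of_aw hi hj hij hk.le
  obtain ⟨c1, c2, c3⟩ := count_eqs hi hj hij h0 ht
  have b1 : la1 l i + la1 l j ≤ nz (l i) + nz (l j) := by
    unfold la1 nz; split_ifs <;> omega
  have b2 : 2 * (nz (l i) + nz (l j)) ≤ l i + l j := by
    have := h4 i hi
    have := h4 j hj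
    unfold nz; split_ifs <;> omega
  have b3 : nz (l i) + nz (l j) + (fr1 l i + fr1 l j) ≤ 2 := by
    unfold fr1 nz; split_ifs <;> omega
  have b4 : ∀ c, c = 0 ∨ c = 4 → NN l t i j c = 0 := by
    intro c hc
    unfold NN
    rw [card_eq_zero, filter_eq_empty_iff]
    intro m hm
    have := h4 m (by simp only [oth, mem_erase, mem_range] at hm; tauto)
    unfold ty
    split_ifs <;> omega
  have := b4 0 (by simp)
  have := b4 4 (by simp)
  exact aw6 _ _ _ _ _ _ _ _ _ _ _ _ _ _ _ (l i + l j) t c1 (by omega) h10 b1 (by omega) b3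
    (by omega) (by omega) (by omega) h1 (by omega) b2

variable {V : Type} {G : SimpleGraph V} {k t : ℕ} [Fintype V]

lemma nol_of_cov (c : Ctx G k t) {σ : Sys G t} (h : Opt k σ) {i j D : ℕ} (hi : i < t) (hj : j < t)
    (hij : i ≠ j) (hc : ∀ d, 1 ≤ d → d ≤ D → Cov k t σ.len i j d) :
    NoL G σ.S (σ.rep i) (σ.rep j) D :=
  fun d h1 h2 => h.no_link (by have := c.hk; omega) c.nocyc hi hj hij (hc d h1 h2)

theorem large (c : Ctx G k t) {σ : Sys G t} (h : Opt k σ) (h10 : 10 ≤ t) (hkt : k ≤ 2 * t) :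
    False := by
  have h0 := σ.len0
  have ht := σ.lent t le_rfl
  have hle := h.le
  by_cases hT : t + LL σ.len t < k ∨ ff σ.len t = 0 ∨ 3 ≤ ff σ.len t ∨ ∃ m < t, σ.len m = 1
  · have h5 : ∀ i < t, ∀ j < t, i ≠ j → NoL G σ.S (σ.rep i) (σ.rep j) 5 :=
      fun i hi j hj hij => nol_of_cov c h hi hj hij (fun d d1 d2 =>
        cov_large hi hj hij h0 ht hle hkt h10 d1 d2 (Or.inr (Or.inr hT)))
    exact strat_one c h (by omega) hkt (fun i hi j hj hij => (h5 i hi j hj hij).mono (by omega))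
      (fun _ => ⟨0, by omega, fun j hj hne => h5 0 (by omega) j hj hne.symm⟩)
  · push Not at hT
    obtain ⟨t1, t2, t3, t4⟩ := hT
    let J := (range t).filter (fun m => fr1 σ.len m = 0)
    have hJ : J.card + ff σ.len t = t := by
      have : ff σ.len t = ((range t).filter (fun m => ¬ fr1 σ.len m = 0)).card := by
        unfold ff
        rw [card_filter]
        refine sum_congr rfl (fun m _ => ?_)
        unfold fr1
        split_ifs <;> simp_all
      rw [this, card_filter_add_card_filter_not, card_range]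
    obtain ⟨c1, c2, c3⟩ := count_eqs (l := σ.len) (by omega : 0 < t) (by omega : 1 < t)
      (by omega) h0 ht
    have b4 : ∀ c, c = 0 ∨ c = 4 → NN σ.len t 0 1 c = 0 := by
      intro c hc
      unfold NN
      rw [card_eq_zero, filter_eq_empty_iff]
      intro m hm
      have := t4 m (by simp only [oth, mem_erase, mem_range] at hm; tauto)
      unfold ty
      split_ifs <;> omega
    have b5 := b4 0 (by simp)
    have b6 := b4 4 (by simp)
    have b7 : nz (σ.len 0) + nz (σ.len 1) + (la1 σ.len 0 + la1 σ.len 1) ≤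
        σ.len 0 + σ.len 1 := by
      have := t4 1 (by omega)
      unfold nz la1
      split_ifs <;> omega
    refine strat_three c h J (filter_subset _ _) (fun i hi j hj hij => ?_)
      (fun i hi j hj hij => ?_) ?_ (by omega) (by omega)
    · exact nol_of_cov c h hi hj hij (fun d d1 d2 =>
        cov_large hi hj hij h0 ht hle hkt h10 d1 (by omega) (Or.inl (by omega)))
    · obtain ⟨i1, i2⟩ := mem_filter.mp hi
      obtain ⟨j1, j2⟩ := mem_filter.mp hj
      rw [mem_range] at i1 j1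
      refine nol_of_cov c h i1 j1 hij (fun d d1 d2 => ?_)
      by_cases h6 : d = 6
      · subst h6
        exact cov_six i1 j1 hij h0 ht (by omega) hkt h10 (by omega) (by omega) (by omega) t4
      · exact cov_large i1 j1 hij h0 ht hle hkt h10 d1 (by omega) (Or.inr (Or.inl (by omega)))
    · have hL : LL σ.len t ≠ 0 := by omega
      obtain ⟨m, hm, hm'⟩ := exists_ne_zero_of_sum_ne_zero hL
      have := t4 m (mem_range.mp hm)
      exact ⟨m, by omega⟩

end Vale.Agent.P048
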