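import Vale.Agent.P048.Sound2
import Vale.Agent.P048.Large

namespace Vale.Agent.P048

open Finset

def zmask : List ℕ → ℕ
  | [] => 1
  | a :: s => 2 * zmask s + (if a = 0 then 1 else 0)

def lstL : List ℕ → ℕ → ℕ
  | [], _ => 0
  | a :: s, D => (bif tb D 0 then 0 else a) + lstL s (D / 2)

def pop : ℕ → ℕ → ℕ
  | 0, _ => 0
  | n + 1, x => x % 2 + pop n (x / 2)

def force (n : ℕ) (g : ℕ → Bool) : Bool :=
  match n with
  | 0 => g 0
  | n + 1 => g (Nat.succ n)

lemma force_eq (n : ℕ) (g : ℕ → Bool) : force n g = g n := by
  cases n <;> rfl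

def goB (p : Par) (Z P : ℕ) (s : List ℕ) : List ℕ → List ℕ → Bool
  | _, [] => true
  | [], _ :: _ => false
  | D :: cs, d :: ds =>
    bif Nat.beq (Nat.land D P) 0 then
      force (Nat.lor (Nat.lor Z D) P) fun Y =>
      force (Nat.land Y (Y / 2)) fun X =>
      force (lstL s D) fun a =>
      force (p.t - pop p.t Y + 1) fun b =>
      force (pop p.t (Nat.xor X (Nat.land X P))) fun c =>
      goB p Z P s cs ((d :: ds).filter (fun d => !impB p.k p.t p.L p.e p.f (a + d) b c))
    else goB p Z P s cs (d :: ds)

def pref (P : ℕ) : List ℕ → ℕ → List ℕ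
  | [], _ => []
  | m :: o, D => bif tb P m then pref P o D else sb D m :: pref P o (sb D m)

def ordr (s : List ℕ) : List ℕ :=
  [1, 2, 3, 4, 5].flatMap fun a => [2, 1, 0].flatMap fun b =>
    (List.range s.length).filter fun m => Nat.beq (s.getD m 0) a &&
      Nat.beq ((if s.getD (m + 1) 0 = 0 then 1 else 0) + (if s.getD (m - 1) 0 = 0 then 1 else 0)) b

def pairB (p : Par) (Z : ℕ) (s o : List ℕ) (need : List ℕ) (i j : ℕ) : Bool :=
  force (sb (sb 0 i) j) fun P => goB p Z P s (0 :: pref P o 0 ++ o.map (sb 0)) need

def s1C (p : Par) (Z : ℕ) (s o : List ℕ) : Bool :=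
  ((List.range p.t).all fun i => (List.range i).all fun j => pairB p Z s o [1, 2, 3, 4] i j) &&
  (Nat.ble (p.k + 1) (2 * p.t) || (List.range p.t).any fun i => (List.range p.t).all fun j =>
    Nat.beq j i || pairB p Z s o [5] i j)

def s1B (k : ℕ) (s : List ℕ) : Bool :=
  force s.length fun t => force s.sum fun L => force (eeL s) fun e => force (ffL s) fun f =>
    force (zmask s) fun Z => s1C ⟨k, t, L, e, f⟩ Z s (ordr s)

def badGo : List ℕ → ℕ → ℕ → ℕ → Bool
  | [], _, _, _ => false
  | a :: r, A, B, pw => (Nat.beq a 0 && Nat.ble (A + 1) B) ||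
      badGo r (A + a * pw) ((B + a) * 16) (pw * 16)

def enum (P : List ℕ → Bool) : ℕ → ℕ → List ℕ → Bool
  | 0, rem, acc => Nat.ble 1 rem || badGo acc 0 0 16 || P acc.reverse
  | n + 1, rem, acc => (List.range (rem + 1)).all fun a =>
      (Nat.beq a 0 && badGo acc 0 0 16) || enum P n (rem - a) (a :: acc)

def allK (ex : List (ℕ × List ℕ)) (t L : ℕ) (s : List ℕ) : Bool :=
  (List.range' (t + L) (t + 1 - L)).all fun k => s1B k s || ex.contains (k, s)

def finB (ex : List (ℕ × List ℕ)) (t L : ℕ) : Bool := enum (allK ex t L) (t - 1) L [0]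

lemma tb_zero (D : ℕ) : tb D 0 = decide (D % 2 = 1) := by
  rw [tb_eq, Nat.testBit_zero]

lemma tb_succ (D m : ℕ) : tb D (m + 1) = tb (D / 2) m := by
  rw [tb_eq, tb_eq, Nat.testBit_succ]

lemma zmask_spec : ∀ (s : List ℕ) (m : ℕ), m ≤ s.length →
    tb (zmask s) m = decide (s.getD m 0 = 0) := by
  intro s
  induction s with
  | nil =>
    intro m hm
    have : m = 0 := by simpa using hm
    subst this
    rfl
  | cons a s ih =>
    intro m hm
    cases m with
    | zero =>
      rw [tb_zero]
      by_cases h : a = 0 <;> simp [zmask, h]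
    | succ m =>
      have : zmask (a :: s) / 2 = zmask s := by
        simp only [zmask]
        split_ifs <;> omega
      rw [tb_succ, this, ih m (by simpa using hm), List.getD_cons_succ]

lemma lstL_spec : ∀ (s : List ℕ) (D : ℕ),
    lstL s D = Lst (fun m => s.getD m 0) (tb D) s.length := by
  intro s
  induction s with
  | nil => simp [lstL, Lst]
  | cons a s ih =>
    intro D
    unfold Lst at ih ⊢
    rw [List.length_cons, sum_range_succ']
    simp only [List.getD_cons_succ, List.getD_cons_zero, lstL, ih, tb_succ]
    cases tb D 0 <;> simp [add_comm]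

lemma pop_spec : ∀ n x : ℕ, pop n x = ∑ m ∈ range n, if tb x m = true then 1 else 0 := by
  intro n
  induction n with
  | zero => simp [pop]
  | succ n ih =>
    intro x
    rw [sum_range_succ', pop, ih]
    simp only [tb_succ, tb_zero, decide_eq_true_eq]
    split_ifs <;> omega

lemma goB_sound (p : Par) (s : List ℕ) (i j : ℕ) (ht : p.t = s.length)
    (hL : p.L = LL (fun m => s.getD m 0) p.t) (he : p.e = ee (fun m => s.getD m 0) p.t)
    (hf : p.f = ff (fun m => s.getD m 0) p.t) :
    ∀ cs need : List ℕ, goB p (zmask s) (sb (sb 0 i) j) s cs need = true →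
      ∀ d ∈ need, Cov p.k p.t (fun m => s.getD m 0) i j d := by
  have hP : ∀ m, tb (sb (sb 0 i) j) m = true ↔ m = i ∨ m = j := by
    intro m
    rw [tb_sb, tb_sb, tb_eq]
    simp [eq_comm]
  generalize sb (sb 0 i) j = P at hP
  intro cs
  induction cs with
  | nil =>
    intro need h d hd
    cases need with
    | nil => simp at hd
    | cons a l => simp [goB] at h
  | cons D cs ih =>
    intro need h d hd
    cases need with
    | nil => simp at hd
    | cons a l =>
      simp only [goB, force_eq] at h
      cases hb : Nat.beq (Nat.land D P) 0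
      · rw [hb] at h
        exact ih _ h d hd
      · rw [hb] at h
        simp only [cond_true] at h
        by_cases hi : impB p.k p.t p.L p.e p.f (lstL s D + d)
          (p.t - pop p.t (Nat.lor (Nat.lor (zmask s) D) P) + 1)
          (pop p.t (Nat.xor (Nat.land (Nat.lor (Nat.lor (zmask s) D) P)
            (Nat.lor (Nat.lor (zmask s) D) P / 2)) (Nat.land (Nat.land
            (Nat.lor (Nat.lor (zmask s) D) P) (Nat.lor (Nat.lor (zmask s) D) P / 2)) P))) = true
        · have hD : ∀ m, m = i ∨ m = j → tb D m = false := by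
            intro m hm
            have h1 : (D &&& P).testBit m = false := by
              have : D &&& P = 0 := by simpa using hb
              rw [this]
              simp
            have h2 := (hP m).mpr hm
            rw [tb_eq] at h2 ⊢
            simpa [h2] using h1
          have hY : ∀ m ≤ p.t, tb (Nat.lor (Nat.lor (zmask s) D) P) m = true ↔
              zz (fun m => s.getD m 0) (tb D) i j m := by
            intro m hm
            have h1 := zmask_spec s m (by omega)
            have h2 := hP m
            unfold zz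
            rw [← h2, tb_eq]
            rw [tb_eq] at h1
            change ((zmask s ||| D) ||| P).testBit m = true ↔ _
            simp only [Nat.testBit_or, h1, tb_eq, Bool.or_eq_true, decide_eq_true_eq, or_assoc]
          generalize Nat.lor (Nat.lor (zmask s) D) P = Y at hi hY
          refine ⟨tb D, hD i (Or.inl rfl), hD j (Or.inr rfl), ?_⟩
          have h1 := impB_sound hi
          have e1 : p.t - pop p.t Y + 1 = est (fun m => s.getD m 0) (tb D) i j p.t := by
            unfold est
            rw [pop_spec]
            have : ∑ m ∈ range p.t, (if tb Y m = true then 1 else 0) +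
                ∑ m ∈ range p.t, (if zz (fun m => s.getD m 0) (tb D) i j m then 0 else 1) =
                p.t := by
              rw [← sum_add_distrib, sum_congr rfl (g := fun _ => 1) (fun m hm => by
                simp only [hY m (mem_range.mp hm).le]
                split_ifs <;> rfl)]
              simp
            omega
          have e2 : pop p.t (Nat.xor (Nat.land Y (Y / 2)) (Nat.land (Nat.land Y (Y / 2)) P)) =
              fst (fun m => s.getD m 0) (tb D) i j p.t := by
            unfold fst
            rw [pop_spec]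
            refine sum_congr rfl (fun m hm => if_congr ?_ rfl rfl)
            rw [← hY m (mem_range.mp hm).le, ← hY (m + 1) (mem_range.mp hm), tb_succ]
            have h2 := hP m
            simp only [tb_eq] at h2 ⊢
            change ((Y &&& (Y / 2)) ^^^ ((Y &&& (Y / 2)) &&& P)).testBit m = true ↔ _
            simp only [Nat.testBit_xor, Nat.testBit_and]
            cases h3 : P.testBit m <;> rw [h3] at h2 <;> simp at h2 ⊢ <;> tauto
          rw [e1, e2, lstL_spec, ← ht, hL, he, hf] at h1
          exact h1
        · exact ih _ h d (List.mem_filter.mpr ⟨hd, by simpa using hi⟩)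

variable {V : Type} {G : SimpleGraph V} [Fintype V] {k t : ℕ}

lemma s1B_sound (cx : Ctx G k t) {σ : Sys G t} (ho : Opt k σ) (ht : 3 ≤ t) (hkt : k ≤ 2 * t)
    (hb : s1B k ((List.range t).map σ.len) = true) : False := by
  have e0 := len_eq_getD σ.len σ.lent
  have l1 := LL_getD ((List.range t).map σ.len)
  have l2 := ee_getD ((List.range t).map σ.len)
  have l3 := ff_getD ((List.range t).map σ.len)
  have e1 : ((List.range t).map σ.len).length = t := by simp
  rw [e1] at l1 l2 l3
  simp only [s1B, force_eq, s1C, pairB, e1, Bool.and_eq_true, List.all_eq_true, List.mem_range,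
    Bool.or_eq_true, Nat.ble_eq, List.any_eq_true, Nat.beq_eq] at hb
  have key := fun i j => goB_sound ⟨k, t, _, _, _⟩ ((List.range t).map σ.len) i j e1.symm
    l1.symm l2.symm l3.symm
  simp only [e0] at key
  have h4 : ∀ i < t, ∀ j < t, i ≠ j → NoL G σ.S (σ.rep i) (σ.rep j) 4 := by
    have : ∀ i < t, ∀ j < i, NoL G σ.S (σ.rep i) (σ.rep j) 4 := fun i hi j hj =>
      nol_of_cov cx ho hi (by omega) (by omega) (fun d d1 d2 =>
        key i j _ _ (hb.1 i hi j hj) d (by simp; omega))
    intro i hi j hj hij
    rcases Nat.lt_or_gt_of_ne hij with h | h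
    · exact (this j hj i h).symm
    · exact this i hi j h
  refine strat_one cx ho ht hkt h4 (fun hk => ?_)
  obtain ⟨i, hi, h5⟩ := hb.2.resolve_left (by omega)
  refine ⟨i, hi, fun j hj hne d d1 d2 => ?_⟩
  by_cases hd : d = 5
  · exact ho.no_link (by omega) cx.nocyc hi hj hne.symm
      (key i j _ _ ((h5 j hj).resolve_left hne) d (by simp [hd]))
  · exact h4 i hi j hj hne.symm d d1 (by omega)

def Canon (l : ℕ → ℕ) (t : ℕ) : Prop := ∀ i j, i < j → j ≤ t → l i = 0 → l j = 0 →
  ∑ m ∈ Ico (i + 1) j, l m * 16 ^ (m - i) ≤ ∑ m ∈ Ico (i + 1) j, l m * 16 ^ (j - m)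

omit [Fintype V] in
lemma Opt.canon' {σ : Sys G t} (ho : Opt k σ) : Canon σ.len t := by
  intro i j hij hj h1 h2
  have h := ho.canon hij hj h1 h2
  unfold Phi at h
  have hs : Ico (i + 1) j ⊆ range t := fun m hm => by
    rw [mem_Ico] at hm
    rw [mem_range]
    omega
  rw [← sum_sdiff hs, ← sum_sdiff hs] at h
  have e1 : ∑ m ∈ range t \ Ico (i + 1) j,
      σ.len (if i + 1 ≤ m ∧ m < j then i + j - m else m) * 16 ^ (t - m) =
      ∑ m ∈ range t \ Ico (i + 1) j, σ.len m * 16 ^ (t - m) :=
    sum_congr rfl (fun m hm => by rw [if_neg (by simpa using (mem_sdiff.mp hm).2)])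
  have e2 : ∑ m ∈ Ico (i + 1) j,
      σ.len (if i + 1 ≤ m ∧ m < j then i + j - m else m) * 16 ^ (t - m) =
      16 ^ (t - j) * ∑ m ∈ Ico (i + 1) j, σ.len m * 16 ^ (m - i) := by
    rw [mul_sum]
    refine sum_nbij' (fun m => i + j - m) (fun m => i + j - m) ?_ ?_ ?_ ?_ ?_
    · intro m hm; simp only [mem_Ico] at hm ⊢; omega
    · intro m hm; simp only [mem_Ico] at hm ⊢; omega
    · intro m hm; simp only [mem_Ico] at hm ⊢; omega
    · intro m hm; simp only [mem_Ico] at hm ⊢; omega
    · intro m hm
      rw [mem_Ico] at hm
      have : t - m = t - j + (i + j - m - i) := by omega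
      rw [if_pos hm, this, pow_add]
      ring
  have e3 : ∑ m ∈ Ico (i + 1) j, σ.len m * 16 ^ (t - m) =
      16 ^ (t - j) * ∑ m ∈ Ico (i + 1) j, σ.len m * 16 ^ (j - m) := by
    rw [mul_sum]
    refine sum_congr rfl (fun m hm => ?_)
    rw [mem_Ico] at hm
    have : t - m = t - j + (j - m) := by omega
    rw [this, pow_add]
    ring
  rw [e1, e2, e3] at h
  exact Nat.le_of_mul_le_mul_left (by omega) (by positivity : 0 < 16 ^ (t - j))

lemma badGo_false {l : ℕ → ℕ} (hc : Canon l t) {j : ℕ} (hj : j ≤ t) (h0 : l j = 0) :
    ∀ i ≤ j, badGo ((List.range i).reverse.map l) (∑ m ∈ Ico i j, l m * 16 ^ (j - m))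
      (∑ m ∈ Ico i j, l m * 16 ^ (m + 1 - i)) (16 ^ (j + 1 - i)) = false := by
  intro i
  induction i with
  | zero => intro _; rfl
  | succ i ih =>
    intro hi
    rw [List.range_succ, List.reverse_append, List.reverse_singleton, List.singleton_append,
      List.map_cons, badGo, Bool.or_eq_false_iff]
    constructor
    · by_cases h : l i = 0
      · have := hc i j (by omega) hj h h0
        simp only [Nat.add_sub_add_right]
        rw [← Bool.not_eq_true, Bool.and_eq_true, Nat.ble_eq]
        omega
      · rw [← Bool.not_eq_true, Bool.and_eq_true, Nat.beq_eq]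
        tauto
    · have := ih (by omega)
      rw [sum_eq_sum_Ico_succ_bot (by omega : i < j), sum_eq_sum_Ico_succ_bot (by omega : i < j)]
        at this
      convert this using 2
      · simp only [Nat.add_sub_add_right]
        ring
      · rw [add_mul, sum_mul, add_comm]
        congr 1
        · simp
        · refine sum_congr rfl (fun m hm => ?_)
          rw [mem_Ico] at hm
          have : m + 1 - i = m + 1 - (i + 1) + 1 := by omega
          rw [this, pow_succ]
          ring
      · have : j + 1 - i = j + 1 - (i + 1) + 1 := by omega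
        rw [this, pow_succ]

lemma enum_sound {l : ℕ → ℕ} (hc : Canon l t) (h0 : l t = 0) (P : List ℕ → Bool) :
    ∀ n j, j + n = t → enum P n (∑ m ∈ Ico j t, l m) ((List.range j).reverse.map l) = true →
      P ((List.range t).map l) = true := by
  have hb : ∀ j ≤ t, l j = 0 → badGo ((List.range j).reverse.map l) 0 0 16 = false := by
    intro j hj h
    simpa using badGo_false hc hj h j le_rfl
  intro n
  induction n with
  | zero =>
    intro j hj h
    have : j = t := by omega
    subst this
    simp only [enum, hb j le_rfl h0] at h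
    simpa [← List.map_reverse] using h
  | succ n ih =>
    intro j hj h
    simp only [enum, List.all_eq_true, List.mem_range, Bool.or_eq_true, Bool.and_eq_true,
      Nat.beq_eq] at h
    rw [sum_eq_sum_Ico_succ_bot (by omega : j < t)] at h
    rcases h (l j) (by omega) with h | h
    · rw [hb j (by omega) h.1] at h
      simp at h
    · refine ih (j + 1) (by omega) ?_
      rw [List.range_succ, List.reverse_append, List.reverse_singleton, List.singleton_append,
        List.map_cons]
      simpa using h

theorem fin_sound (cx : Ctx G k t) {σ : Sys G t} (ho : Opt k σ) (ht : 3 ≤ t) (hkt : k ≤ 2 * t)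
    (ex : List (ℕ × List ℕ)) (hex : ∀ a ∈ ex, ∃ ce, checkShape a.1 a.2 ce = true)
    (hb : finB ex t (LL σ.len t) = true) : False := by
  have hle := ho.le
  have h := enum_sound ho.canon' (σ.lent t le_rfl) (allK ex t (LL σ.len t)) (t - 1) 1 (by omega)
    (by
      have : ∑ m ∈ Ico 1 t, σ.len m = LL σ.len t := by
        unfold LL
        rw [range_eq_Ico, sum_eq_sum_Ico_succ_bot (by omega : 0 < t), σ.len0]
        simp
      rw [this]
      simpa [σ.len0, finB] using hb)
  simp only [allK, List.all_eq_true, List.mem_range'_1, Bool.or_eq_true] at h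
  rcases h k (by omega) with h | h
  · exact s1B_sound cx ho ht hkt h
  · obtain ⟨ce, hce⟩ := hex _ (List.contains_iff_mem.mp h)
    exact shape_sound cx (by omega) ho ce hce

end Vale.Agent.P048
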