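import Vale.Agent.P048.ExList

set_option maxRecDepth 100000

namespace Vale.Agent.P048

theorem fin9_6_0_0 : finC 9 6 0 0 = true := by decide +kernel
theorem fin9_6_0_1 : finC 9 6 0 1 = true := by decide +kernel
theorem fin9_6_0_2 : finC 9 6 0 2 = true := by decide +kernel
theorem fin9_6_0_3 : finC 9 6 0 3 = true := by decide +kernel
theorem fin9_6_0_4 : finC 9 6 0 4 = true := by decide +kernel
theorem fin9_6_0_5 : finC 9 6 0 5 = true := by decide +kernel
theorem fin9_6_0_6 : finC 9 6 0 6 = true := by decide +kernel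
theorem fin9_6_1_0 : finC 9 6 1 0 = true := by decide +kernel
theorem fin9_6_1_1 : finC 9 6 1 1 = true := by decide +kernel
theorem fin9_6_1_2 : finC 9 6 1 2 = true := by decide +kernel
theorem fin9_6_1_3 : finC 9 6 1 3 = true := by decide +kernel
theorem fin9_6_1_4 : finC 9 6 1 4 = true := by decide +kernel
theorem fin9_6_1_5 : finC 9 6 1 5 = true := by decide +kernel
theorem fin9_6_2_0 : finC 9 6 2 0 = true := by decide +kernel
theorem fin9_6_2_1 : finC 9 6 2 1 = true := by decide +kernel
theorem fin9_6_2_2 : finC 9 6 2 2 = true := by decide +kernel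
theorem fin9_6_2_3 : finC 9 6 2 3 = true := by decide +kernel
theorem fin9_6_2_4 : finC 9 6 2 4 = true := by decide +kernel
theorem fin9_6_3_0 : finC 9 6 3 0 = true := by decide +kernel
theorem fin9_6_3_1 : finC 9 6 3 1 = true := by decide +kernel
theorem fin9_6_3_2 : finC 9 6 3 2 = true := by decide +kernel
theorem fin9_6_3_3 : finC 9 6 3 3 = true := by decide +kernel
theorem fin9_6_4_0 : finC 9 6 4 0 = true := by decide +kernel
theorem fin9_6_4_1 : finC 9 6 4 1 = true := by decide +kernel
theorem fin9_6_4_2 : finC 9 6 4 2 = true := by decide +kernel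
theorem fin9_6_5_0 : finC 9 6 5 0 = true := by decide +kernel
theorem fin9_6_5_1 : finC 9 6 5 1 = true := by decide +kernel
theorem fin9_6_6_0 : finC 9 6 6 0 = true := by decide +kernel

theorem fin9_6 : finB exList 9 6 = true := by
  refine fin_of _ _ (by omega) (fun a ha b hb => ?_)
  interval_cases a <;> simp only [Nat.reduceSub] at hb <;> interval_cases b
  · exact fin9_6_0_0
  · exact fin9_6_0_1
  · exact fin9_6_0_2
  · exact fin9_6_0_3
  · exact fin9_6_0_4
  · exact fin9_6_0_5
  · exact fin9_6_0_6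
  · exact fin9_6_1_0
  · exact fin9_6_1_1
  · exact fin9_6_1_2
  · exact fin9_6_1_3
  · exact fin9_6_1_4
  · exact fin9_6_1_5
  · exact fin9_6_2_0
  · exact fin9_6_2_1
  · exact fin9_6_2_2
  · exact fin9_6_2_3
  · exact fin9_6_2_4
  · exact fin9_6_3_0
  · exact fin9_6_3_1
  · exact fin9_6_3_2
  · exact fin9_6_3_3
  · exact fin9_6_4_0
  · exact fin9_6_4_1
  · exact fin9_6_4_2
  · exact fin9_6_5_0
  · exact fin9_6_5_1
  · exact fin9_6_6_0

end Vale.Agent.P048
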