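import Vale.Agent.P048.ExList

set_option maxRecDepth 100000

namespace Vale.Agent.P048

theorem fin9_7_0_0 : finC 9 7 0 0 = true := by decide +kernel
theorem fin9_7_0_1 : finC 9 7 0 1 = true := by decide +kernel
theorem fin9_7_0_2 : finC 9 7 0 2 = true := by decide +kernel
theorem fin9_7_0_3 : finC 9 7 0 3 = true := by decide +kernel
theorem fin9_7_0_4 : finC 9 7 0 4 = true := by decide +kernel
theorem fin9_7_0_5 : finC 9 7 0 5 = true := by decide +kernel
theorem fin9_7_0_6 : finC 9 7 0 6 = true := by decide +kernel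
theorem fin9_7_0_7 : finC 9 7 0 7 = true := by decide +kernel
theorem fin9_7_1_0 : finC 9 7 1 0 = true := by decide +kernel
theorem fin9_7_1_1 : finC 9 7 1 1 = true := by decide +kernel
theorem fin9_7_1_2 : finC 9 7 1 2 = true := by decide +kernel
theorem fin9_7_1_3 : finC 9 7 1 3 = true := by decide +kernel
theorem fin9_7_1_4 : finC 9 7 1 4 = true := by decide +kernel
theorem fin9_7_1_5 : finC 9 7 1 5 = true := by decide +kernel
theorem fin9_7_1_6 : finC 9 7 1 6 = true := by decide +kernel
theorem fin9_7_2_0 : finC 9 7 2 0 = true := by decide +kernel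
theorem fin9_7_2_1 : finC 9 7 2 1 = true := by decide +kernel
theorem fin9_7_2_2 : finC 9 7 2 2 = true := by decide +kernel
theorem fin9_7_2_3 : finC 9 7 2 3 = true := by decide +kernel
theorem fin9_7_2_4 : finC 9 7 2 4 = true := by decide +kernel
theorem fin9_7_2_5 : finC 9 7 2 5 = true := by decide +kernel
theorem fin9_7_3_0 : finC 9 7 3 0 = true := by decide +kernel
theorem fin9_7_3_1 : finC 9 7 3 1 = true := by decide +kernel
theorem fin9_7_3_2 : finC 9 7 3 2 = true := by decide +kernel
theorem fin9_7_3_3 : finC 9 7 3 3 = true := by decide +kernel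
theorem fin9_7_3_4 : finC 9 7 3 4 = true := by decide +kernel
theorem fin9_7_4_0 : finC 9 7 4 0 = true := by decide +kernel
theorem fin9_7_4_1 : finC 9 7 4 1 = true := by decide +kernel
theorem fin9_7_4_2 : finC 9 7 4 2 = true := by decide +kernel
theorem fin9_7_4_3 : finC 9 7 4 3 = true := by decide +kernel
theorem fin9_7_5_0 : finC 9 7 5 0 = true := by decide +kernel
theorem fin9_7_5_1 : finC 9 7 5 1 = true := by decide +kernel
theorem fin9_7_5_2 : finC 9 7 5 2 = true := by decide +kernel
theorem fin9_7_6_0 : finC 9 7 6 0 = true := by decide +kernel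
theorem fin9_7_6_1 : finC 9 7 6 1 = true := by decide +kernel
theorem fin9_7_7_0 : finC 9 7 7 0 = true := by decide +kernel

theorem fin9_7 : finB exList 9 7 = true := by
  refine fin_of _ _ (by omega) (fun a ha b hb => ?_)
  interval_cases a <;> simp only [Nat.reduceSub] at hb <;> interval_cases b
  · exact fin9_7_0_0
  · exact fin9_7_0_1
  · exact fin9_7_0_2
  · exact fin9_7_0_3
  · exact fin9_7_0_4
  · exact fin9_7_0_5
  · exact fin9_7_0_6
  · exact fin9_7_0_7
  · exact fin9_7_1_0
  · exact fin9_7_1_1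
  · exact fin9_7_1_2
  · exact fin9_7_1_3
  · exact fin9_7_1_4
  · exact fin9_7_1_5
  · exact fin9_7_1_6
  · exact fin9_7_2_0
  · exact fin9_7_2_1
  · exact fin9_7_2_2
  · exact fin9_7_2_3
  · exact fin9_7_2_4
  · exact fin9_7_2_5
  · exact fin9_7_3_0
  · exact fin9_7_3_1
  · exact fin9_7_3_2
  · exact fin9_7_3_3
  · exact fin9_7_3_4
  · exact fin9_7_4_0
  · exact fin9_7_4_1
  · exact fin9_7_4_2
  · exact fin9_7_4_3
  · exact fin9_7_5_0
  · exact fin9_7_5_1
  · exact fin9_7_5_2
  · exact fin9_7_6_0
  · exact fin9_7_6_1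
  · exact fin9_7_7_0

end Vale.Agent.P048
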