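import Vale.Agent.P048.PartA2

/-! The clique number of a minimal counterexample is at least `k / 2`. -/

namespace Vale.Agent.P048

open Finset

variable {V : Type} {G : SimpleGraph V}

theorem cyc_of_fun (g : ℕ → V) (n : ℕ) (inj : ∀ i ≤ n, ∀ j ≤ n, g i = g j → i = j)
    (adj : ∀ i ≤ n, G.Adj (g i) (g (i + 1))) (h : g (n + 1) = g 0) : Cyc G (n + 1) := by
  have e1 : g 0 :: (List.range n).map (fun i => g (i + 1)) = (List.range (n + 1)).map g := by
    rw [List.range_succ_eq_map]; simp [Function.comp_def]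
  refine ⟨g 0, (List.range n).map (fun i => g (i + 1)), ?_, by simp, ?_⟩
  · rw [e1]
    exact List.Nodup.map_on (fun i hi j hj => inj i (by simpa [Nat.lt_succ_iff] using hi) j
      (by simpa [Nat.lt_succ_iff] using hj)) List.nodup_range
  · rw [← List.cons_append, e1, ← h]
    have : (List.range (n + 1)).map g ++ [g (n + 1)] = (List.range (n + 1 + 1)).map g := by
      rw [List.range_succ (n := n + 1)]; simp
    rw [this, List.isChain_map, List.isChain_range_succ]
    exact fun m hm => adj m (by omega)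

/-- Breadth-first layers with a parent function. -/
structure Lay (G : SimpleGraph V) (ρ : V) (lev : V → ℕ → Prop) (par : V → V) : Prop where
  zero : ∀ v, lev v 0 ↔ v = ρ
  uniq : ∀ {v i j}, lev v i → lev v j → i = j
  adj : ∀ {u v i}, lev u i → G.Adj u v → ∃ j, lev v j ∧ j ≤ i + 1 ∧ i ≤ j + 1
  par : ∀ {v i}, lev v (i + 1) → lev (par v) i ∧ G.Adj v (par v)

/-- Balls around a root. -/
def Ball (G : SimpleGraph V) (ρ : V) : ℕ → V → Prop
  | 0, v => v = ρ
  | i + 1, v => Ball G ρ i v ∨ ∃ u, Ball G ρ i u ∧ G.Adj u v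

theorem exists_lay (G : SimpleGraph V) (ρ : V) : ∃ lev par, Lay G ρ lev par := by
  classical
  let lev : V → ℕ → Prop := fun v i => Ball G ρ i v ∧ ∀ j < i, ¬ Ball G ρ j v
  have uniq : ∀ {v i j}, lev v i → lev v j → i = j := fun {v i j} h1 h2 => by
    rcases lt_trichotomy i j with h | h | h
    · exact absurd h1.1 (h2.2 i h)
    · exact h
    · exact absurd h2.1 (h1.2 j h)
  have hp : ∀ v, ∃ u, ∀ i, lev v (i + 1) → lev u i ∧ G.Adj v u := fun v => by
    by_cases h : ∃ i, lev v (i + 1)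
    · obtain ⟨i, hi⟩ := h
      obtain ⟨u, hu, ha⟩ := hi.1.resolve_left (hi.2 i (by omega))
      refine ⟨u, fun j hj => ?_⟩
      obtain rfl : i = j := by have := uniq hi hj; omega
      exact ⟨⟨hu, fun j hj h => hi.2 (j + 1) (by omega) (Or.inr ⟨u, h, ha⟩)⟩, ha.symm⟩
    · exact ⟨v, fun i hi => absurd ⟨i, hi⟩ h⟩
  choose par hpar using hp
  refine ⟨lev, par, fun v => by simp [lev, Ball], uniq, fun {u v i} hu ha => ?_,
    fun {v i} => hpar v i⟩
  have hex : ∃ j, Ball G ρ j v := ⟨i + 1, Or.inr ⟨u, hu.1, ha⟩⟩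
  refine ⟨Nat.find hex, ⟨Nat.find_spec hex, fun j hj => Nat.find_min hex hj⟩,
    Nat.find_min' hex (Or.inr ⟨u, hu.1, ha⟩), ?_⟩
  by_contra hc
  exact hu.2 (Nat.find hex + 1) (by omega) (Or.inr ⟨v, Nat.find_spec hex, ha.symm⟩)

variable {ρ : V} {lev : V → ℕ → Prop} {par : V → V}

theorem Lay.anc (hL : Lay G ρ lev par) {v : V} {i : ℕ} (hv : lev v i) (j : ℕ) (hj : j ≤ i) :
    lev (par^[j] v) (i - j) := by
  induction j with
  | zero => exact hv
  | succ j ih =>
    have := ih (by omega)
    rw [show i - j = i - (j + 1) + 1 by omega] at this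
    rw [Function.iterate_succ_apply']
    exact (hL.par this).1

theorem Lay.anc_adj (hL : Lay G ρ lev par) {v : V} {i : ℕ} (hv : lev v i) (j : ℕ) (hj : j < i) :
    G.Adj (par^[j] v) (par^[j + 1] v) := by
  have := hL.anc hv j hj.le
  rw [show i - j = i - (j + 1) + 1 by omega] at this
  rw [Function.iterate_succ_apply']
  exact (hL.par this).2

theorem Lay.close (hL : Lay G ρ lev par) {H : Finset V} {i m s : ℕ} (hH : ∀ v ∈ H, lev v i)
    (hs : s < i) {f : ℕ → V} (hf : IsPth G H m f) (h1 : par^[s + 1] (f 0) = par^[s + 1] (f m))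
    (h2 : par^[s] (f 0) ≠ par^[s] (f m)) : Cyc G (m + 2 * s + 1 + 1) := by
  have l0 := hH _ (hf.mem 0 (by omega))
  have lm := hH _ (hf.mem m le_rfl)
  let g : ℕ → V := fun j => if j ≤ m then f j else if j ≤ m + s + 1 then par^[j - m] (f m)
    else par^[m + 2 * s + 2 - j] (f 0)
  have lg : ∀ j ≤ m + 2 * s + 2, lev (g j) (if j ≤ m then i else if j ≤ m + s + 1 then i - (j - m)
      else i - (m + 2 * s + 2 - j)) := fun j hj => by
    simp only [g]
    split_ifs
    · exact hH _ (hf.mem j (by omega))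
    · exact hL.anc lm _ (by omega)
    · exact hL.anc l0 _ (by omega)
  have ne : ∀ a ≤ s, par^[a] (f 0) ≠ par^[a] (f m) := fun a ha e => h2 (by
    rw [show s = s - a + a by omega, Function.iterate_add_apply, Function.iterate_add_apply, e])
  refine cyc_of_fun g _ (fun a ha b hb e => ?_) (fun j hj => ?_) ?_
  · have := hL.uniq (e ▸ lg a (by omega)) (lg b (by omega))
    simp only [g] at e
    split_ifs at this e
    any_goals omega
    · exact hf.inj _ (by omega) _ (by omega) e
    · rw [show m + 2 * s + 2 - b = a - m by omega] at e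
      exact absurd e.symm (ne _ (by omega))
    · rw [show m + 2 * s + 2 - a = b - m by omega] at e
      exact absurd e (ne _ (by omega))
  · simp only [g]
    split_ifs
    any_goals omega
    · exact hf.adj j (by omega)
    · obtain rfl : j = m := by omega
      simpa using hL.anc_adj lm 0 (by omega)
    · rw [show j + 1 - m = j - m + 1 by omega]
      exact hL.anc_adj lm _ (by omega)
    · rw [show j - m = s + 1 by omega, show m + 2 * s + 2 - (j + 1) = s by omega, ← h1]
      exact (hL.anc_adj l0 _ (by omega)).symm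
    · rw [show m + 2 * s + 2 - j = m + 2 * s + 2 - (j + 1) + 1 by omega]
      exact (hL.anc_adj l0 _ (by omega)).symm
  · simp only [g]
    split_ifs
    any_goals omega
    rw [show m + 2 * s + 2 - (m + 2 * s + 1 + 1) = 0 by omega]; rfl

open Classical in
theorem Lay.exists_J [Fintype V] (hL : Lay G ρ lev par) {k t i : ℕ} (h : ¬ Cyc G (k + 1))
    (ht : 3 ≤ t) (hk : 2 * t < k) (hcl : ∀ s : Finset V, G.IsClique (s : Set V) → s.card ≤ t)
    (hi : 2 * i ≤ k) {H : Finset V} (hH : ∀ v ∈ H, lev v i) (hne : H.Nonempty) :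
    ∃ J ⊆ H, J.Nonempty ∧ G.IsIndepSet (J : Set V) ∧
      2 * (nbhd G J ∩ H).card + J.card ≤ k * J.card := by
  by_contra hc
  push Not at hc
  obtain ⟨n, r, d, hn, hr2, hrn, hd, hr⟩ := long_cycle ht hk hcl hne
    (fun x hx => by
      have := hc {x} (by simpa) (by simp) (by simp)
      rw [card_singleton] at this
      omega)
    (fun x hx y hy hxy ha => by
      have := hc {x, y} (by simp [insert_subset_iff, hx, hy]) (by simp) (by
        rw [coe_pair]
        exact Set.pairwise_pair.mpr fun _ => ⟨ha, fun h => ha h.symm⟩)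
      rw [card_pair hxy] at this
      omega)
  have hex : ∃ s, ∃ H' ⊆ H, (∀ y, d y ∈ H') ∧ (∀ x ∈ H', ∀ y ∈ H, G.Adj x y → y ∈ H') ∧
      ∀ x ∈ H', par^[s] x = par^[s] (d 0) := ⟨i, H, Subset.rfl, hd.mem, fun _ _ _ h _ => h,
    fun x hx => by
      have h1 := hL.anc (hH x hx) i le_rfl
      have h2 := hL.anc (hH _ (hd.mem 0)) i le_rfl
      rw [Nat.sub_self, hL.zero] at h1 h2
      rw [h1, h2]⟩
  have hsi : Nat.find hex ≤ i := Nat.find_min' hex ⟨H, Subset.rfl, hd.mem, fun _ _ _ h _ => h,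
    fun x hx => by
      have h1 := hL.anc (hH x hx) i le_rfl
      have h2 := hL.anc (hH _ (hd.mem 0)) i le_rfl
      rw [Nat.sub_self, hL.zero] at h1 h2
      rw [h1, h2]⟩
  obtain ⟨H', hH', dH, clo, com⟩ := Nat.find_spec hex
  obtain ⟨s, hs⟩ : ∃ s, Nat.find hex = s + 1 := ⟨Nat.find hex - 1, by
    by_contra h0
    rw [show Nat.find hex = 0 by omega] at com
    exact (hd.adj 0).ne (com _ (dH _)).symm⟩
  have hmin := Nat.find_min hex (m := s) (by omega)
  rw [hs] at com hsi
  obtain ⟨m, hm⟩ : ∃ m, k + 1 = m + 2 * s + 1 + 1 := ⟨k - 1 - 2 * s, by omega⟩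
  obtain ⟨S, sH, dS, sC, sP⟩ := core (G := G) (H := H') (m := m)
    (c := fun v => decide (par^[s] v = par^[s] (d 0))) ⟨hd.per, hd.inj, hd.adj, dH⟩
    (fun f hf => by
      by_contra hh
      refine h (hm ▸ hL.close (fun v hv => hH v (hH' hv)) hsi hf
        ((com _ (hf.mem 0 (by omega))).trans (com _ (hf.mem m le_rfl)).symm) fun e => hh ?_)
      rw [e]) (by omega) (by omega) hr2 hrn hr
  have sC' : ∀ x ∈ S, ∀ y ∈ H, G.Adj x y → y ∈ S := fun x hx y hy ha =>
    sC x hx y (clo x (sH hx) y hy ha) ha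
  rcases sP with sP | sP
  · exact hmin ⟨S, sH.trans hH', dS, sC', fun x hx => by simpa using sP x hx⟩
  obtain ⟨c, sP⟩ : ∃ c : V → Bool, ∀ x ∈ S, ∀ y ∈ S, G.Adj x y → c x ≠ c y := ⟨_, sP⟩
  obtain ⟨b, hb⟩ : ∃ b, S.card ≤ 2 * (S.filter (fun v => c v = b)).card := by
    have := card_filter_add_card_filter_not (s := S) (fun v => c v = true)
    simp only [Bool.not_eq_true] at this
    by_cases h : S.card ≤ 2 * (S.filter (fun v => c v = true)).card
    · exact ⟨true, h⟩
    · exact ⟨false, by omega⟩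
  have hpos : 0 < S.card := card_pos.mpr ⟨_, dS 0⟩
  have := hc (S.filter (fun v => c v = b)) ((filter_subset _ _).trans (sH.trans hH'))
    (card_pos.mp (by omega)) fun x hx y hy _ ha => by
      simp only [coe_filter, Set.mem_setOf_eq] at hx hy
      exact sP x hx.1 y hy.1 ha (hx.2.trans hy.2.symm)
  have hs : nbhd G (S.filter (fun v => c v = b)) ∩ H ⊆ S := fun y hy => by
    simp only [mem_inter, mem_nbhd, mem_filter] at hy
    rcases hy.1 with h | ⟨u, hu, ha⟩
    · exact h.1
    · exact sC' u hu.1 y hy.2 ha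
  have := card_le_card hs
  have := Nat.mul_le_mul_right (S.filter (fun v => c v = b)).card (by omega : 5 ≤ k)
  omega

theorem Lay.layer [Fintype V] (hL : Lay G ρ lev par) {k t i : ℕ} (h : ¬ Cyc G (k + 1))
    (ht : 3 ≤ t) (hk : 2 * t < k) (hcl : ∀ s : Finset V, G.IsClique (s : Set V) → s.card ≤ t)
    (hi : 2 * i ≤ k) (H : Finset V) (hH : ∀ v ∈ H, lev v i) :
    ∃ I ⊆ H, G.IsIndepSet (I : Set V) ∧ 2 * H.card + I.card ≤ k * I.card := by
  classical
  induction H using Finset.strongInduction with | _ H ih => ?_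
  rcases H.eq_empty_or_nonempty with rfl | hne
  · exact ⟨∅, Subset.rfl, by simp, by simp⟩
  obtain ⟨J, JH, ⟨x, hx⟩, Ji, Jc⟩ := hL.exists_J h ht hk hcl hi hH hne
  obtain ⟨I, IH, Ii, Ic⟩ := ih (H \ nbhd G J) ⟨sdiff_subset, fun hh => by
    simpa [mem_nbhd, hx] using hh (JH hx)⟩ fun v hv => hH v (sdiff_subset hv)
  have nn : ∀ y ∈ I, y ∉ J ∧ ∀ u ∈ J, ¬ G.Adj u y := fun y hy => by
    simpa [mem_nbhd] using (mem_sdiff.mp (IH hy)).2
  refine ⟨I ∪ J, union_subset (IH.trans sdiff_subset) JH, fun a ha b hb ab => ?_, ?_⟩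
  · simp only [coe_union, Set.mem_union, mem_coe] at ha hb
    rcases ha with ha | ha <;> rcases hb with hb | hb
    · exact Ii ha hb ab
    · exact fun e => (nn a ha).2 b hb e.symm
    · exact (nn b hb).2 a ha
    · exact Ji ha hb ab
  · rw [card_union_of_disjoint (disjoint_left.mpr fun y hy => (nn y hy).1), mul_add,
      ← card_sdiff_add_card_inter H (nbhd G J), inter_comm]
    rw [mul_add]
    omega

open Classical in
/-- Union of every second set. -/
noncomputable def UU (I : ℕ → Finset V) : ℕ → Finset V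
  | 0 => I 0
  | 1 => I 1
  | i + 2 => UU I i ∪ I (i + 2)

theorem mem_UU {I : ℕ → Finset V} {v : V} : ∀ {i}, v ∈ UU I i → ∃ j ≤ i, j % 2 = i % 2 ∧ v ∈ I j
  | 0, h => ⟨0, le_rfl, rfl, h⟩
  | 1, h => ⟨1, le_rfl, rfl, h⟩
  | i + 2, h => by
    classical
    rcases mem_union.mp h with h | h
    · obtain ⟨j, h1, h2, h3⟩ := mem_UU h
      exact ⟨j, by omega, by omega, h3⟩
    · exact ⟨_, le_rfl, rfl, h⟩

theorem half_le_clique {V : Type} [Fintype V] [Nonempty V] (G : SimpleGraph V) (k t : ℕ)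
    (h : Min G k) (ht : 3 ≤ t) (hcl : ∀ s : Finset V, G.IsClique (s : Set V) → s.card ≤ t) :
    k ≤ 2 * t := by
  classical
  by_contra hk
  push Not at hk
  obtain ⟨ρ⟩ := ‹Nonempty V›
  obtain ⟨lev, par, hL⟩ := exists_lay G ρ
  have hI : ∀ i, ∃ I ⊆ univ.filter (fun v => lev v i), G.IsIndepSet (I : Set V) ∧
      (i = 0 → I.card = 1) ∧
      (2 * i ≤ k → 2 * (univ.filter (fun v => lev v i)).card + I.card ≤ k * I.card) := fun i => by
    by_cases hi : 2 * i ≤ k
    · obtain ⟨I, h1, h2, h3⟩ := hL.layer h.nocyc ht hk hcl hi (univ.filter (fun v => lev v i))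
        (by simp)
      refine ⟨I, h1, h2, ?_, fun _ => h3⟩
      rintro rfl
      have e : univ.filter (fun v => lev v 0) = {ρ} := by ext v; simp [hL.zero]
      rw [e] at h1 h3
      rcases subset_singleton_iff.mp h1 with rfl | rfl
      · simp at h3
      · simp
    · exact ⟨∅, by simp, by simp, by omega, by omega⟩
  choose I IL Ii I0 Ic using hI
  have IL' : ∀ j, ∀ v ∈ I j, lev v j := fun j v hv => (mem_filter.mp (IL j hv)).2
  have Ui : ∀ i, G.IsIndepSet (UU I i : Set V) := fun i a ha b hb ab e => by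
    obtain ⟨j, -, j2, hj⟩ := mem_UU (mem_coe.mp ha)
    obtain ⟨j', -, j2', hj'⟩ := mem_UU (mem_coe.mp hb)
    obtain ⟨l, hl, l1, l2⟩ := hL.adj (IL' _ _ hj) e
    have := hL.uniq hl (IL' _ _ hj')
    obtain rfl : j = j' := by omega
    exact Ii j hj hj' ab e
  have Uc : ∀ i, (UU I (i + 2)).card = (UU I i).card + (I (i + 2)).card := fun i => by
    rw [UU]
    convert card_union_of_disjoint (disjoint_left.mpr fun v hv hv' => ?_)
    obtain ⟨j, j1, -, hj⟩ := mem_UU hv
    have := hL.uniq (IL' _ _ hj) (IL' _ _ hv')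
    omega
  let B : ℕ → Finset V := fun i => univ.filter (fun v => ∃ j ≤ i, lev v j)
  have Bc : ∀ i, (B (i + 1)).card ≤ (B i).card + (univ.filter (fun v => lev v (i + 1))).card :=
    fun i => (card_le_card fun v hv => by
      simp only [B, mem_union, mem_filter, mem_univ, true_and] at hv ⊢
      obtain ⟨j, hj, hv⟩ := hv
      rcases eq_or_ne j (i + 1) with rfl | hh
      · exact Or.inr hv
      · exact Or.inl ⟨j, by omega, hv⟩).trans (card_union_le _ _)
  have B0 : (B 0).card ≤ 1 := card_le_one.mpr fun a ha b hb => by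
    simp only [B, mem_filter, mem_univ, true_and, Nat.le_zero, exists_eq_left, hL.zero] at ha hb
    rw [ha, hb]
  have U0 : (UU I 0).card = 1 := I0 0 rfl
  have BU : ∀ i, 2 * (i + 1) ≤ k → 2 * (B (i + 1)).card + ((UU I i).card + (UU I (i + 1)).card) + k ≤
      3 + k * ((UU I i).card + (UU I (i + 1)).card) := fun i => by
    induction i with
    | zero =>
      intro hi
      have := Ic 1 hi
      have := Bc 0
      rw [U0, mul_add]
      simp only [zero_add, UU] at *
      omega
    | succ i ih =>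
      intro hi
      have h1 := ih (by omega)
      have := Ic (i + 2) hi
      have := Bc (i + 1)
      rw [Uc]
      simp only [mul_add, add_assoc, Nat.reduceAdd] at *
      omega
  have step : ∀ i, 2 * (i + 1) ≤ k → 0 < (UU I i).card → k * (UU I i).card + (UU I i).card +
      (UU I (i + 1)).card + k ≤ 1 + k * (UU I (i + 1)).card := fun i hi hp => by
    have h1 := h.exp _ (card_pos.mp hp) (Ui i)
    have h2 : (nbhd G (UU I i)).card ≤ (B (i + 1)).card := card_le_card fun v hv => by
      simp only [B, mem_filter, mem_univ, true_and]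
      rcases mem_nbhd.mp hv with hv | ⟨u, hu, ha⟩
      · obtain ⟨j, j1, -, hj⟩ := mem_UU hv
        exact ⟨j, by omega, IL' _ _ hj⟩
      · obtain ⟨j, j1, -, hj⟩ := mem_UU hu
        obtain ⟨l, hl, l1, -⟩ := hL.adj (IL' _ _ hj) ha
        exact ⟨l, by omega, hl⟩
    have h3 := BU i hi
    rw [mul_add] at h3
    omega
  have grow2 : ∀ i, 2 * i ≤ k → 2 * i + 1 ≤ (UU I i).card := fun i => by
    induction i with
    | zero => intro _; omega
    | succ i ih =>
      intro hi
      have h1 := ih (by omega)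
      have h2 := step i hi (by omega)
      by_contra hc
      have h3 : (UU I (i + 1)).card ≤ (UU I i).card + 1 := by omega
      obtain ⟨k, rfl⟩ : ∃ k', k = k' + 1 := ⟨k - 1, by omega⟩
      have := Nat.mul_le_mul_left k h3
      nlinarith
  rcases Nat.even_or_odd' k with ⟨i, rfl | rfl⟩
  · have := grow2 i le_rfl
    have := h.alpha _ (Ui i)
    omega
  · obtain ⟨i, rfl⟩ : ∃ j, i = j + 1 := ⟨i - 1, by omega⟩
    have h1 := grow2 i (by omega)
    have h2 := step i (by omega) (by omega)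
    have h3 := h.alpha _ (Ui (i + 1))
    have := Nat.mul_le_mul_left (2 * (i + 1)) h3
    have := Nat.mul_le_mul_left (2 * (i + 1)) h1
    have : 2 ≤ i := by omega
    nlinarith

end Vale.Agent.P048
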