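import Vale.Agent.P048.Basic

/-! Reduction to a minimal counterexample. -/

namespace Vale.Agent.P048

open Finset

theorem cyc_of_comap {V W : Type} {G : SimpleGraph V} {f : W → V} (hf : Function.Injective f)
    {n : ℕ} (h : Cyc (G.comap f) n) : Cyc G n := by
  obtain ⟨a, l, h1, h2, h3⟩ := h
  refine ⟨f a, l.map f, ?_, by simpa using h2, ?_⟩
  · exact (List.nodup_map_iff hf (l := a :: l)).2 h1
  · have := (List.isChain_map (R := G.Adj) f (l := a :: (l ++ [a]))).2 h3
    simpa using this

theorem indep_map {V : Type} {G : SimpleGraph V} {p : V → Prop} {I : Finset (Subtype p)}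
    (h : (G.comap Subtype.val).IsIndepSet (I : Set (Subtype p))) :
    G.IsIndepSet (I.map (Function.Embedding.subtype p) : Set V) := by
  intro x hx y hy hne
  obtain ⟨a, ha, rfl⟩ := mem_map.1 hx
  obtain ⟨b, hb, rfl⟩ := mem_map.1 hy
  exact h ha hb fun e => hne (congrArg _ e)

theorem card_bound {k : ℕ}
    (H : ∀ (V : Type) [Fintype V] [Nonempty V] (G : SimpleGraph V), ¬ Min G k) (a : ℕ) : a ≤ k → ∀ (V : Type) [Fintype V] (G : SimpleGraph V),
      ¬ Cyc G (k + 1) → (∀ I : Finset V, G.IsIndepSet (I : Set V) → I.card ≤ a) →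
      Fintype.card V ≤ k * a := by
  classical
  induction a using Nat.strong_induction_on with
  | _ a ih =>
  intro ha V _ G h1 h2
  by_contra hc
  obtain ⟨S, -, hS⟩ := exists_subset_card_eq (s := (univ : Finset V)) (n := k * a + 1)
    (by rw [card_univ]; omega)
  have hcard : Fintype.card S = k * a + 1 := by rw [Fintype.card_coe, hS]
  haveI : Nonempty S := Fintype.card_pos_iff.1 (by omega)
  have h3 : ¬ Cyc (G.comap (Subtype.val : S → V)) (k + 1) :=
    fun h => h1 (cyc_of_comap Subtype.val_injective h)
  have h4 : ∀ I : Finset S, (G.comap Subtype.val).IsIndepSet (I : Set S) → I.card ≤ a :=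
    fun I hI => by simpa using h2 _ (indep_map hI)
  generalize G.comap (Subtype.val : S → V) = G' at h3 h4
  refine H S G' ⟨h3, fun I hI => (h4 I hI).trans ha, fun I hne hI => ?_, ?_⟩
  · have h5 := h4 I hI
    have h6 := card_pos.2 hne
    have h7 := ih (a - I.card) (by omega) (by omega) {x // x ∉ nbhd G' I} (G'.comap Subtype.val)
      (fun h => h3 (cyc_of_comap Subtype.val_injective h)) fun J hJ => by
        have h8 := indep_map hJ
        have h9 : ∀ x ∈ J.map (Function.Embedding.subtype _), x ∉ nbhd G' I := fun x hx => by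
          obtain ⟨y, -, rfl⟩ := mem_map.1 hx
          exact y.2
        have h10 := h4 (J.map (Function.Embedding.subtype _) ∪ I) (by
          intro x hx y hy hne hadj
          rcases mem_union.1 hx with hx | hx <;> rcases mem_union.1 hy with hy | hy
          · exact h8 hx hy hne hadj
          · exact h9 x hx (mem_nbhd.2 (Or.inr ⟨y, hy, hadj.symm⟩))
          · exact h9 y hy (mem_nbhd.2 (Or.inr ⟨x, hx, hadj⟩))
          · exact hI hx hy hne hadj)
        rw [card_union_of_disjoint (disjoint_left.2 fun x hx hx' =>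
          h9 x hx (mem_nbhd.2 (Or.inl hx'))), card_map] at h10
        omega
    rw [Fintype.card_subtype_compl, Fintype.card_coe (nbhd G' I), hcard, Nat.mul_sub] at h7
    have := Nat.mul_le_mul_left k h5
    omega
  · rw [hcard, sq]
    exact Nat.succ_le_succ (Nat.mul_le_mul_left k ha)

theorem Cyc.isContained {V : Type} {G : SimpleGraph V} {m : ℕ} (h : Cyc G m) :
    (SimpleGraph.cycleGraph m).IsContained G := by
  obtain ⟨a, l, h1, rfl, h3⟩ := h
  rw [List.isChain_iff_getElem] at h3
  have key : ∀ u v : Fin (l.length + 1), (u - v).val = 1 →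
      G.Adj ((a :: l).get v) ((a :: l).get u) := by
    intro u v huv
    have h4 := h3 v (by simp; omega)
    have e1 : (a :: (l ++ [a]))[v.val]'(by simp) = (a :: l).get v :=
      List.getElem_append_left (as := a :: l) (bs := [a]) v.2
    rw [e1] at h4
    convert h4 using 1
    rcases le_or_gt v u with h | h
    · rw [Fin.sub_val_of_le h] at huv
      have e2 : v.val + 1 = u.val := by omega
      simp only [e2]
      exact (List.getElem_append_left (as := a :: l) (bs := [a]) u.2).symm
    · rw [Fin.coe_sub_iff_lt.2 h] at huv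
      have e2 : v.val = l.length := by omega
      have e3 : u = 0 := Fin.ext (by change u.val = 0; have := u.2; have := v.2; omega)
      simp [e2, e3]
  refine ⟨⟨⟨(a :: l).get, fun {u v} huv => ?_⟩, List.nodup_iff_injective_get.1 h1⟩⟩
  rcases SimpleGraph.cycleGraph_adj'.1 huv with h | h
  · exact (key u v h).symm
  · exact key v u h

theorem reduce (m n : ℕ) (hn : 3 ≤ n) (hmn : n ≤ m) (hne : (m, n) ≠ (3, 3))
    (H : 3 ≤ m - 1 → ∀ (V : Type) [Fintype V] [Nonempty V] (G : SimpleGraph V),
      ¬ Min G (m - 1)) :
    IsLeast {N : ℕ | ∀ G : SimpleGraph (Fin N),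
      (SimpleGraph.cycleGraph m).IsContained G ∨ (⊤ : SimpleGraph (Fin n)).IsContained Gᶜ}
      ((m - 1) * (n - 1) + 1) := by
  classical
  obtain ⟨k, rfl⟩ : ∃ k, m = k + 1 := ⟨m - 1, by omega⟩
  obtain ⟨a, rfl⟩ : ∃ a, n = a + 1 := ⟨n - 1, by omega⟩
  have hk : 3 ≤ k := by
    by_contra h
    exact hne (Prod.ext (by simp; omega) (by simp; omega))
  simp only [Nat.add_sub_cancel] at H ⊢
  constructor
  · intro G
    by_contra hc
    rw [not_or] at hc
    have h1 := card_bound (H hk) a (by omega) _ G (fun h => hc.1 h.isContained) fun I hI => by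
      by_contra h
      obtain ⟨J, hJ, hJc⟩ := exists_subset_card_eq (s := I) (n := a + 1) (by omega)
      refine hc.2 ((SimpleGraph.not_cliqueFree_iff_top_isContained _).1 fun hf => hf J ⟨?_, hJc⟩)
      exact fun x hx y hy hne => ⟨hne, hI (hJ hx) (hJ hy) hne⟩
    simp at h1
  · intro N hN
    by_contra hc
    let G : SimpleGraph (Fin N) :=
      { Adj := fun x y => x ≠ y ∧ x.val / k = y.val / k
        symm := ⟨fun x y h => ⟨h.1.symm, h.2.symm⟩⟩
        loopless := ⟨fun x h => h.1 rfl⟩ }
    rcases hN G with ⟨⟨f⟩⟩ | ⟨⟨f⟩⟩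
    · have h1 : ∀ i : Fin (k + 1), (f i).val / k = (f 0).val / k := by
        intro i
        induction i using Fin.induction with
        | zero => rfl
        | succ i ih =>
          rw [← ih]
          refine (f.toHom.map_adj (SimpleGraph.cycleGraph_adj'.2 (Or.inl ?_))).2
          rw [Fin.sub_val_of_le (Fin.castSucc_lt_succ).le]
          simp
      have h2 := Fintype.card_le_of_injective
        (fun i : Fin (k + 1) => (⟨(f i).val % k, Nat.mod_lt _ (by omega)⟩ : Fin k)) fun i j e => by
          refine f.injective (Fin.ext ?_)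
          have e' : (f i).val % k = (f j).val % k := congrArg Fin.val e
          change (f i).val = (f j).val
          rw [← Nat.div_add_mod (f i).val k, ← Nat.div_add_mod (f j).val k, h1 i, h1 j, e']
      simp at h2
    · have h2 := Fintype.card_le_of_injective
        (fun i : Fin (a + 1) => (⟨(f i).val / k, Nat.div_lt_of_lt_mul
          (lt_of_lt_of_le (f i).2 (by omega))⟩ : Fin a)) fun i j e => by
          by_contra hij
          have h3 := f.toHom.map_adj (show (⊤ : SimpleGraph (Fin (a + 1))).Adj i j from hij)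
          exact h3.2 ⟨h3.1, congrArg Fin.val e⟩
      simp at h2

end Vale.Agent.P048
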