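import Vale.Agent.P048.Basic

/-! A minimal counterexample contains a triangle. -/

namespace Vale.Agent.P048

open Finset

theorem three_le_clique {V : Type} [Fintype V] [Nonempty V] (G : SimpleGraph V) (k t : ℕ)
    (hk : 3 ≤ k) (h : Min G k)
    (hcl : ∀ s : Finset V, G.IsClique (s : Set V) → s.card ≤ t) : 3 ≤ t := by
  classical
  by_contra ht
  have tri : ∀ x y z, G.Adj x y → G.Adj x z → ¬ G.Adj y z := fun x y z h1 h2 h3 => by
    have h4 := SimpleGraph.is3Clique_triple_iff.2 ⟨h1, h2, h3⟩
    have := hcl _ h4.isClique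
    rw [h4.card_eq] at this
    omega
  have hind : ∀ v, G.IsIndepSet (G.neighborFinset v : Set V) := fun v x hx y hy _ =>
    tri v x y (by simpa using hx) (by simpa using hy)
  have hdeg : ∀ v, (G.neighborFinset v).card = k := fun v => by
    have h1 := h.alpha _ (hind v)
    have h2 := h.exp {v} (singleton_nonempty v) (by simp)
    have h3 : nbhd G {v} ⊆ insert v (G.neighborFinset v) := fun x hx => by
      simpa using mem_nbhd.1 hx
    have h4 := (card_le_card h3).trans (card_insert_le _ _)
    rw [card_singleton] at h2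
    omega
  obtain ⟨v⟩ := ‹Nonempty V›
  have hmem : ∀ w ∈ G.neighborFinset v, ((G.neighborFinset w).erase v).card = k - 1 :=
    fun w hw => by rw [card_erase_of_mem (by simpa using (by simpa using hw : G.Adj v w).symm), hdeg]
  obtain ⟨w, hw⟩ : (G.neighborFinset v).Nonempty := card_pos.1 (by rw [hdeg]; omega)
  have hcross : ∀ x ∈ (G.neighborFinset w).erase v, ∀ y ∈ (G.neighborFinset v).erase w,
      ¬ G.Adj y x := by
    intro x hx y hy hadj
    obtain ⟨hyw, hy⟩ := mem_erase.1 hy
    have h1 := h.exp _ ⟨w, hw⟩ (hind v)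
    have h2 : nbhd G (G.neighborFinset v) ⊆ insert v (G.neighborFinset v ∪
        (((G.neighborFinset v).erase y).biUnion (fun u => (G.neighborFinset u).erase v) ∪
          ((G.neighborFinset y).erase v).erase x)) := by
      intro z hz
      by_cases hzv : z = v
      · exact hzv ▸ mem_insert_self _ _
      refine mem_insert_of_mem ?_
      rcases mem_nbhd.1 hz with hz | ⟨u, hu, hz⟩
      · exact mem_union_left _ hz
      refine mem_union_right _ ?_
      by_cases hzx : z = x
      · exact mem_union_left _ (mem_biUnion.2 ⟨w, mem_erase.2 ⟨Ne.symm hyw, hw⟩, hzx ▸ hx⟩)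
      by_cases huy : u = y
      · exact mem_union_right _ (mem_erase.2 ⟨hzx, mem_erase.2 ⟨hzv, by simpa [← huy] using hz⟩⟩)
      · exact mem_union_left _ (mem_biUnion.2 ⟨u, mem_erase.2 ⟨huy, hu⟩,
          mem_erase.2 ⟨hzv, by simpa using hz⟩⟩)
    have h3 : (((G.neighborFinset v).erase y).biUnion
        (fun u => (G.neighborFinset u).erase v)).card ≤ (k - 1) * (k - 1) := by
      refine (card_biUnion_le_card_mul _ _ (k - 1) fun u hu =>
        (hmem u (mem_of_mem_erase hu)).le).trans ?_
      rw [card_erase_of_mem hy, hdeg]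
    have h4 : (((G.neighborFinset y).erase v).erase x).card = k - 1 - 1 := by
      rw [card_erase_of_mem (mem_erase.2 ⟨(mem_erase.1 hx).1, by simpa using hadj⟩), hmem y hy]
    have h5 := (card_le_card h2).trans ((card_insert_le _ _).trans (Nat.add_le_add_right
      ((card_union_le _ _).trans (Nat.add_le_add_left (card_union_le _ _) _)) _))
    rw [hdeg] at h1 h5
    obtain ⟨j, rfl⟩ : ∃ j, k = j + 2 := ⟨k - 2, by omega⟩
    have e1 : j + 2 - 1 = j + 1 := rfl
    have e2 : j + 1 - 1 = j := rfl
    rw [e1] at h3 h4
    rw [e2] at h4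
    nlinarith
  have h1 := h.alpha ((G.neighborFinset w).erase v ∪ (G.neighborFinset v).erase w) (by
    intro x hx y hy hne hadj
    rcases mem_union.1 hx with hx | hx <;> rcases mem_union.1 hy with hy | hy
    · exact hind w (mem_of_mem_erase hx) (mem_of_mem_erase hy) hne hadj
    · exact hcross x hx y hy hadj.symm
    · exact hcross y hy x hx hadj
    · exact hind v (mem_of_mem_erase hx) (mem_of_mem_erase hy) hne hadj)
  rw [card_union_of_disjoint (disjoint_left.2 fun x hx hy => tri v w x (by simpa using hw)
    (by simpa using mem_of_mem_erase hy) (by simpa using mem_of_mem_erase hx)), hmem w hw,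
    card_erase_of_mem hw, hdeg] at h1
  omega

end Vale.Agent.P048
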