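import Vale.Agent.P048.Large
import Vale.Agent.P048.Reduce
import Vale.Agent.P048.PartA
import Vale.Agent.P048.Tri
import Vale.Agent.P048.AlphaTwo

namespace Vale.Agent.P048

open Finset

lemma cyc_of_clique {V : Type} {G : SimpleGraph V} (s : Finset V) (hs : G.IsClique (s : Set V))
    (h : 2 ≤ s.card) : Cyc G s.card := by
  obtain ⟨σ, hσ⟩ := exists_opt (k := s.card) le_rfl s hs rfl (by omega)
  have h1 := hσ.le
  have := σ.cyc_of_path (by omega) [] (by simp) (by simp)
    (by simpa using σ.adjq _ (by omega) 0 (by omega) (by omega))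
  have e : LL σ.len s.card = 0 := by omega
  simpa [e] using this

theorem setup {V : Type} [Fintype V] [Nonempty V] (G : SimpleGraph V) (k : ℕ) (hk : 3 ≤ k)
    (h : Min G k) : ∃ t, 3 ≤ t ∧ t ≤ k ∧ k ≤ 2 * t ∧ Ctx G k t ∧ ∃ σ : Sys G t, Opt k σ := by
  obtain ⟨Q, hQ, hmax⟩ := exists_max_bdd (fun s : Finset V => G.IsClique (s : Set V)) card
    (Fintype.card V) ⟨∅, by simp⟩ (fun a _ => card_le_univ a)
  have h3 := three_le_clique G k Q.card hk h hmax
  have h2 := half_le_clique G k Q.card h h3 hmax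
  have h1 : Q.card ≤ k := by
    by_contra hc
    obtain ⟨s, s1, s2⟩ := exists_subset_card_eq (by omega : k + 1 ≤ Q.card)
    exact h.nocyc (s2 ▸ cyc_of_clique s (hQ.subset (by exact_mod_cast s1)) (by omega))
  refine ⟨Q.card, h3, h1, h2, ⟨h, hk, hmax, fun W hW => ?_⟩,
    exists_opt h1 Q hQ rfl (by omega)⟩
  by_contra hc
  exact h.nocyc (alpha_two G Q.card (k + 1) W h3 hmax hW (by omega) (by omega) (by omega))

end Vale.Agent.P048
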