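import Vale.Agent.P048.Fin1
import Vale.Agent.P048.Fin2
import Vale.Agent.P048.Fin3
import Vale.Agent.P048.Fin4
import Vale.Agent.P048.Fin5
import Vale.Agent.P048.Fin6
import Vale.Agent.P048.Fin7
import Vale.Agent.P048.Fin8
import Vale.Agent.P048.CertAll
import Vale.Agent.P048.Setup

namespace Vale.Agent.P048

theorem fin_all (t L : ℕ) (h1 : 3 ≤ t) (h2 : t ≤ 9) (h3 : L ≤ t) : finB exList t L = true := by
  interval_cases t <;> interval_cases L
  · exact fin3_0
  · exact fin3_1
  · exact fin3_2
  · exact fin3_3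
  · exact fin4_0
  · exact fin4_1
  · exact fin4_2
  · exact fin4_3
  · exact fin4_4
  · exact fin5_0
  · exact fin5_1
  · exact fin5_2
  · exact fin5_3
  · exact fin5_4
  · exact fin5_5
  · exact fin6_0
  · exact fin6_1
  · exact fin6_2
  · exact fin6_3
  · exact fin6_4
  · exact fin6_5
  · exact fin6_6
  · exact fin7_0
  · exact fin7_1
  · exact fin7_2
  · exact fin7_3
  · exact fin7_4
  · exact fin7_5
  · exact fin7_6
  · exact fin7_7
  · exact fin8_0
  · exact fin8_1
  · exact fin8_2
  · exact fin8_3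
  · exact fin8_4
  · exact fin8_5
  · exact fin8_6
  · exact fin8_7
  · exact fin8_8
  · exact fin9_0
  · exact fin9_1
  · exact fin9_2
  · exact fin9_3
  · exact fin9_4
  · exact fin9_5
  · exact fin9_6
  · exact fin9_7
  · exact fin9_8
  · exact fin9_9

theorem no_min (V : Type) [Fintype V] [Nonempty V] (G : SimpleGraph V) (k : ℕ) (hk : 3 ≤ k) :
    ¬ Min G k := by
  intro h
  obtain ⟨t, h1, _, h2, c, σ, hσ⟩ := setup G k hk h
  by_cases ht : 10 ≤ t
  · exact large c hσ ht h2
  · have := hσ.le
    exact fin_sound c hσ h1 h2 exList exList_ok (fin_all t _ h1 (by omega) (by omega))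

end Vale.Agent.P048
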