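import Vale.Agent.P048.Sys

namespace Vale.Agent.P048

open Finset

variable {V : Type}

/-- A path from `x` to `y` with `d` interior vertices, all outside `S`. -/
def Link (G : SimpleGraph V) (S : Finset V) (x y : V) (d : ℕ) : Prop :=
  ∃ p : List V, p.length = d ∧ p.Nodup ∧ (∀ v ∈ p, v ∉ S) ∧ List.IsChain G.Adj (x :: (p ++ [y]))

lemma Link.symm {G : SimpleGraph V} {S : Finset V} {x y : V} {d : ℕ} (h : Link G S x y d) :
    Link G S y x d := by
  obtain ⟨p, h1, h2, h3, h4⟩ := h
  refine ⟨p.reverse, by simpa using h1, List.nodup_reverse.mpr h2, by simpa using h3, ?_⟩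
  simpa using chain_rev h4

lemma Link.mono {G : SimpleGraph V} {S S' : Finset V} {x y : V} {d : ℕ} (hS : S ⊆ S')
    (h : Link G S' x y d) : Link G S x y d := by
  obtain ⟨p, h1, h2, h3, h4⟩ := h
  exact ⟨p, h1, h2, fun v hv hs => h3 v hv (hS hs), h4⟩

def Imp (k t L e f L' e' f' : ℕ) : Prop :=
  (L' + t ≤ k + 1 + f' ∧ k + 1 ≤ L' + t) ∨ (L < L' ∧ t + L' ≤ k) ∨ (L' = L ∧ e' < e) ∨
    (L' = L ∧ e' ≤ e ∧ f < f')

structure Opt {G : SimpleGraph V} {t : ℕ} (k : ℕ) (σ : Sys G t) : Prop where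
  le : t + LL σ.len t ≤ k
  maxL : ∀ τ : Sys G t, t + LL τ.len t ≤ k → LL τ.len t ≤ LL σ.len t
  mine : ∀ τ : Sys G t, LL τ.len t = LL σ.len t → ee σ.len t ≤ ee τ.len t
  maxf : ∀ τ : Sys G t, LL τ.len t = LL σ.len t → ee τ.len t = ee σ.len t →
    ff τ.len t ≤ ff σ.len t
  maxPhi : ∀ τ : Sys G t, LL τ.len t = LL σ.len t → ee τ.len t = ee σ.len t →
    ff τ.len t = ff σ.len t → Phi τ.len t ≤ Phi σ.len t

lemma exists_max_bdd {α : Type*} (P : α → Prop) (h : α → ℕ) (B : ℕ) (hne : ∃ a, P a)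
    (hB : ∀ a, P a → h a ≤ B) : ∃ a, P a ∧ ∀ b, P b → h b ≤ h a := by
  classical
  have hex : ∃ n, ∃ a, P a ∧ B - h a = n := by
    obtain ⟨a, ha⟩ := hne
    exact ⟨_, a, ha, rfl⟩
  obtain ⟨a, ha, he⟩ := Nat.find_spec hex
  refine ⟨a, ha, fun b hb => ?_⟩
  have := Nat.find_min' hex ⟨b, hb, rfl⟩
  have := hB a ha
  have := hB b hb
  omega

lemma exists_opt {G : SimpleGraph V} {k t : ℕ} (htk : t ≤ k) (Q : Finset V)
    (hQ : G.IsClique (Q : Set V)) (hc : Q.card = t) (ht : 1 ≤ t) :
    ∃ σ : Sys G t, Opt k σ := by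
  classical
  have hne : Nonempty V := by
    obtain ⟨a, _⟩ := card_pos.mp (by omega : 0 < Q.card)
    exact ⟨a⟩
  obtain ⟨a0⟩ := hne
  let σ0 : Sys G t :=
    { q := fun m => Q.toList.getD m a0
      r := fun _ => []
      r0 := rfl
      rt := fun _ _ => rfl
      adjq := by
        intro i hi j hj hij
        have hl : Q.toList.length = t := by simp [hc]
        rw [List.getD_eq_getElem _ _ (by omega), List.getD_eq_getElem _ _ (by omega)]
        refine hQ (by simpa using mem_toList.mp (List.getElem_mem _))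
          (by simpa using mem_toList.mp (List.getElem_mem _)) ?_
        intro he
        exact hij ((List.Nodup.getElem_inj_iff (nodup_toList Q)).mp he)
      notq := by simp
      nodup := by simp
      disj := by simp
      chain := by
        intro m hm
        have hl : Q.toList.length = t := by simp [hc]
        simp only [List.nil_append, List.isChain_cons_cons, List.IsChain.singleton, and_true]
        rw [List.getD_eq_getElem _ _ (by omega), List.getD_eq_getElem _ _ (by omega)]
        refine hQ (by simpa using mem_toList.mp (List.getElem_mem _))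
          (by simpa using mem_toList.mp (List.getElem_mem _)) ?_
        intro he
        have := (List.Nodup.getElem_inj_iff (nodup_toList Q)).mp he
        omega }
  have h0 : t + LL σ0.len t ≤ k := by simp [LL, Sys.len, σ0, htk]
  obtain ⟨σ1, a1, b1⟩ := exists_max_bdd (fun σ : Sys G t => t + LL σ.len t ≤ k)
    (fun σ => LL σ.len t) k ⟨σ0, h0⟩ (fun a ha => by omega)
  obtain ⟨σ2, a2, b2⟩ := exists_max_bdd (fun σ : Sys G t => LL σ.len t = LL σ1.len t)
    (fun σ => t - ee σ.len t) t ⟨σ1, rfl⟩ (fun a _ => by omega)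
  obtain ⟨σ3, a3, b3⟩ := exists_max_bdd
    (fun σ : Sys G t => LL σ.len t = LL σ1.len t ∧ ee σ.len t = ee σ2.len t)
    (fun σ => ff σ.len t) t ⟨σ2, a2, rfl⟩ (fun a _ => ff_le _ _)
  obtain ⟨σ4, a4, b4⟩ := exists_max_bdd
    (fun σ : Sys G t => LL σ.len t = LL σ1.len t ∧ ee σ.len t = ee σ2.len t ∧
      ff σ.len t = ff σ3.len t)
    (fun σ => Phi σ.len t) (LL σ1.len t * 16 ^ t) ⟨σ3, a3.1, a3.2, rfl⟩
    (fun a ha => ha.1 ▸ Phi_le _ _)
  obtain ⟨c1, c2, c3⟩ := a4
  refine ⟨σ4, by omega, fun τ h => ?_, fun τ h => ?_, fun τ h h' => ?_, fun τ h h' h'' => ?_⟩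
  · have := b1 τ h
    omega
  · have := b2 τ (by omega)
    have := ee_le τ.len t
    have := ee_le σ2.len t
    omega
  · have := b3 τ ⟨by omega, by omega⟩
    omega
  · exact b4 τ ⟨by omega, by omega, by omega⟩

lemma Opt.not_imp {G : SimpleGraph V} {k t : ℕ} {σ : Sys G t} (h : Opt k σ) (hk : 2 ≤ k)
    (hc : ¬ Cyc G (k + 1)) (τ : Sys G t) (L' e' f' : ℕ) (h1 : LL τ.len t = L')
    (h2 : ee τ.len t ≤ e') (h3 : f' ≤ ff τ.len t) :
    ¬ Imp k t (LL σ.len t) (ee σ.len t) (ff σ.len t) L' e' f' := by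
  rintro (⟨a, b⟩ | ⟨a, b⟩ | ⟨a, b⟩ | ⟨a, b, c⟩)
  · exact hc (Sys.cyc_of_range (k + 1) (by omega) t τ (by omega) (by omega))
  · have := h.maxL τ (by omega)
    omega
  · have := h.mine τ (by omega)
    omega
  · have := h.mine τ (by omega)
    have := h.maxf τ (by omega) (by omega)
    omega

/-- Statistics of the system obtained by dropping `D` and switching at `i, j`. -/
def zz (l : ℕ → ℕ) (D : ℕ → Bool) (i j m : ℕ) : Prop := l m = 0 ∨ D m = true ∨ m = i ∨ m = j

instance (l : ℕ → ℕ) (D : ℕ → Bool) (i j m : ℕ) : Decidable (zz l D i j m) := by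
  unfold zz; infer_instance

def Lst (l : ℕ → ℕ) (D : ℕ → Bool) (t : ℕ) : ℕ := ∑ m ∈ range t, if D m then 0 else l m
def est (l : ℕ → ℕ) (D : ℕ → Bool) (i j t : ℕ) : ℕ :=
  (∑ m ∈ range t, if zz l D i j m then 0 else 1) + 1
def fst (l : ℕ → ℕ) (D : ℕ → Bool) (i j t : ℕ) : ℕ :=
  ∑ m ∈ range t, if zz l D i j m ∧ zz l D i j (m + 1) ∧ m ≠ i ∧ m ≠ j then 1 else 0

def Cov (k t : ℕ) (l : ℕ → ℕ) (i j d : ℕ) : Prop :=
  ∃ D : ℕ → Bool, D i = false ∧ D j = false ∧
    Imp k t (LL l t) (ee l t) (ff l t) (Lst l D t + d) (est l D i j t) (fst l D i j t)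

lemma Cov.symm {k t : ℕ} {l : ℕ → ℕ} {i j d : ℕ} (h : Cov k t l i j d) : Cov k t l j i d := by
  obtain ⟨D, h1, h2, h3⟩ := h
  refine ⟨D, h2, h1, ?_⟩
  have hz : ∀ m, zz l D j i m ↔ zz l D i j m := fun m => by unfold zz; tauto
  have e1 : est l D j i t = est l D i j t := by simp only [est, hz]
  have e2 : fst l D j i t = fst l D i j t := by
    unfold fst
    refine sum_congr rfl (fun m _ => ?_)
    simp only [hz]
    congr 1
    exact propext (by tauto)
  rw [e1, e2]
  exact h3

namespace Sys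

variable {G : SimpleGraph V} {t : ℕ}

noncomputable def S (σ : Sys G t) : Finset V := by
  classical
  exact (σ.W t).toFinset

lemma mem_S (σ : Sys G t) (v : V) : v ∈ σ.S ↔ v ∈ σ.W t := by
  simp [S]

lemma card_S (σ : Sys G t) : σ.S.card = t + LL σ.len t := by
  classical
  rw [← σ.length_W t, ← List.toFinset_card_of_nodup (σ.nodup_W t le_rfl)]
  congr

lemma q_mem (σ : Sys G t) {m : ℕ} (hm : m < t) : σ.q m ∈ σ.S :=
  (σ.mem_S _).mpr ((σ.mem_W _ _).mpr ⟨m, hm, Or.inr rfl⟩)

lemma r_mem (σ : Sys G t) {m : ℕ} {v : V} (hv : v ∈ σ.r m) : v ∈ σ.S := by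
  by_cases hm : m < t
  · exact (σ.mem_S _).mpr ((σ.mem_W _ _).mpr ⟨m, hm, Or.inl hv⟩)
  · rw [σ.rt m (by omega)] at hv
    simp at hv

lemma block_chain (σ : Sys G t) {m : ℕ} (hm : m < t) :
    List.IsChain G.Adj (σ.r m ++ [σ.q m]) := by
  cases m with
  | zero => simp [σ.r0]
  | succ m => exact (σ.chain m hm).tail

lemma block_eq (σ : Sys G t) (m : ℕ) : ∃ B, σ.r m ++ [σ.q m] = σ.rep m :: B := by
  unfold rep
  cases σ.r m with
  | nil => exact ⟨[], rfl⟩
  | cons a l => exact ⟨l ++ [σ.q m], rfl⟩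

lemma switch (σ : Sys G t) {i j d : ℕ} (hij : i < j) (hj : j < t) {S : Finset V}
    (hS : σ.S ⊆ S) (h : Link G S (σ.rep i) (σ.rep j) d) :
    ∃ τ : Sys G t, ∀ m, τ.len m = if m = i then 0 else if m = j then σ.len i + d + σ.len j else
      σ.len (if i + 1 ≤ m ∧ m < j then i + j - m else m) := by
  obtain ⟨p, h1, h2, h3, h4⟩ := h
  have hout : ∀ m, ∀ v ∈ p, v ∉ σ.r m := fun m v hv hr => h3 v hv (hS (σ.r_mem hr))
  refine ⟨σ.flip i j hij hj.le ((σ.r i).reverse ++ p ++ σ.r j) (by omega) ?_ ?_ ?_ ?_, ?_⟩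
  · rw [List.nodup_append, List.nodup_append]
    refine ⟨⟨List.nodup_reverse.mpr (σ.nodup i), h2, ?_⟩, σ.nodup j, ?_⟩
    · intro a ha b hb hab
      exact hout i b hb (hab ▸ List.mem_reverse.mp ha)
    · intro a ha b hb hab
      rcases List.mem_append.mp ha with ha | ha
      · exact σ.disj i j (by omega) a (List.mem_reverse.mp ha) (hab ▸ hb)
      · exact hout j a ha (hab ▸ hb)
  · intro a ha hm
    simp only [List.mem_append, List.mem_reverse] at hm
    rcases hm with (hm | hm) | hm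
    · exact σ.notq a ha _ hm
    · exact h3 _ hm (hS (σ.q_mem ha))
    · exact σ.notq a ha _ hm
  · intro m hi hj' v hv
    simp only [List.mem_append, List.mem_reverse] at hv
    rcases hv with (hv | hv) | hv
    · exact σ.disj _ _ (Ne.symm hi) v hv
    · exact hout m v hv
    · exact σ.disj _ _ (Ne.symm hj') v hv
  · intro _
    obtain ⟨B, hB⟩ := σ.block_eq i
    obtain ⟨C, hC⟩ := σ.block_eq j
    have c1 := chain_rev (σ.block_chain (by omega : i < t))
    have c2 := σ.block_chain hj
    have e1 : σ.q i :: (σ.r i).reverse = B.reverse ++ [σ.rep i] := by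
      have := congrArg List.reverse hB
      simpa using this
    have e2 : σ.q i :: ((σ.r i).reverse ++ p ++ σ.r j ++ [σ.q j]) =
        B.reverse ++ σ.rep i :: (p ++ σ.rep j :: C) := by
      rw [List.append_assoc, hC, List.append_assoc, ← List.cons_append, e1]
      simp
    rw [e2]
    refine chain_glue ?_ ?_
    · rw [← e1]; simpa using c1
    · rw [← List.cons_append]
      exact chain_glue (by simpa using h4) (hC ▸ c2)
  · intro m
    rw [len_flip]
    simp [len, h1, add_assoc]

end Sys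

lemma switch_stats (l l' : ℕ → ℕ) (i j d t : ℕ) (hij : i < j) (hj : j < t)
    (h : ∀ m, l' m = if m = i then 0 else if m = j then l i + d + l j else
      l (if i + 1 ≤ m ∧ m < j then i + j - m else m)) :
    LL l' t = LL l t + d ∧
    ee l' t ≤ (∑ m ∈ range t, if (l m = 0 ∨ m = i ∨ m = j) then 0 else 1) + 1 ∧
    (∑ m ∈ range t, if (l m = 0 ∨ m = i ∨ m = j) ∧ (l (m + 1) = 0 ∨ m + 1 = i ∨ m + 1 = j) ∧
      m ≠ i ∧ m ≠ j then 1 else 0) ≤ ff l' t := by
  have hi' : i ∈ range t := mem_range.mpr (by omega)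
  have hj' : j ∈ range t := mem_range.mpr hj
  refine ⟨?_, ?_, ?_⟩
  · unfold LL
    rw [← sum_refl l' (i + 1) j (i + j) t (by omega) hj.le]
    have : ∀ m ∈ range t, l' (if i + 1 ≤ m ∧ m < j then i + j - m else m) +
        (if m = i then l i else 0) = l m + (if m = j then l i + d else 0) := by
      intro m _
      rw [h]
      split_ifs <;> first | omega | (subst_vars; omega) | (congr 2; omega)
    have := sum_congr rfl this
    rw [sum_add_distrib, sum_add_distrib, sum_ite_eq', sum_ite_eq', if_pos hi', if_pos hj'] at this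
    omega
  · unfold ee
    rw [← sum_refl (fun m => if l' m = 0 then 0 else 1) (i + 1) j (i + j) t (by omega) hj.le]
    have : ∀ m ∈ range t, (if l' (if i + 1 ≤ m ∧ m < j then i + j - m else m) = 0 then 0 else 1) ≤
        (if (l m = 0 ∨ m = i ∨ m = j) then 0 else 1) + (if m = j then 1 else 0) := by
      intro m _
      rw [h]
      by_cases h1 : i + 1 ≤ m ∧ m < j
      · have e : i + j - (i + j - m) = m := by omega
        simp only [if_pos h1]
        rw [if_neg (by omega : ¬ i + j - m = i), if_neg (by omega : ¬ i + j - m = j),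
          if_pos (by omega : i + 1 ≤ i + j - m ∧ i + j - m < j), e]
        split_ifs <;> omega
      · simp only [if_neg h1]
        split_ifs <;> omega
    have := sum_le_sum this
    rw [sum_add_distrib, sum_ite_eq', if_pos hj'] at this
    exact this
  · unfold ff
    rw [← sum_refl (fun m => if l' m = 0 ∧ l' (m + 1) = 0 then 1 else 0) i j (i + j - 1) t
      (by omega) hj.le]
    refine sum_le_sum (fun m _ => ?_)
    split_ifs with h1 h2 h3 h4 <;> try omega
    · exfalso
      apply h3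
      rw [h, h]
      have e1 : i + j - (i + j - 1 - m) = m + 1 := by omega
      have e2 : i + j - (i + j - 1 - m + 1) = m := by omega
      constructor
      · split_ifs <;> first | omega | (rw [e1]; omega)
      · split_ifs <;> first | omega | (rw [e2]; omega)
    · exfalso
      apply h4
      rw [h, h]
      constructor
      · split_ifs <;> omega
      · split_ifs <;> omega

lemma Opt.no_link {G : SimpleGraph V} {k t : ℕ} {σ : Sys G t} (h : Opt k σ) (hk : 2 ≤ k)
    (hc : ¬ Cyc G (k + 1)) {i j d : ℕ} (hi : i < t) (hj : j < t) (hij : i ≠ j)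
    (hcov : Cov k t σ.len i j d) : ¬ Link G σ.S (σ.rep i) (σ.rep j) d := by
  wlog hlt : i < j generalizing i j
  · exact fun hl => this hj hi (Ne.symm hij) hcov.symm (by omega) hl.symm
  intro hl
  obtain ⟨D, d1, d2, himp⟩ := hcov
  have r1 : (σ.drop D).rep i = σ.rep i := by simp [Sys.rep, Sys.drop, d1]
  have r2 : (σ.drop D).rep j = σ.rep j := by simp [Sys.rep, Sys.drop, d2]
  have hS : (σ.drop D).S ⊆ σ.S := by
    intro v hv
    rw [Sys.mem_S, Sys.mem_W] at hv
    obtain ⟨m, hm, hv | hv⟩ := hv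
    · simp only [Sys.drop] at hv
      split_ifs at hv
      · simp at hv
      · exact σ.r_mem hv
    · exact hv ▸ σ.q_mem hm
  obtain ⟨τ, hτ⟩ := (σ.drop D).switch hlt hj hS (r1 ▸ r2 ▸ hl)
  obtain ⟨s1, s2, s3⟩ := switch_stats _ _ i j d t hlt hj hτ
  have hz : ∀ m, ((σ.drop D).len m = 0 ∨ m = i ∨ m = j) ↔ zz σ.len D i j m := by
    intro m
    rw [Sys.len_drop]
    unfold zz
    by_cases hD : D m <;> simp [hD]
  refine h.not_imp hk hc τ _ _ _ ?_ ?_ ?_ himp
  · rw [s1]
    simp only [LL, Lst, Sys.len_drop]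
  · simpa only [hz, est] using s2
  · simpa only [hz, fst] using s3

/-- The optimal shape is not improved by reversing a union of chains. -/
lemma Opt.canon {G : SimpleGraph V} {k t : ℕ} {σ : Sys G t} (h : Opt k σ) {i j : ℕ}
    (hij : i < j) (hj : j ≤ t) (h1 : σ.len i = 0) (h2 : σ.len j = 0) :
    Phi (fun m => σ.len (if i + 1 ≤ m ∧ m < j then i + j - m else m)) t ≤ Phi σ.len t := by
  let τ := σ.flip i j hij hj [] (fun _ => rfl) (by simp) (by simp) (by simp)
    (fun hj' => by simpa using σ.adjq i (by omega) j hj' (by omega))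
  have hτ : τ.len = fun m => σ.len (if i + 1 ≤ m ∧ m < j then i + j - m else m) := by
    funext m
    rw [Sys.len_flip]
    split_ifs <;> first | rfl | omega | (subst_vars; simp_all)
  rw [← hτ]
  apply h.maxPhi
  · rw [hτ]
    exact sum_refl σ.len (i + 1) j (i + j) t (by omega) hj
  · rw [hτ]
    exact sum_refl (fun m => if σ.len m = 0 then 0 else 1) (i + 1) j (i + j) t (by omega) hj
  · rw [hτ]
    unfold ff
    rw [← sum_refl (fun m => if σ.len m = 0 ∧ σ.len (m + 1) = 0 then 1 else 0) i j (i + j - 1) t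
      (by omega) hj]
    refine sum_congr rfl (fun m _ => ?_)
    refine if_congr ?_ rfl rfl
    beta_reduce
    by_cases a1 : i ≤ m ∧ m < j
    · rw [if_pos a1]
      have e1 : σ.len (if i + 1 ≤ m ∧ m < j then i + j - m else m) = σ.len (i + j - 1 - m + 1) := by
        split_ifs
        · congr 1; omega
        · have : m = i := by omega
          subst this
          have : m + j - 1 - m + 1 = j := by omega
          rw [this, h1, h2]
      have e2 : σ.len (if i + 1 ≤ m + 1 ∧ m + 1 < j then i + j - (m + 1) else m + 1) =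
          σ.len (i + j - 1 - m) := by
        split_ifs
        · congr 1; omega
        · have : j = m + 1 := by omega
          subst this
          have : i + (m + 1) - 1 - m = i := by omega
          rw [this, h1, h2]
      rw [e1, e2]
      tauto
    · rw [if_neg a1, if_neg (by omega), if_neg (by omega)]

end Vale.Agent.P048
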