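import Vale.Agent.P048.Basic

/-! Bondy–Simonovits: colourings of a cycle with a chord; paths as functions; long cycles. -/

namespace Vale.Agent.P048

open Finset

variable {V : Type}

theorem ext_of_window {p : ℕ} (hp : 0 < p) {F G : ℤ → Bool} (hF : Function.Periodic F (p : ℤ))
    (hG : Function.Periodic G (p : ℤ)) (w : ℤ) (h : ∀ a, w ≤ a → a < w + p → F a = G a) (a : ℤ) :
    F a = G a := by
  have h1 := Int.emod_nonneg (a - w) (by omega : (p : ℤ) ≠ 0)
  have h2 := Int.emod_lt_of_pos (a - w) (by omega : (0 : ℤ) < p)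
  have h3 := Int.emod_add_mul_ediv (a - w) p
  have e : a = (w + (a - w) % p) + ((a - w) / p) * p := by rw [mul_comm]; omega
  have h4 := hF.int_mul ((a - w) / p) (w + (a - w) % p)
  have h5 := hG.int_mul ((a - w) / p) (w + (a - w) % p)
  simp only [Int.cast_id] at h4 h5
  rw [e, h4, h5]
  exact h _ (by omega) (by omega)

theorem period_two (c : ℤ → Bool) (n m r : ℕ) (hm : 1 ≤ m) (hmn : m < n) (hr : 2 ≤ r)
    (hrn : r + 2 ≤ n) (hn : ∀ y, c (y + n) = c y) (h0 : ∀ y, c (y + m) = c y)
    (h1 : ∀ a : ℤ, 0 ≤ a → a < r → a < m → (r : ℤ) + m - n ≤ a → c a = c (r + m - 1 - a))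
    (h2 : ∀ a : ℤ, 0 ≤ a → a < n - r → a < m → (m : ℤ) - r ≤ a → c (-a) = c (r + 1 + a - m))
    (h3 : r + m ≤ n → ∀ a : ℤ, 0 ≤ a → a < m → c (-a) = c (r + m - 1 - a))
    (h4 : m ≤ r → ∀ a : ℤ, 0 ≤ a → a < m → c a = c (r + 1 + a - m)) (y : ℤ) :
    c (y + 2) = c y := by
  classical
  have hex : ∃ p : ℕ, 0 < p ∧ Function.Periodic c (p : ℤ) := ⟨m, hm, h0⟩
  obtain ⟨p, ⟨hp, hper⟩, hmin⟩ : ∃ p : ℕ, (0 < p ∧ Function.Periodic c (p : ℤ)) ∧
      ∀ q : ℕ, 0 < q → Function.Periodic c (q : ℤ) → p ≤ q :=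
    ⟨Nat.find hex, Nat.find_spec hex, fun q h h' => Nat.find_min' hex ⟨h, h'⟩⟩
  have cg : ∀ {x y : ℤ}, x = y → c x = c y := fun h => h ▸ rfl
  have pm := hmin m hm h0
  have pnm := hmin (n - m) (by omega) fun y => by
    rw [← h0, ← hn y]; exact cg (by omega)
  have s1 : ∀ b : ℤ, Function.Periodic (fun a => c (b - a)) (p : ℤ) := fun b a => by
    show c _ = c _
    rw [← hper]; exact cg (by ring)
  have s2 : ∀ b : ℤ, Function.Periodic (fun a => c (b + a)) (p : ℤ) := fun b a => by
    show c _ = c _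
    rw [← hper (b + a)]; exact cg (by ring)
  by_cases a1 : r < p
  · have := ext_of_window hp (s1 0) (s1 (r - 1)) 0 fun a ha hb => by
      have := h3 (by omega) a ha (by omega)
      show c _ = c _
      rw [zero_sub, this, ← h0 (r - 1 - a)]; exact cg (by ring)
    have := hmin (r - 1) (by omega) fun y => by
      have := this (-y)
      exact (cg (by omega)).trans (this.symm.trans (cg (by ring)))
    omega
  by_cases a2 : n - r < p
  · have := ext_of_window hp (s2 0) (s2 (r + 1)) 0 fun a ha hb => by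
      have := h4 (by omega) a ha (by omega)
      show c _ = c _
      rw [zero_add, this, ← h0]; exact cg (by ring)
    have := hmin (n - r - 1) (by omega) fun y => by
      have := this (y + (n - r - 1 : ℕ))
      refine (cg (by ring)).trans (this.trans ?_)
      rw [← hn y]; exact cg (by omega)
    omega
  have e1 := ext_of_window hp (s2 0) (s1 (r - 1)) (max 0 (r + m - n)) fun a ha hb => by
    have := h1 a (by omega) (by omega) (by omega) (by omega)
    show c _ = c _
    rw [zero_add, this, ← h0 (r - 1 - a)]; exact cg (by ring)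
  have e2 := ext_of_window hp (s1 0) (s2 (r + 1)) (max 0 (m - r)) fun a ha hb => by
    have := h2 a (by omega) (by omega) (by omega) (by omega)
    show c _ = c _
    rw [zero_sub, this, ← h0]; exact cg (by ring)
  have f1 := e1 (r - 1 - y)
  have f2 := e2 (y + 1 - r)
  exact (cg (by ring)).trans (f2.symm.trans ((cg (by ring)).trans (f1.trans (cg (by ring)))))

/-- A path with `p` edges inside `H`. -/
structure IsPth (G : SimpleGraph V) (H : Finset V) (p : ℕ) (f : ℕ → V) : Prop where
  adj : ∀ i < p, G.Adj (f i) (f (i + 1))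
  inj : ∀ i ≤ p, ∀ j ≤ p, f i = f j → i = j
  mem : ∀ i ≤ p, f i ∈ H

variable {G : SimpleGraph V} {H : Finset V}

theorem IsPth.mono {H' : Finset V} {p p' : ℕ} {f : ℕ → V} (h : IsPth G H p f) (hp : p' ≤ p)
    (hH : H ⊆ H') : IsPth G H' p' f :=
  ⟨fun i hi => h.adj i (by omega), fun i hi j hj => h.inj i (by omega) j (by omega),
    fun i hi => hH (h.mem i (by omega))⟩

theorem IsPth.cons {p : ℕ} {f : ℕ → V} (h : IsPth G H p f) {y : V} (hy : y ∈ H)
    (ha : G.Adj y (f 0)) (hn : ∀ i ≤ p, f i ≠ y) :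
    IsPth G H (p + 1) (fun i => Nat.casesOn i y f) := by
  refine ⟨fun i hi => ?_, fun i hi j hj e => ?_, fun i hi => ?_⟩
  · cases i with
    | zero => exact ha
    | succ i => exact h.adj i (by omega)
  · cases i <;> cases j
    · rfl
    · exact absurd e.symm (hn _ (by omega))
    · exact absurd e (hn _ (by omega))
    · rw [h.inj _ (by omega) _ (by omega) e]
  · cases i with
    | zero => exact hy
    | succ i => exact h.mem i (by omega)

theorem IsPth.lt_card {p : ℕ} {f : ℕ → V} (h : IsPth G H p f) : p < H.card := by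
  have := card_le_card_of_injOn (s := range (p + 1)) (t := H) f
    (fun i hi => h.mem i (by simpa [Nat.lt_succ_iff] using hi))
    fun i hi j hj => h.inj i (by simpa [Nat.lt_succ_iff] using hi) j
      (by simpa [Nat.lt_succ_iff] using hj)
  simpa using this

theorem IsPth.rot {p i : ℕ} {f : ℕ → V} (h : IsPth G H p f) (hi : i ≤ p)
    (ha : G.Adj (f 0) (f i)) : IsPth G H p (fun j => if j < i then f (i - 1 - j) else f j) := by
  refine ⟨fun j hj => ?_, fun j hj j' hj' e => ?_, fun j hj => ?_⟩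
  · by_cases h1 : j + 1 < i
    · have := (h.adj (i - 1 - (j + 1)) (by omega)).symm
      rw [show i - 1 - (j + 1) + 1 = i - 1 - j by omega] at this
      simpa [h1, show j < i by omega] using this
    · by_cases h2 : j < i
      · obtain rfl : i = j + 1 := by omega
        simpa using ha
      · simpa [h1, h2] using h.adj j hj
  · split_ifs at e <;> have := h.inj _ (by omega) _ (by omega) e <;> omega
  · split_ifs <;> exact h.mem _ (by omega)

/-- A cycle of length `n` inside `H`, as a periodic sequence. -/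
structure CycSeq (G : SimpleGraph V) (H : Finset V) (n : ℕ) (d : ℤ → V) : Prop where
  per : ∀ y, d (y + n) = d y
  inj : ∀ x y, d x = d y → x < y + n → y < x + n → x = y
  adj : ∀ y, G.Adj (d y) (d (y + 1))
  mem : ∀ y, d y ∈ H

theorem IsPth.cycSeq {q : ℕ} {f : ℕ → V} (h : IsPth G H q f) (ha : G.Adj (f 0) (f q)) :
    CycSeq G H (q + 1) (fun y => f (y % (q + 1 : ℕ)).toNat) := by
  have b1 : ∀ y : ℤ, 0 ≤ y % (q + 1 : ℕ) := fun y => Int.emod_nonneg y (by omega)
  have b2 : ∀ y : ℤ, y % (q + 1 : ℕ) < (q + 1 : ℕ) := fun y => Int.emod_lt_of_pos y (by omega)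
  refine ⟨fun y => by simp only [Int.add_emod_right], fun x y e h1 h2 => ?_, fun y => ?_,
    fun y => h.mem _ (by have := b1 y; have := b2 y; omega)⟩
  · have := b1 x; have := b2 x; have := b1 y; have := b2 y
    have e' := h.inj _ (by omega) _ (by omega) e
    have e2 : x % (q + 1 : ℕ) = y % (q + 1 : ℕ) := by omega
    have := Int.eq_zero_of_abs_lt_dvd (Int.ModEq.dvd e2) (abs_lt.mpr ⟨by omega, by omega⟩)
    omega
  · have := b1 y; have := b2 y
    by_cases hy : y % (q + 1 : ℕ) = q
    · have : (y + 1) % (q + 1 : ℕ) = 0 := by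
        rw [← Int.emod_add_emod, hy]; push_cast; exact Int.emod_self
      simp only [hy, this]
      simpa using ha.symm
    · have : (y + 1) % (q + 1 : ℕ) = y % (q + 1 : ℕ) + 1 := by
        rw [← Int.emod_add_emod]; exact Int.emod_eq_of_lt (by omega) (by omega)
      simp only [this]
      rw [show (y % (q + 1 : ℕ) + 1).toNat = (y % (q + 1 : ℕ)).toNat + 1 by omega]
      exact h.adj _ (by omega)

theorem exists_max_nat {P : ℕ → Prop} {B : ℕ} (h0 : ∃ n, P n) (hB : ∀ n, P n → n ≤ B) :
    ∃ n, P n ∧ ∀ m, P m → m ≤ n := by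
  classical
  obtain ⟨n, hn⟩ := h0
  exact ⟨Nat.findGreatest P B, Nat.findGreatest_spec (hB n hn) hn,
    fun m hm => Nat.le_findGreatest (hB m hm) hm⟩

open Classical in
/-- (A2) a long cycle with a chord -/
theorem long_cycle [Fintype V] {k t : ℕ} (ht : 3 ≤ t) (hk : 2 * t < k)
    (hcl : ∀ s : Finset V, G.IsClique (s : Set V) → s.card ≤ t) (hne : H.Nonempty)
    (h1 : ∀ x ∈ H, k ≤ 2 * (nbhd G {x} ∩ H).card)
    (h2 : ∀ x ∈ H, ∀ y ∈ H, x ≠ y → ¬ G.Adj x y → k ≤ (nbhd G {x, y} ∩ H).card) :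
    ∃ (n r : ℕ) (d : ℤ → V), k ≤ n ∧ 2 ≤ r ∧ r + 2 ≤ n ∧ CycSeq G H n d ∧ G.Adj (d 0) (d r) := by
  obtain ⟨x₀, hx₀⟩ := hne
  obtain ⟨p, hp, pmax⟩ := exists_max_nat (P := fun p => ∃ f, IsPth G H p f) (B := H.card)
    ⟨0, fun _ => x₀, ⟨by simp, by simp, fun _ _ => hx₀⟩⟩ fun n ⟨f, hf⟩ => hf.lt_card.le
  have on : ∀ f, IsPth G H p f → ∀ y ∈ H, G.Adj (f 0) y → ∃ i ≤ p, f i = y := fun f hf y hy ha => by
    by_contra hc
    push Not at hc
    have := pmax _ ⟨_, hf.cons hy ha.symm hc⟩
    omega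
  obtain ⟨q, ⟨f, hf, hq, hqa⟩, qmax⟩ := exists_max_nat
    (P := fun q => ∃ f, IsPth G H p f ∧ q ≤ p ∧ (q = 0 ∨ G.Adj (f 0) (f q))) (B := p)
    (by obtain ⟨f, hf⟩ := hp; exact ⟨0, f, hf, by omega, Or.inl rfl⟩) fun n ⟨_, _, h, _⟩ => h
  have on' : ∀ g, IsPth G H p g → ∀ y ∈ nbhd G {g 0} ∩ H, ∃ i ≤ q, g i = y := fun g hg y hy => by
    simp only [mem_inter, mem_nbhd, mem_singleton, exists_eq_left] at hy
    obtain ⟨rfl | ha, hy⟩ := hy
    · exact ⟨0, by omega, rfl⟩
    · obtain ⟨i, hi, rfl⟩ := on g hg y hy ha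
      exact ⟨i, qmax i ⟨g, hg, hi, Or.inr ha⟩, rfl⟩
  -- a chord
  obtain ⟨r, hr, hr0, hr1, hrq, hra⟩ : ∃ r ≤ q, r ≠ 0 ∧ r ≠ 1 ∧ r ≠ q ∧ G.Adj (f 0) (f r) := by
    by_contra hc
    push Not at hc
    have : nbhd G {f 0} ∩ H ⊆ {f 0, f 1, f q} := fun y hy => by
      obtain ⟨i, hi, rfl⟩ := on' f hf y hy
      simp only [mem_inter, mem_nbhd, mem_singleton, exists_eq_left] at hy
      simp only [mem_insert, mem_singleton]
      by_contra hh
      push Not at hh
      exact hc i hi (fun e => hh.1 (by rw [e])) (fun e => hh.2.1 (by rw [e]))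
        (fun e => hh.2.2 (by rw [e])) (hy.1.resolve_left hh.1)
    have := (card_le_card this).trans card_le_three
    have := h1 _ (hf.mem 0 (by omega))
    omega
  have hqa' : G.Adj (f 0) (f q) := hqa.resolve_left (by omega)
  refine ⟨q + 1, r, _, ?_, by omega, by omega, (hf.mono hq Subset.rfl).cycSeq hqa', ?_⟩
  swap
  · rw [Int.emod_eq_of_lt (by omega) (by omega), Int.emod_eq_of_lt (by omega) (by omega)]
    simpa using hra
  by_contra hlt
  have nb : ∀ i, 1 ≤ i → i ≤ q → G.Adj (f 0) (f i) →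
      nbhd G {f (i - 1)} ∩ H ⊆ (range (q + 1)).image f := fun i h1 hi ha y hy => by
    obtain ⟨j, hj, e⟩ := on' _ (hf.rot (by omega) ha) y (by simpa [show 0 < i by omega] using hy)
    simp only [mem_image, mem_range]
    split_ifs at e
    · exact ⟨_, by omega, e⟩
    · exact ⟨_, by omega, e⟩
  have cl : ∀ i, 1 ≤ i → i ≤ q → G.Adj (f 0) (f i) → ∀ j, 1 ≤ j → j ≤ q → G.Adj (f 0) (f j) →
      i ≠ j → G.Adj (f (i - 1)) (f (j - 1)) := fun i i1 iq ia j j1 jq ja ij => by
    by_contra hc
    have := h2 _ (hf.mem _ (by omega)) _ (hf.mem _ (by omega))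
      (fun e => by have := hf.inj _ (by omega) _ (by omega) e; omega) hc
    have hs : nbhd G {f (i - 1), f (j - 1)} ∩ H ⊆ (range (q + 1)).image f := fun y hy => by
      simp only [mem_inter, mem_nbhd, mem_insert, mem_singleton, exists_eq_or_imp,
        exists_eq_left] at hy
      by_cases hh : y = f (i - 1) ∨ G.Adj (f (i - 1)) y
      · exact nb i i1 iq ia (by simp [mem_nbhd, hh, hy.2])
      · exact nb j j1 jq ja (by simp only [mem_inter, mem_nbhd, mem_singleton, exists_eq_left]; tauto)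
    have := (card_le_card hs).trans card_image_le
    rw [card_range] at this
    omega
  have a1 : G.Adj (f 0) (f 1) := hf.adj 0 (by omega)
  have all : ∀ j, j < q → G.Adj (f 0) (f (q - j)) := fun j => by
    induction j with
    | zero => exact fun _ => hqa'
    | succ j ih =>
      intro hj
      exact cl 1 le_rfl (by omega) a1 (q - j) (by omega) (by omega) (ih (by omega)) (by omega)
  have all' : ∀ i, 1 ≤ i → i ≤ q → G.Adj (f 0) (f i) := fun i h1 h2 => by
    have := all (q - i) (by omega)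
    rwa [show q - (q - i) = i by omega] at this
  have cl' : ∀ i < q, ∀ j < q, i ≠ j → G.Adj (f i) (f j) := fun i hi j hj ij =>
    cl (i + 1) (by omega) hi (all' _ (by omega) hi) (j + 1) (by omega) hj (all' _ (by omega) hj)
      (by omega)
  by_cases hc : ∀ i < q, G.Adj (f i) (f q)
  · have := hcl ((range (q + 1)).image f) fun x hx y hy hxy => by
      simp only [coe_image, coe_range, Set.mem_image, Set.mem_Iio] at hx hy
      obtain ⟨i, hi, rfl⟩ := hx
      obtain ⟨j, hj, rfl⟩ := hy
      have ij : i ≠ j := fun e => hxy (by rw [e])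
      rcases eq_or_ne i q with rfl | h1
      · exact (hc j (by omega)).symm
      rcases eq_or_ne j q with rfl | h2
      · exact hc i (by omega)
      exact cl' i (by omega) j (by omega) ij
    have := (card_le_card (nb 1 le_rfl (by omega) a1)).trans this
    have := h1 _ (hf.mem (1 - 1) (by omega))
    omega
  · push Not at hc
    obtain ⟨i, hi, hc⟩ := hc
    have := hcl ((range q).image f) fun x hx y hy hxy => by
      simp only [coe_image, coe_range, Set.mem_image, Set.mem_Iio] at hx hy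
      obtain ⟨i, hi, rfl⟩ := hx
      obtain ⟨j, hj, rfl⟩ := hy
      exact cl' i hi j hj fun e => hxy (by rw [e])
    have hs : nbhd G {f i} ∩ H ⊆ (range q).image f := fun y hy => by
      have := nb (i + 1) (by omega) hi (all' _ (by omega) hi) hy
      simp only [mem_image, mem_range] at this ⊢
      obtain ⟨j, hj, rfl⟩ := this
      refine ⟨j, lt_of_le_of_ne (by omega) ?_, rfl⟩
      rintro rfl
      simp only [mem_inter, mem_nbhd, mem_singleton, exists_eq_left] at hy
      rcases hy.1 with e | e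
      · have := hf.inj _ (by omega) _ (by omega) e; omega
      · exact hc e
    have := (card_le_card hs).trans this
    have := h1 _ (hf.mem i (by omega))
    omega

end Vale.Agent.P048
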