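import Vale.Agent.P048.PartA1

/-! Two-colourings without a bichromatic path of length `m`. -/

namespace Vale.Agent.P048

open Finset

variable {V : Type} {G : SimpleGraph V} {H : Finset V} {n m : ℕ} {d : ℤ → V} {c : V → Bool}

theorem CycSeq.shift (hd : CycSeq G H n d) (u : ℤ) : CycSeq G H n (fun y => d (y + u)) :=
  ⟨fun y => by rw [add_right_comm, hd.per], fun x y e h1 h2 => by
    have := hd.inj _ _ e (by omega) (by omega); omega,
    fun y => by rw [add_right_comm]; exact hd.adj _, fun y => hd.mem _⟩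

theorem CycSeq.path_idx (hd : CycSeq G H n d) (r : ℤ) (g : ℕ → ℤ) (w : ℤ)
    (hw : ∀ i ≤ m, w ≤ g i ∧ g i < w + n) (hinj : ∀ i ≤ m, ∀ j ≤ m, g i = g j → i = j)
    (hadj : ∀ i < m, g (i + 1) = g i + 1 ∨ g i = g (i + 1) + 1 ∨
      (g i = 0 ∧ g (i + 1) = r ∧ G.Adj (d 0) (d r))) :
    IsPth G H m (fun i => d (g i)) := by
  refine ⟨fun i hi => ?_, fun i hi j hj e => ?_, fun i _ => hd.mem _⟩
  · rcases hadj i hi with h | h | ⟨h, h', h''⟩
    · rw [h]; exact hd.adj _
    · rw [h]; exact (hd.adj _).symm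
    · rw [h, h']; exact h''
  · have := hw i hi
    have := hw j hj
    exact hinj i hi j hj (hd.inj _ _ e (by omega) (by omega))

theorem CycSeq.arc (hd : CycSeq G H n d) (hmn : m < n) (y : ℤ) :
    IsPth G H m (fun i => d (y + i)) :=
  hd.path_idx 0 (fun i => y + i) y (fun i hi => by omega) (fun i hi j hj e => by omega)
    fun i hi => by push_cast; omega

theorem CycSeq.chord1 (hd : CycSeq G H n d) (hno : ∀ f, IsPth G H m f → c (f 0) = c (f m))
    {r : ℕ} (hrn : r < n) (hr : G.Adj (d 0) (d r)) (a : ℤ) (h1 : 0 ≤ a) (h2 : a < r) (h3 : a < m)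
    (h4 : (r : ℤ) + m - n ≤ a) : c (d a) = c (d (r + m - 1 - a)) := by
  have := hno _ (hd.path_idx r (fun i => if (i : ℤ) ≤ a then a - i else r + (i - a - 1)) 0
    (fun i hi => by split_ifs <;> omega) (fun i hi j hj e => by split_ifs at e <;> omega)
    fun i hi => by simp only [hr, and_true]; push_cast; split_ifs <;> omega)
  simp only [Nat.cast_zero, h1, if_true, sub_zero, not_le.mpr h3, if_false] at this
  rw [this]; congr 2; ring

theorem CycSeq.two (hd : CycSeq G H n d) (hno : ∀ f, IsPth G H m f → c (f 0) = c (f m))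
    (hm : 1 ≤ m) (hmn : m < n) {r : ℕ} (hr2 : 2 ≤ r) (hrn : r + 2 ≤ n) (hr : G.Adj (d 0) (d r))
    (y : ℤ) : c (d (y + 2)) = c (d y) := by
  refine period_two (fun y => c (d y)) n m r hm hmn hr2 hrn (fun y => by rw [hd.per])
    (fun y => by simpa using (hno _ (hd.arc hmn y)).symm) (hd.chord1 hno (by omega) hr)
    (fun a h1 h2 h3 h4 => ?_) (fun h a h1 h3 => ?_) (fun h a h1 h3 => ?_) y
  · have := hno _ (hd.path_idx r (fun i => if (i : ℤ) ≤ a then i - a else r - (i - a - 1))
      (r + 1 - n) (fun i hi => by split_ifs <;> omega)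
      (fun i hi j hj e => by split_ifs at e <;> omega)
      fun i hi => by simp only [hr, and_true]; push_cast; split_ifs <;> omega)
    simp only [Nat.cast_zero, h1, if_true, zero_sub, not_le.mpr h3, if_false] at this
    rw [this]; congr 2; ring
  · have := hno _ (hd.path_idx r (fun i => if (i : ℤ) ≤ a then i - a else r + (i - a - 1))
      (-a) (fun i hi => by split_ifs <;> omega)
      (fun i hi j hj e => by split_ifs at e <;> omega)
      fun i hi => by simp only [hr, and_true]; push_cast; split_ifs <;> omega)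
    simp only [Nat.cast_zero, h1, if_true, zero_sub, not_le.mpr h3, if_false] at this
    rw [this]; congr 2; ring
  · have := hno _ (hd.path_idx r (fun i => if (i : ℤ) ≤ a then a - i else r - (i - a - 1))
      0 (fun i hi => by split_ifs <;> omega)
      (fun i hi j hj e => by split_ifs at e <;> omega)
      fun i hi => by simp only [hr, and_true]; push_cast; split_ifs <;> omega)
    simp only [Nat.cast_zero, h1, if_true, sub_zero, not_le.mpr h3, if_false] at this
    rw [this]; congr 2; ring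

open Classical in
theorem grow (P : Finset V → Prop) (p : ℕ)
    (hstep : ∀ S ⊆ H, P S → ∀ y ∈ H, y ∉ S → (∃ x ∈ S, G.Adj y x) →
      (∀ x ∈ S, G.Adj y x → ∃ f, IsPth G (insert y S) (p + 1) f ∧ f 0 = y ∧ f 1 = x ∧
        ∀ i, 1 ≤ i → i ≤ p + 1 → f i ∈ S) → P (insert y S))
    (S₀ : Finset V) (h0 : S₀ ⊆ H) (hP : P S₀) (hT : ∀ x ∈ S₀, ∃ f, IsPth G S₀ p f ∧ f 0 = x) :
    ∃ S, S₀ ⊆ S ∧ S ⊆ H ∧ P S ∧ ∀ x ∈ S, ∀ y ∈ H, G.Adj x y → y ∈ S := by
  obtain ⟨N, ⟨S, rfl, s0, sH, sP, sT⟩, hmax⟩ := exists_max_nat (P := fun N => ∃ S : Finset V,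
    S.card = N ∧ S₀ ⊆ S ∧ S ⊆ H ∧ P S ∧ ∀ x ∈ S, ∃ f, IsPth G S p f ∧ f 0 = x) (B := H.card)
    ⟨_, S₀, rfl, Subset.rfl, h0, hP, hT⟩ fun n ⟨S, h1, _, h2, _⟩ => h1 ▸ card_le_card h2
  refine ⟨S, s0, sH, sP, fun x hx y hy ha => ?_⟩
  by_contra hn
  have key : ∀ x ∈ S, G.Adj y x → ∃ f, IsPth G (insert y S) (p + 1) f ∧ f 0 = y ∧ f 1 = x ∧
      ∀ i, 1 ≤ i → i ≤ p + 1 → f i ∈ S := fun x hx ha => by
    obtain ⟨f, hf, rfl⟩ := sT x hx
    refine ⟨_, (hf.mono le_rfl (subset_insert y S)).cons (mem_insert_self y S) ha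
      fun i hi e => hn (e ▸ hf.mem i hi), rfl, rfl, fun i h1 h2 => ?_⟩
    obtain ⟨i, rfl⟩ : ∃ j, i = j + 1 := ⟨i - 1, by omega⟩
    exact hf.mem i (by omega)
  have := hmax _ ⟨insert y S, rfl, s0.trans (subset_insert y S), insert_subset hy sH,
    hstep S sH sP y hy hn ⟨x, hx, ha.symm⟩ key, fun z hz => by
      rcases mem_insert.mp hz with rfl | hz
      · obtain ⟨f, hf, h, _⟩ := key x hx ha.symm
        exact ⟨f, hf.mono (by omega) Subset.rfl, h⟩
      · obtain ⟨f, hf, h⟩ := sT z hz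
        exact ⟨f, hf.mono le_rfl (subset_insert y S), h⟩⟩
  rw [card_insert_of_notMem hn] at this
  omega

theorem CycSeq.emod (hd : CycSeq G H n d) (x y : ℤ) : d (x + (y - x) % n) = d y := by
  have h := (show Function.Periodic d (n : ℤ) from hd.per).int_mul ((y - x) / n)
    (x + (y - x) % n)
  have := Int.emod_add_mul_ediv (y - x) n
  rw [← h]; congr 1
  simp only [Int.cast_id]
  rw [mul_comm]; omega

/-- the closed piece grown from the cycle is monochromatic or properly coloured -/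
theorem core (hd : CycSeq G H n d) (hno : ∀ f, IsPth G H m f → c (f 0) = c (f m))
    (hm : 1 ≤ m) (hmn : m < n) {r : ℕ} (hr2 : 2 ≤ r) (hrn : r + 2 ≤ n) (hr : G.Adj (d 0) (d r)) :
    ∃ S ⊆ H, (∀ y, d y ∈ S) ∧ (∀ x ∈ S, ∀ y ∈ H, G.Adj x y → y ∈ S) ∧
      ((∀ x ∈ S, c x = c (d 0)) ∨ ∀ x ∈ S, ∀ y ∈ S, G.Adj x y → c x ≠ c y) := by
  classical
  obtain ⟨p, rfl⟩ : ∃ p, m = p + 1 := ⟨m - 1, by omega⟩
  have two := hd.two hno hm hmn hr2 hrn hr
  have par : ∀ x y : ℤ, x % 2 = y % 2 → c (d x) = c (d y) := fun x y h => by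
    have := (show Function.Periodic (fun y => c (d y)) (2 : ℤ) from two).int_mul ((x - y) / 2) y
    simp only [Int.cast_id] at this
    rw [← this]; congr 2; omega
  set S₀ := H.filter (fun v => ∃ y, d y = v) with hS
  have m0 : ∀ y, d y ∈ S₀ := fun y => mem_filter.mpr ⟨hd.mem y, y, rfl⟩
  have hd0 : CycSeq G S₀ n d := ⟨hd.per, hd.inj, hd.adj, m0⟩
  have hT : ∀ x ∈ S₀, ∃ f, IsPth G S₀ p f ∧ f 0 = x := fun x hx => by
    obtain ⟨y, rfl⟩ := (mem_filter.mp hx).2
    exact ⟨_, hd0.arc (by omega) y, by simp⟩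
  by_cases h01 : c (d 0) = c (d 1)
  · obtain ⟨S, s0, sH, sP, sC⟩ := grow (G := G) (H := H) (fun S => ∀ x ∈ S, c x = c (d 0)) p
      (fun S sH sP y hy _ ⟨x, hx, ha⟩ hk z hz => by
        rcases mem_insert.mp hz with rfl | hz
        · obtain ⟨f, hf, f0, _, fS⟩ := hk x hx ha
          rw [← f0, hno f (hf.mono le_rfl (insert_subset hy sH))]
          exact sP _ (fS _ (by omega) le_rfl)
        · exact sP z hz) S₀ (filter_subset _ _) (fun x hx => by
        obtain ⟨y, rfl⟩ := (mem_filter.mp hx).2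
        rcases Int.emod_two_eq_zero_or_one y with h | h
        · exact par _ _ (by omega)
        · rw [h01]; exact par _ _ (by omega)) hT
    exact ⟨S, sH, fun y => s0 (m0 y), sC, Or.inl sP⟩
  have par' : ∀ x y : ℤ, c (d x) = c (d y) → x % 2 = y % 2 := fun x y h => by
    by_contra hc
    rcases Int.emod_two_eq_zero_or_one x with h' | h'
    · exact h01 ((par 0 x (by omega)).trans (h.trans (par y 1 (by omega))))
    · exact h01 ((par 0 y (by omega)).trans (h.symm.trans (par x 1 (by omega))))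
  have ev : (p + 1) % 2 = 0 := by
    have := par' _ _ (hno _ (hd.arc hmn 0))
    omega
  obtain ⟨S, s0, sH, sP, sC⟩ := grow (G := G) (H := H)
    (fun S => ∀ x ∈ S, ∀ y ∈ S, G.Adj x y → c x ≠ c y) p
    (fun S sH sP y hy hn _ hk => by
      have key : ∀ x ∈ S, G.Adj y x → c y ≠ c x := fun x hx ha => by
        obtain ⟨f, hf, f0, f1, fS⟩ := hk x hx ha
        have alt : ∀ i, i ≤ p → (c (f (i + 1)) = c x ↔ i % 2 = 0) := fun i => by
          induction i with
          | zero => simp [f1]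
          | succ i ih =>
            intro hi
            have h1 := sP _ (fS (i + 1) (by omega) (by omega)) _ (fS (i + 1 + 1) (by omega) (by omega))
              (hf.adj _ (by omega))
            have h2 := ih (by omega)
            have h3 : (i + 1) % 2 = 0 ↔ ¬ i % 2 = 0 := by omega
            rw [h3, ← h2]
            revert h1
            cases c (f (i + 1)) <;> cases c (f (i + 1 + 1)) <;> cases c x <;> simp
        rw [← f0, hno f (hf.mono le_rfl (insert_subset hy sH)), Ne, alt p le_rfl]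
        omega
      intro x hx z hz ha
      rcases mem_insert.mp hx with e1 | hx' <;> rcases mem_insert.mp hz with e2 | hz'
      · exact absurd (e1.trans e2.symm) ha.ne
      · exact e1 ▸ key z hz' (e1 ▸ ha)
      · exact e2 ▸ (key x hx' (e2 ▸ ha.symm)).symm
      · exact sP x hx' z hz' ha) S₀ (filter_subset _ _) (fun x hx z hz ha e => by
      obtain ⟨x, rfl⟩ := (mem_filter.mp hx).2
      obtain ⟨z, rfl⟩ := (mem_filter.mp hz).2
      have b1 := Int.emod_nonneg (z - x) (by omega : (n : ℤ) ≠ 0)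
      have b2 := Int.emod_lt_of_pos (z - x) (by omega : (0 : ℤ) < n)
      rw [← hd.emod x z] at ha e
      obtain ⟨s, hs⟩ := Int.eq_ofNat_of_zero_le b1
      rw [hs] at ha e b2
      have e' := par' _ _ e
      have s0 : s ≠ 0 := by rintro rfl; simp at ha
      have := par' _ _ ((hd.shift x).chord1 (c := c) hno (r := s) (by omega)
        (by simpa [add_comm] using ha) (max 0 (s + (p + 1 : ℕ) - n)) (by omega) (by omega) (by omega)
        (by omega))
      omega) hT
  exact ⟨S, sH, fun y => s0 (m0 y), sC, Or.inr sP⟩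

end Vale.Agent.P048
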