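import Vale.Agent.P048.Check

namespace Vale.Agent.P048

open Finset

variable {V : Type} {G : SimpleGraph V}

noncomputable def SS (n : ℕ) (φ : ℕ → V) : Finset V := by
  classical
  exact (range n).image φ

lemma mem_SS {n : ℕ} {φ : ℕ → V} {v : V} : v ∈ SS n φ ↔ ∃ x < n, φ x = v := by
  simp [SS]

def EOK (G : SimpleGraph V) (n E : ℕ) (φ : ℕ → V) : Prop :=
  ∀ x < 32, ∀ y < 32, tb E (32 * x + y) = true → x < n ∧ y < n ∧ G.Adj (φ x) (φ y)

structure Real (G : SimpleGraph V) (c : Cfg) (φ : ℕ → V) : Prop where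
  le : c.n ≤ 32
  inj : ∀ x < c.n, ∀ y < c.n, φ x = φ y → x = y
  hE : EOK G c.n c.E φ
  hF : ∀ x < 32, ∀ y < 32, ∀ d < 8, tb c.F (8 * (32 * x + y) + d) = true →
    x < c.n ∧ y < c.n ∧ ¬ Link G (SS c.n φ) (φ x) (φ y) d

variable {c : Cfg} {φ : ℕ → V}

lemma Real.card (h : Real G c φ) : (SS c.n φ).card = c.n := by
  classical
  unfold SS
  rw [card_image_of_injOn, card_range]
  intro x hx y hy e
  exact h.inj x (by simpa using hx) y (by simpa using hy) e

lemma Real.adj (h : Real G c φ) {x y : ℕ} (hx : x < c.n) (hy : y < c.n)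
    (ha : adjB c.E x y = true) : G.Adj (φ x) (φ y) := by
  have := h.le
  simp only [adjB, Bool.or_eq_true] at ha
  rcases ha with ha | ha
  · exact (h.hE x (by omega) y (by omega) ha).2.2
  · exact (h.hE y (by omega) x (by omega) ha).2.2.symm

lemma Real.nolink (h : Real G c φ) {x y d : ℕ} (hx : x < c.n) (hy : y < c.n) (hd : d < 8)
    (ha : fB c.F x y d = true) : ¬ Link G (SS c.n φ) (φ x) (φ y) d := by
  have := h.le
  simp only [fB, Bool.or_eq_true] at ha
  rcases ha with ha | ha
  · exact (h.hF x (by omega) y (by omega) d hd ha).2.2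
  · exact fun hl => (h.hF y (by omega) x (by omega) d hd ha).2.2 hl.symm

lemma Real.nonadj (h : Real G c φ) {x y : ℕ} (hx : x < c.n) (hy : y < c.n)
    (ha : fB c.F x y 0 = true) : ¬ G.Adj (φ x) (φ y) := fun hadj =>
  h.nolink hx hy (by omega) ha ⟨[], rfl, by simp, by simp, by simpa using hadj⟩

lemma Real.nol (h : Real G c φ) {x y : ℕ} (hx : x < c.n) (hy : y < c.n) :
    ∀ D, D < 8 → nolB c.F x y D = true → NoL G (SS c.n φ) (φ x) (φ y) D := by
  intro D
  induction D with
  | zero => intro _ _ d h1 h2; omega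
  | succ D ih =>
    intro hD hb d h1 h2
    simp only [nolB, Bool.and_eq_true] at hb
    by_cases e : d = D + 1
    · exact e ▸ h.nolink hx hy hD hb.1
    · exact ih (by omega) hb.2 d h1 (by omega)

lemma nd_sound (n : ℕ) : ∀ (l : List ℕ) (m : ℕ), nd n l m = true →
    l.Nodup ∧ ∀ x ∈ l, x < n ∧ tb m x = false := by
  intro l
  induction l with
  | nil => simp
  | cons x l ih =>
    intro m h
    simp only [nd, Bool.and_eq_true, Nat.ble_eq, Bool.not_eq_true'] at h
    obtain ⟨h1, h2⟩ := ih _ h.2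
    have h3 : ∀ y ∈ l, tb m y = false ∧ x ≠ y := by
      intro y hy
      have := (h2 y hy).2
      rw [← Bool.not_eq_true, tb_sb] at this
      push Not at this
      simpa using this
    refine ⟨List.nodup_cons.mpr ⟨fun hx => (h3 x hx).2 rfl, h1⟩, ?_⟩
    intro y hy
    rcases List.mem_cons.mp hy with rfl | hy
    · exact ⟨h.1.1, h.1.2⟩
    · exact ⟨(h2 y hy).1, (h3 y hy).1⟩

lemma Real.nodup_map (h : Real G c φ) {l : List ℕ} (hl : l.Nodup) (hn : ∀ x ∈ l, x < c.n) :
    (l.map φ).Nodup :=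
  hl.map_on (fun x hx y hy e => h.inj x (hn x hx) y (hn y hy) e)

lemma Real.chain (h : Real G c φ) : ∀ (l : List ℕ) (a : ℕ), a < c.n → (∀ x ∈ l, x < c.n) →
    chainB c.E a l = true → List.IsChain G.Adj (φ a :: l.map φ) := by
  intro l
  induction l with
  | nil => simp
  | cons b l ih =>
    intro a ha hl hb
    simp only [chainB, Bool.and_eq_true] at hb
    have hbn := hl b (by simp)
    simp only [List.map_cons, List.isChain_cons_cons]
    exact ⟨h.adj ha hbn hb.1, ih b hbn (fun x hx => hl x (by simp [hx])) hb.2⟩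

lemma allAdj_sound (E x : ℕ) : ∀ l : List ℕ, allAdj E x l = true → ∀ y ∈ l, adjB E x y = true := by
  intro l
  induction l with
  | nil => simp
  | cons b l ih =>
    intro h y hy
    simp only [allAdj, Bool.and_eq_true] at h
    rcases List.mem_cons.mp hy with rfl | hy
    · exact h.1
    · exact ih h.2 y hy

lemma Real.clq (h : Real G c φ) : ∀ l : List ℕ, (∀ x ∈ l, x < c.n) → clqB c.E l = true →
    ∀ x ∈ l, ∀ y ∈ l, x ≠ y → G.Adj (φ x) (φ y) := by
  intro l
  induction l with
  | nil => simp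
  | cons b l ih =>
    intro hl hb x hx y hy hne
    simp only [clqB, Bool.and_eq_true] at hb
    have h1 := allAdj_sound _ _ _ hb.1
    have h2 : ∀ z ∈ l, G.Adj (φ b) (φ z) := fun z hz =>
      h.adj (hl b (by simp)) (hl z (by simp [hz])) (h1 z hz)
    rcases List.mem_cons.mp hx with e1 | hx' <;> rcases List.mem_cons.mp hy with e2 | hy'
    · exact absurd (e1.trans e2.symm) hne
    · exact e1 ▸ h2 y hy'
    · exact e2 ▸ (h2 x hx').symm
    · exact ih (fun z hz => hl z (by simp [hz])) hb.2 x hx' y hy' hne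

lemma blkB_sound (E : ℕ) : ∀ (bs : List (List ℕ × ℕ)) (b0 : List ℕ × ℕ), blkB E b0.2 bs = true →
    ∀ m < bs.length, chainB E ((b0 :: bs).getD m ([], 0)).2
      (((b0 :: bs).getD (m + 1) ([], 0)).1 ++ [((b0 :: bs).getD (m + 1) ([], 0)).2]) = true := by
  intro bs
  induction bs with
  | nil => simp
  | cons b bs ih =>
    intro b0 h m hm
    simp only [blkB, Bool.and_eq_true] at h
    cases m with
    | zero => simpa using h.1
    | succ m => simpa using ih b h.2 m (by simpa using hm)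

lemma LL_getD (l : List ℕ) : LL (fun m => l.getD m 0) l.length = l.sum := by
  induction l with
  | nil => simp [LL]
  | cons a l ih =>
    unfold LL at ih ⊢
    rw [List.length_cons, sum_range_succ']
    simp only [List.getD_cons_succ, List.getD_cons_zero, ih, List.sum_cons]
    omega

lemma ee_getD (l : List ℕ) : ee (fun m => l.getD m 0) l.length = eeL l := by
  induction l with
  | nil => simp [ee, eeL]
  | cons a l ih =>
    unfold ee at ih ⊢
    rw [List.length_cons, sum_range_succ']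
    simp only [List.getD_cons_succ, List.getD_cons_zero, ih, eeL]
    omega

lemma ff_getD (l : List ℕ) : ff (fun m => l.getD m 0) l.length = ffL l := by
  induction l with
  | nil => simp [ff, ffL]
  | cons a l ih =>
    unfold ff at ih ⊢
    rw [List.length_cons, sum_range_succ']
    simp only [List.getD_cons_succ, List.getD_cons_zero, ih, ffL]
    omega

lemma Real.sys (h : Real G c φ) (B : List (List ℕ × ℕ)) (h0 : (B.getD 0 ([], 0)).1 = [])
    (hn : (B.flatMap (fun b => b.1 ++ [b.2])).Nodup)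
    (hlt : ∀ x ∈ B.flatMap (fun b => b.1 ++ [b.2]), x < c.n)
    (hq : clqB c.E (B.map (fun b => b.2)) = true)
    (hc : ∀ m, m + 1 < B.length → chainB c.E (B.getD m ([], 0)).2
      ((B.getD (m + 1) ([], 0)).1 ++ [(B.getD (m + 1) ([], 0)).2]) = true) :
    ∃ τ : Sys G B.length, τ.len = fun m => (B.map (fun b => b.1.length)).getD m 0 := by
  rw [List.nodup_flatMap] at hn
  obtain ⟨n1, n2⟩ := hn
  have hm : ∀ m < B.length, B.getD m ([], 0) ∈ B := fun m hm => by
    rw [List.getD_eq_getElem _ _ hm]; exact List.getElem_mem _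
  have hd : ∀ m, B.length ≤ m → B.getD m ([], 0) = ([], 0) := fun m hm =>
    List.getD_eq_default _ _ hm
  have hl : ∀ m < B.length, ∀ x ∈ (B.getD m ([], 0)).1 ++ [(B.getD m ([], 0)).2], x < c.n :=
    fun m hm' x hx => hlt x (List.mem_flatMap.mpr ⟨_, hm m hm', hx⟩)
  have hdis : ∀ i < B.length, ∀ j < B.length, i ≠ j →
      ∀ x ∈ (B.getD i ([], 0)).1 ++ [(B.getD i ([], 0)).2],
        x ∉ (B.getD j ([], 0)).1 ++ [(B.getD j ([], 0)).2] := by
    rw [List.pairwise_iff_getElem] at n2
    intro i hi j hj hij x hx hx'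
    rw [List.getD_eq_getElem _ _ hi] at hx
    rw [List.getD_eq_getElem _ _ hj] at hx'
    rcases Nat.lt_or_gt_of_ne hij with hlt | hlt
    · exact n2 i j hi hj hlt hx hx'
    · exact n2 j i hj hi hlt hx' hx
  have hr : ∀ m, ∀ x ∈ (B.getD m ([], 0)).1, m < B.length := fun m x hx => by
    by_contra hc
    rw [hd m (by omega)] at hx
    simp at hx
  refine ⟨{ q := fun m => φ (B.getD m ([], 0)).2
            r := fun m => (B.getD m ([], 0)).1.map φ
            r0 := by rw [h0]; rfl
            rt := fun m hm => by rw [hd m hm]; rfl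
            adjq := ?_, notq := ?_, nodup := ?_, disj := ?_, chain := ?_ }, ?_⟩
  · intro i hi j hj hij
    refine h.clq _ (fun x hx => ?_) hq _ (List.mem_map_of_mem (hm i hi)) _
      (List.mem_map_of_mem (hm j hj)) 
      (fun e => hdis i hi j hj hij (B.getD i ([], 0)).2 (by simp) (by rw [e]; simp))
    obtain ⟨b, hb, rfl⟩ := List.mem_map.mp hx
    exact hlt _ (List.mem_flatMap.mpr ⟨b, hb, by simp⟩)
  · intro i hi j hmem
    obtain ⟨x, hx, e⟩ := List.mem_map.mp hmem
    have hj := hr j x hx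
    have e' := h.inj _ (hl j hj x (List.mem_append_left _ hx)) _ (hl i hi _ (by simp)) e
    by_cases hij : i = j
    · subst hij
      have := n1 _ (hm i hi)
      rw [List.nodup_append] at this
      exact this.2.2 x hx _ (by simp) e'
    · exact hdis i hi j hj hij x (by simp [e']) (List.mem_append_left _ hx)
  · intro m
    by_cases hm' : m < B.length
    · exact h.nodup_map (n1 _ (hm m hm')).of_append_left (fun x hx => hl m hm' x (List.mem_append_left _ hx))
    · rw [hd m (by omega)]; simp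
  · intro i j hij v hv hw
    obtain ⟨x, hx, e⟩ := List.mem_map.mp hv
    obtain ⟨y, hy, e'⟩ := List.mem_map.mp hw
    have hi := hr i x hx
    have hj := hr j y hy
    have := h.inj _ (hl i hi x (List.mem_append_left _ hx)) _ (hl j hj y (List.mem_append_left _ hy)) (e.trans e'.symm)
    subst this
    exact hdis i hi j hj hij x (List.mem_append_left _ hx) (List.mem_append_left _ hy)
  · intro m hm'
    have := h.chain _ _ (hl m (by omega) _ (by simp)) (hl (m + 1) hm') (hc m hm')
    simpa using this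
  · funext m
    simp only [Sys.len, List.length_map]
    by_cases hm' : m < B.length
    · rw [List.getD_eq_getElem _ _ hm', List.getD_eq_getElem _ _ (by simpa using hm')]
      simp
    · rw [hd m (by omega), List.getD_eq_default _ _ (by simpa using hm')]
      rfl

def HI (G : SimpleGraph V) (p : Par) : Prop :=
  ∀ τ : Sys G p.t, ¬ Imp p.k p.t p.L p.e p.f (LL τ.len p.t) (ee τ.len p.t) (ff τ.len p.t)

lemma Real.sysB {p : Par} (h : Real G c φ) (hi : HI G p) {q0 : ℕ} {bs : List (List ℕ × ℕ)}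
    (hb : sysB p c q0 bs = true) : False := by
  simp only [P048.sysB, Bool.and_eq_true, Nat.beq_eq] at hb
  obtain ⟨⟨⟨⟨b1, b2⟩, b3⟩, b4⟩, b5⟩ := hb
  obtain ⟨n1, n2⟩ := nd_sound _ _ _ b2
  have := h.sys (([], q0) :: bs) rfl (by simpa using n1)
    (fun x hx => (n2 x (by simpa using hx)).1) (by simpa using b3)
    (fun m hm => blkB_sound c.E bs ([], q0) b4 m (by simpa using hm))
  have e : (([], q0) :: bs).length = p.t := by simpa using b1
  have e' : ((([], q0) :: bs).map (fun b : List ℕ × ℕ => b.1.length)).length = p.t := by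
    simpa using b1
  have l1 := LL_getD ((([], q0) :: bs).map (fun b : List ℕ × ℕ => b.1.length))
  have l2 := ee_getD ((([], q0) :: bs).map (fun b : List ℕ × ℕ => b.1.length))
  have l3 := ff_getD ((([], q0) :: bs).map (fun b : List ℕ × ℕ => b.1.length))
  rw [e'] at l1 l2 l3
  rw [e] at this
  obtain ⟨τ, hτ⟩ := this
  apply hi τ
  rw [hτ, l1, l2, l3]
  exact impB_sound b5

lemma Real.leaf [Fintype V] {p : Par} (cx : Ctx G p.k p.t) (h : Real G c φ) (hi : HI G p)
    {code : ℕ} (hb : leafB p c code = true) : False := by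
  classical
  unfold leafB at hb
  split at hb
  · exact h.sysB hi hb
  · rename_i a l _
    simp only [Bool.and_eq_true, Nat.beq_eq] at hb
    obtain ⟨⟨b1, b2⟩, b3⟩ := hb
    obtain ⟨n1, n2⟩ := nd_sound _ _ _ b2
    refine cx.nocyc ⟨φ a, l.map φ, h.nodup_map n1 (fun x hx => (n2 x hx).1), by simp [b1], ?_⟩
    have := h.chain (l ++ [a]) a (n2 a (by simp)).1
      (fun x hx => (n2 x (by simp at hx ⊢; tauto)).1) b3
    simpa using this
  · rename_i l _
    simp only [Bool.and_eq_true, Nat.beq_eq] at hb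
    obtain ⟨⟨b1, b2⟩, b3⟩ := hb
    obtain ⟨n1, n2⟩ := nd_sound _ _ _ b2
    have hn := h.nodup_map n1 (fun x hx => (n2 x hx).1)
    have := cx.clq (l.map φ).toFinset (by
      intro u hu v hv huv
      simp only [List.coe_toFinset, List.mem_map, Set.mem_ofPred_eq] at hu hv
      obtain ⟨x, hx, rfl⟩ := hu
      obtain ⟨y, hy, rfl⟩ := hv
      exact h.clq l (fun x hx => (n2 x hx).1) b3 x hx y hy (fun e => huv (by rw [e])))
    rw [List.toFinset_card_of_nodup hn, List.length_map] at this
    omega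
  · simp at hb

lemma EOK.sb {n E x y : ℕ} (h : EOK G n E φ) (hn : n ≤ 32) (hx : x < n) (hy : y < n)
    (ha : G.Adj (φ x) (φ y)) : EOK G n (sb E (32 * x + y)) φ := by
  intro a h1 b h2 hb
  rcases (tb_sb _ _ _).mp hb with hb | hb
  · exact h a h1 b h2 hb
  · have e1 : a = x := by omega
    have e2 : b = y := by omega
    subst e1 e2
    exact ⟨hx, hy, ha⟩

lemma EOK.addPath {n : ℕ} (hn : n ≤ 32) : ∀ (l : List ℕ) (E a : ℕ), EOK G n E φ → a < n →
    (∀ x ∈ l, x < n) → List.IsChain G.Adj (φ a :: l.map φ) → EOK G n (addPath E a l) φ := by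
  intro l
  induction l with
  | nil => intro E a h _ _ _; exact h
  | cons b l ih =>
    intro E a h ha hl hc
    simp only [List.map_cons, List.isChain_cons_cons] at hc
    have hb := hl b (by simp)
    exact ih _ b (h.sb hn ha hb hc.1) hb (fun x hx => hl x (by simp [hx])) hc.2

lemma Real.ext (h : Real G c φ) (p : List V) (hp : p.Nodup) (hout : ∀ v ∈ p, v ∉ SS c.n φ)
    (hn : c.n + p.length ≤ 32) :
    ∃ φ' : ℕ → V, Real G ⟨c.n + p.length, c.E, c.F⟩ φ' ∧ (∀ x < c.n, φ' x = φ x) ∧
      (List.range' c.n p.length).map φ' = p := by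
  let φ' : ℕ → V := fun x => if x < c.n then φ x else p.getD (x - c.n) (φ 0)
  have e1 : ∀ x < c.n, φ' x = φ x := fun x hx => if_pos hx
  have e2 : ∀ i (hi : i < p.length), φ' (c.n + i) = p[i] := fun i hi => by
    simp only [φ']
    rw [if_neg (by omega), Nat.add_sub_cancel_left, List.getD_eq_getElem _ _ hi]
  have hsub : SS c.n φ ⊆ SS (c.n + p.length) φ' := by
    intro v hv
    obtain ⟨x, hx, rfl⟩ := mem_SS.mp hv
    exact mem_SS.mpr ⟨x, by omega, e1 x hx⟩
  refine ⟨φ', ⟨hn, ?_, ?_, ?_⟩, e1, ?_⟩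
  · intro x hx y hy e
    simp only at hx hy
    by_cases h1 : x < c.n <;> by_cases h2 : y < c.n
    · exact h.inj x h1 y h2 (by rwa [e1 x h1, e1 y h2] at e)
    · obtain ⟨i, rfl⟩ : ∃ i, y = c.n + i := ⟨y - c.n, by omega⟩
      rw [e1 x h1, e2 i (by omega)] at e
      exact absurd (mem_SS.mpr ⟨x, h1, e⟩) (hout _ (List.getElem_mem _))
    · obtain ⟨i, rfl⟩ : ∃ i, x = c.n + i := ⟨x - c.n, by omega⟩
      rw [e1 y h2, e2 i (by omega)] at e
      exact absurd (mem_SS.mpr ⟨y, h2, e.symm⟩) (hout _ (List.getElem_mem _))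
    · obtain ⟨i, rfl⟩ : ∃ i, x = c.n + i := ⟨x - c.n, by omega⟩
      obtain ⟨j, rfl⟩ : ∃ i, y = c.n + i := ⟨y - c.n, by omega⟩
      rw [e2 i (by omega), e2 j (by omega)] at e
      rw [(List.Nodup.getElem_inj_iff hp).mp e]
  · intro x hx y hy hb
    obtain ⟨a1, a2, a3⟩ := h.hE x hx y hy hb
    exact ⟨by simp only; omega, by simp only; omega, by rwa [e1 x a1, e1 y a2]⟩
  · intro x hx y hy d hd hb
    obtain ⟨a1, a2, a3⟩ := h.hF x hx y hy d hd hb
    refine ⟨by simp only; omega, by simp only; omega, fun hl => a3 ?_⟩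
    rw [e1 x a1, e1 y a2] at hl
    exact hl.mono hsub
  · apply List.ext_getElem
    · simp
    · intro i h1 h2
      simp [e2 i h2]

lemma Real.addLink (h : Real G c φ) {x y d : ℕ} (ho : okL c x y d = true)
    (hl : Link G (SS c.n φ) (φ x) (φ y) d) : ∃ φ', Real G (addLink c x y d) φ' := by
  simp only [okL, Bool.and_eq_true, Nat.ble_eq] at ho
  obtain ⟨⟨⟨o1, o2⟩, _⟩, o4⟩ := ho
  obtain ⟨p, rfl, h2, h3, h4⟩ := hl
  obtain ⟨φ', r, e1, e2⟩ := h.ext p h2 h3 o4
  refine ⟨φ', o4, r.inj, ?_, r.hF⟩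
  refine EOK.addPath o4 _ _ _ r.hE (by omega) (fun z hz => ?_) ?_
  · simp only [List.mem_append, List.mem_range'_1, List.mem_singleton] at hz
    omega
  · rw [List.map_append, e2, List.map_singleton, e1 x o1, e1 y o2]
    exact h4

lemma Real.addF (h : Real G c φ) {x y d : ℕ} (ho : okL c x y d = true)
    (hl : ¬ Link G (SS c.n φ) (φ x) (φ y) d) : Real G (addF c x y d) φ := by
  simp only [okL, Bool.and_eq_true, Nat.ble_eq] at ho
  obtain ⟨⟨⟨o1, o2⟩, o3⟩, o4⟩ := ho
  refine ⟨h.le, h.inj, h.hE, fun a h1 b h2 e h3 hb => ?_⟩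
  rcases (tb_sb _ _ _).mp hb with hb | hb
  · exact h.hF a h1 b h2 e h3 hb
  · have e1 : a = x := by omega
    have e2 : b = y := by omega
    have e3 : e = d := by omega
    subst e1 e2 e3
    exact ⟨o1, o2, hl⟩

end Vale.Agent.P048
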