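import Vale.Agent.P048.Sound1

namespace Vale.Agent.P048

open Finset

variable {V : Type} {G : SimpleGraph V} {c : Cfg} {φ : ℕ → V}

noncomputable def img (φ : ℕ → V) (l : List ℕ) : Finset V := by
  classical
  exact (l.map φ).toFinset

lemma card_img (φ : ℕ → V) (l : List ℕ) : (img φ l).card ≤ l.length := by
  classical
  exact (List.toFinset_card_le _).trans (by simp)

lemma mem_img {l : List ℕ} {x : ℕ} (h : x ∈ l) : φ x ∈ img φ l := by
  classical
  simp only [img, List.mem_toFinset]
  exact List.mem_map_of_mem h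

lemma Real.poss (h : Real G c φ) {x : ℕ} (hx : x < c.n) :
    φ x ∈ img φ (possL c x) ∧ ∀ y ∈ SS c.n φ, G.Adj (φ x) y → y ∈ img φ (possL c x) := by
  refine ⟨mem_img (by simp [possL, hx]), fun y hy ha => ?_⟩
  obtain ⟨z, hz, rfl⟩ := mem_SS.mp hy
  refine mem_img ?_
  simp only [possL, List.mem_filter, List.mem_range, Bool.or_eq_true, Nat.beq_eq,
    Bool.not_eq_true']
  refine ⟨hz, Or.inr ?_⟩
  by_contra hb
  exact h.nonadj hx hz (by simpa using hb) ha

lemma Real.near (h : Real G c φ) {x z r : ℕ} (hx : x < c.n) (hz : z < c.n) (hr : r < 8) :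
    z ∈ nearL c x r ∨ NoL G (SS c.n φ) (φ x) (φ z) r := by
  by_cases hb : nolB c.F x z r = true
  · exact Or.inr (h.nol hx hz r hr hb)
  · left
    simp only [nearL, List.mem_filter, List.mem_range, Bool.or_eq_true, Nat.beq_eq,
      Bool.not_eq_true']
    exact ⟨hz, Or.inr (by simpa using hb)⟩

variable [Fintype V] {p : Par}

lemma Real.out (cx : Ctx G p.k p.t) (h : Real G c φ) {x : ℕ} (hx : x < c.n)
    (hp : (possL c x).length ≤ p.k) : ∃ u, InB G (SS c.n φ) (φ x) 1 u :=
  cx.w1a (mem_SS.mpr ⟨x, hx, rfl⟩) _ (h.poss hx).1 (h.poss hx).2 ((card_img _ _).trans hp)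

lemma Real.w2 (cx : Ctx G p.k p.t) (h : Real G c φ) {x r code : ℕ} (hx : x < c.n)
    (hb : w2B p c x r code = true) : HasW G (SS c.n φ) (φ x) r 2 := by
  classical
  simp only [w2B, Bool.or_eq_true, Bool.and_eq_true, Nat.ble_eq] at hb
  rcases hb with ⟨b1, b2⟩ | ⟨⟨b1, b2⟩, b3⟩
  · have := card_img φ (possL c x)
    exact (cx.w1b (mem_SS.mpr ⟨x, hx, rfl⟩) _ (h.poss hx).1 (h.poss hx).2 (by omega)).mono
      le_rfl b1
  · obtain ⟨u, hu⟩ := h.out cx hx b2
    simp only [omB, List.all_eq_true, Bool.and_eq_true, Nat.ble_eq, Bool.or_eq_true,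
      Bool.not_eq_true'] at b3
    let T' := (range c.n).filter (fun y => G.Adj u (φ y))
    have hT : ∀ y ∈ T', y < c.n ∧ G.Adj u (φ y) ∧ y ∈ nearL c x 1 := by
      intro y hy
      obtain ⟨y1, y2⟩ := mem_filter.mp hy
      rw [mem_range] at y1
      exact ⟨y1, y2, (h.near hx y1 (by omega)).resolve_right (hu.link y2)⟩
    have hxn : x ∈ nearL c x 1 := by simp [nearL, hx]
    have hx1 := (b3 x hxn).1
    have key : ∀ y ∈ T', ∀ z ∈ T', y < z → cls code y ≠ cls code z := by
      intro y hy z hz hlt e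
      obtain ⟨y1, y2, y3⟩ := hT y hy
      obtain ⟨z1, z2, z3⟩ := hT z hz
      rcases (b3 y y3).2 z z3 with (b | b) | b
      · omega
      · rw [e] at b
        simp at b
      · exact h.nolink y1 z1 (by omega) b ⟨[u], rfl, by simp, by simpa using hu.not_mem,
          by simp [y2.symm, z2]⟩
    have hc : T'.card ≤ (range (p.k - p.t)).card := by
      refine card_le_card_of_injOn (cls code) (fun y hy => ?_) (fun y hy z hz e => ?_)
      · have := (b3 y (hT y hy).2.2).1
        simp only [coe_range, Set.mem_Iio]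
        omega
      · rcases lt_trichotomy y z with hl | hl | hl
        · exact absurd e (key y hy z hz hl)
        · exact hl
        · exact absurd e.symm (key z hz y hy hl)
    rw [card_range] at hc
    have hc' : (T'.image φ).card ≤ T'.card := card_image_le
    refine (cx.w2a hu (T'.image φ) (fun y hy ha => ?_) (by omega)).mono (by omega) b1
    obtain ⟨z, hz, rfl⟩ := mem_SS.mp hy
    exact mem_image_of_mem _ (mem_filter.mpr ⟨mem_range.mpr hz, ha⟩)

lemma Real.lab (cx : Ctx G p.k p.t) (h : Real G c φ) {x r w code : ℕ} (hr : r < 4)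
    (hb : labB p c x r w code = true) : x < c.n ∧ HasW G (SS c.n φ) (φ x) r w := by
  simp only [labB, Bool.or_eq_true, Bool.and_eq_true, Nat.ble_eq, Nat.beq_eq] at hb
  obtain ⟨hx, hb⟩ := hb
  refine ⟨hx, ?_⟩
  rcases hb with ((⟨rfl, rfl⟩ | ⟨⟨b1, rfl⟩, b2⟩) | ⟨rfl, b⟩) | ⟨⟨⟨rfl, b1⟩, b2⟩, b3⟩
  · exact hasW_zero _
  · obtain ⟨u, hu⟩ := h.out cx hx b2
    exact hasW_one (hu.mono b1)
  · exact h.w2 cx hx b
  · have := card_img φ (nearL c x (r - 1))
    have hw := cx.wup (by omega) (h.w2 cx hx b2) (img φ (nearL c x (r - 1))) (fun y hy => by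
      obtain ⟨z, hz, rfl⟩ := mem_SS.mp hy
      exact (h.near hx hz (by omega)).imp mem_img id) (by omega)
    rwa [Nat.sub_add_cancel (by omega)] at hw

omit [Fintype V] in
lemma Real.cmp (h : Real G c φ) {a b : ℕ} (ha : lx a < c.n) (hb : lx b < c.n)
    (hc : cmpB c a b = true) :
    Compat G (SS c.n φ) (φ (lx a)) (lr a) (φ (lx b)) (lr b) := by
  simp only [cmpB, Bool.and_eq_true, Bool.not_eq_true', Bool.or_eq_true, Nat.ble_eq] at hc
  obtain ⟨⟨c1, c2⟩, c3⟩ := hc
  refine ⟨fun e => ?_, fun e => h.nonadj ha hb (c2.resolve_left (by omega)),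
    h.nol ha hb _ (by unfold lr; omega) c3⟩
  rw [h.inj _ ha _ hb e] at c1
  simp at c1

omit [Fintype V] in
lemma Compat.symm {S : Finset V} {x y : V} {r s : ℕ} (h : Compat G S x r y s) :
    Compat G S y s x r :=
  ⟨h.1.symm, fun e ha => h.2.1 (by omega) ha.symm, (h.2.2.symm).mono (by omega)⟩

lemma pwB_sound (c : Cfg) : ∀ l : List ℕ, pwB c l = true →
    l.Pairwise (fun a b => cmpB c a b = true) := by
  intro l
  induction l with
  | nil => simp
  | cons a l ih =>
    intro h
    simp only [pwB, Bool.and_eq_true, List.all_eq_true] at h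
    exact List.pairwise_cons.mpr ⟨h.1, ih h.2⟩

lemma Real.pack (cx : Ctx G p.k p.t) (h : Real G c φ) {l : List ℕ} (hb : packB p c l = true) :
    False := by
  simp only [packB, Bool.and_eq_true, List.all_eq_true, Nat.ble_eq] at hb
  obtain ⟨⟨b1, b2⟩, b3⟩ := hb
  have hp := pwB_sound c l b2
  have hl : ∀ a ∈ l, lx a < c.n ∧ HasW G (SS c.n φ) (φ (lx a)) (lr a) (lw a) :=
    fun a ha => h.lab cx (by unfold lr; omega) (b1 a ha)
  have hn : l.Nodup := hp.imp (fun {a b} hab e => by subst e; simp [cmpB] at hab)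
  have hp' : l.Pairwise (fun a b => Compat G (SS c.n φ) (φ (lx a)) (lr a) (φ (lx b)) (lr b)) :=
    List.Pairwise.imp_of_mem (fun {a b} ha hb hab => h.cmp (hl a ha).1 (hl b hb).1 hab) hp
  refine cx.pack (S := SS c.n φ) (fun a => φ (lx a)) lr lw l.toFinset
    (fun a ha => mem_SS.mpr ⟨_, (hl a (List.mem_toFinset.mp ha)).1, rfl⟩)
    (fun a ha => (hl a (List.mem_toFinset.mp ha)).2) (fun a ha b hb hab => ?_) ?_
  · exact @List.Pairwise.forall _ _ _ ⟨fun _ _ h => h.symm⟩ hp' _ (List.mem_toFinset.mp ha) _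
      (List.mem_toFinset.mp hb) hab
  · rwa [List.sum_toFinset _ hn]

lemma facts_sound (cx : Ctx G p.k p.t) (hi : HI G p) : ∀ (l : List ℕ) (c c' : Cfg),
    Real G c φ → factsB p l c = some c' → Real G c' φ := by
  intro l
  induction l with
  | nil => intro c c' h e; simp only [factsB, Option.some.injEq] at e; exact e ▸ h
  | cons a l ih =>
    intro c c' h e
    simp only [factsB] at e
    cases hb : (okL c (a % 32) (a / 32 % 32) (a / 1024 % 8) &&
      leafB p (addLink c (a % 32) (a / 32 % 32) (a / 1024 % 8)) (a / 8192))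
    · rw [hb] at e
      simp at e
    · rw [hb] at e
      rw [Bool.and_eq_true] at hb
      refine ih _ c' (h.addF hb.1 (fun hl => ?_)) e
      obtain ⟨φ', h'⟩ := h.addLink hb.1 hl
      exact h'.leaf cx hi hb.2

theorem check_sound (cx : Ctx G p.k p.t) (hi : HI G p) : ∀ (ce : Cert) (c : Cfg) (φ : ℕ → V),
    Real G c φ → check p ce c = true → False := by
  intro ce
  induction ce with
  | leaf code => intro c φ h hb; exact h.leaf cx hi hb
  | facts l rest ih =>
    intro c φ h hb
    simp only [check] at hb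
    split at hb
    · rename_i c' e
      exact ih c' φ (facts_sound cx hi l c c' h e) hb
    · simp at hb
  | link x y d yes no ih1 ih2 =>
    intro c φ h hb
    simp only [check, Bool.and_eq_true] at hb
    by_cases hl : Link G (SS c.n φ) (φ x) (φ y) d
    · obtain ⟨φ', h'⟩ := h.addLink hb.1.1 hl
      exact ih1 _ φ' h' hb.1.2
    · exact ih2 _ φ (h.addF hb.1.1 hl) hb.2
  | nbr x rest ih =>
    intro c φ h hb
    simp only [check, Bool.and_eq_true, Nat.ble_eq, okL] at hb
    obtain ⟨⟨⟨⟨⟨o1, _⟩, _⟩, o4⟩, b2⟩, b3⟩ := hb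
    obtain ⟨u, hu⟩ := h.out cx o1 b2
    obtain ⟨u1, u2⟩ := inB_one.mp hu
    obtain ⟨φ', r, e1, e2⟩ := h.ext [u] (by simp) (by simpa using u2) o4
    refine ih ⟨c.n + 1, addPath c.E x [c.n], c.F⟩ φ' ⟨o4, r.inj, ?_, r.hF⟩ b3
    refine EOK.addPath o4 [c.n] c.E x r.hE (by omega) (by simp) ?_
    have : φ' c.n = u := by simpa using e2
    simp [this, e1 x o1, u1]
  | count x =>
    intro c φ h hb
    simp only [check, Bool.and_eq_true, Nat.ble_eq] at hb
    obtain ⟨B, b1, b2⟩ := cx.out1 (mem_SS.mpr ⟨x, hb.1, rfl⟩) _ (h.poss hb.1).1 (h.poss hb.1).2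
    have := card_img φ (possL c x)
    have h1 := cx.card
    classical
    have h2 : (SS c.n φ ∪ B).card ≤ Fintype.card V := card_le_univ _
    rw [card_union_of_disjoint (disjoint_left.mpr (fun v hv hB => (b2 v hB).not_mem hv)),
      h.card] at h2
    omega
  | pack l => intro c φ h hb; exact h.pack cx hb

omit [Fintype V] in
lemma EOK.addAll {n x : ℕ} (hn : n ≤ 32) (hx : x < n) : ∀ (l : List ℕ) (E : ℕ), EOK G n E φ →
    (∀ y ∈ l, y < n ∧ G.Adj (φ x) (φ y)) → EOK G n (addAll E x l) φ := by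
  intro l
  induction l with
  | nil => intro E h _; exact h
  | cons y l ih =>
    intro E h hl
    exact ih _ (h.sb hn hx (hl y (by simp)).1 (hl y (by simp)).2)
      (fun z hz => hl z (by simp [hz]))

omit [Fintype V] in
lemma EOK.addClq {n : ℕ} (hn : n ≤ 32) : ∀ (l : List ℕ) (E : ℕ), EOK G n E φ →
    (∀ y ∈ l, y < n) → l.Pairwise (fun x y => G.Adj (φ x) (φ y)) → EOK G n (addClq E l) φ := by
  intro l
  induction l with
  | nil => intro E h _ _; exact h
  | cons x l ih =>
    intro E h hl hp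
    rw [List.pairwise_cons] at hp
    exact ih _ (EOK.addAll hn (hl x (by simp)) l E h
      (fun y hy => ⟨hl y (by simp [hy]), hp.1 y hy⟩)) (fun y hy => hl y (by simp [hy])) hp.2

omit [Fintype V] in
lemma flags_rel {t : ℕ} (σ : Sys G t) (n : ℕ) (hn : n ≤ t) :
    List.Forall₂ (fun v b => b = true → ∃ m < t, v = σ.q m) (σ.W n)
      (flags ((List.range n).map σ.len)) := by
  induction n with
  | zero => simp [Sys.W, flags]
  | succ n ih =>
    rw [Sys.W_succ, List.range_succ, List.map_append]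
    unfold flags at ih ⊢
    rw [List.flatMap_append]
    refine List.rel_append (ih (by omega)) ?_
    simp only [List.map_cons, List.map_nil, List.flatMap_cons, List.flatMap_nil, List.append_nil]
    refine List.rel_append ?_ (by simpa using ⟨n, by omega, rfl⟩)
    unfold Sys.len
    induction σ.r n with
    | nil => simp
    | cons a l ih' => simpa [List.replicate_succ] using ih'

lemma len_eq_getD {t : ℕ} (l : ℕ → ℕ) (h : ∀ m, t ≤ m → l m = 0) :
    (fun m => ((List.range t).map l).getD m 0) = l := by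
  funext m
  by_cases hm : m < t
  · rw [List.getD_eq_getElem _ _ (by simpa using hm)]
    simp
  · rw [List.getD_eq_default _ _ (by simpa using hm), h m (by omega)]

theorem shape_sound {k t : ℕ} (cx : Ctx G k t) (ht : 1 ≤ t) {σ : Sys G t} (ho : Opt k σ)
    (ce : Cert) (hb : checkShape k ((List.range t).map σ.len) ce = true) : False := by
  have e0 := len_eq_getD σ.len σ.lent
  have l1 := LL_getD ((List.range t).map σ.len)
  have l2 := ee_getD ((List.range t).map σ.len)
  have l3 := ff_getD ((List.range t).map σ.len)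
  have e1 : ((List.range t).map σ.len).length = t := by simp
  rw [e0, e1] at l1 l2 l3
  simp only [checkShape, initCfg, Bool.and_eq_true, Nat.ble_eq, e1, ← l1, ← l2, ← l3] at hb
  have hW := σ.length_W t
  have hnd := σ.nodup_W t le_rfl
  let φ : ℕ → V := fun x => (σ.W t).getD x (σ.q 0)
  have hφ : ∀ x (hx : x < (σ.W t).length), φ x = (σ.W t)[x] := fun x hx =>
    List.getD_eq_getElem _ _ hx
  have hinj : ∀ x < t + LL σ.len t, ∀ y < t + LL σ.len t, φ x = φ y → x = y := by
    intro x hx y hy e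
    rw [hφ x (by omega), hφ y (by omega)] at e
    exact (List.Nodup.getElem_inj_iff hnd).mp e
  refine check_sound (p := ⟨k, t, _, _, _⟩) cx (fun τ => ?_) ce _ φ ⟨hb.1, hinj, ?_, ?_⟩ hb.2
  · exact ho.not_imp (by have := cx.hk; omega) cx.nocyc τ _ _ _ rfl le_rfl le_rfl
  · refine EOK.addClq hb.1 _ _ (EOK.addPath hb.1 _ _ _ ?_ (by omega) ?_ ?_) ?_ ?_
    · intro x _ y _ h
      simp [tb_eq] at h
    · intro x hx
      simp only [List.mem_range'_1] at hx ⊢
      omega
    · have e : φ 0 :: (List.range' 1 (t + LL σ.len t - 1)).map φ = σ.W t := by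
        apply List.ext_getElem
        · simp; omega
        · intro i h1 h2
          rw [← hφ i h2]
          cases i with
          | zero => simp
          | succ i => simp [add_comm]
      rw [e]
      obtain ⟨n, rfl⟩ : ∃ n, t = n + 1 := ⟨t - 1, by omega⟩
      exact (σ.W_shape n le_rfl).1
    · intro y hy
      simpa using (List.mem_filter.mp hy).1
    · refine List.Pairwise.imp_of_mem (fun {x y} hx hy hxy => ?_)
        (List.nodup_range.filter _)
      obtain ⟨x1, x2⟩ := List.mem_filter.mp hx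
      obtain ⟨y1, y2⟩ := List.mem_filter.mp hy
      rw [List.mem_range] at x1 y1
      have hr := flags_rel σ t le_rfl
      have hl := hr.length_eq
      have key : ∀ z < t + LL σ.len t, (flags ((List.range t).map σ.len)).getD z false = true →
          ∃ m < t, φ z = σ.q m := by
        intro z hz hf
        rw [List.getD_eq_getElem _ _ (by omega)] at hf
        rw [hφ z (by omega)]
        exact hr.get (by omega) (by omega) hf
      obtain ⟨a, a1, a2⟩ := key x x1 x2
      obtain ⟨b, b1, b2⟩ := key y y1 y2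
      rw [a2, b2]
      exact σ.adjq a a1 b b1 (fun e => hxy (hinj x x1 y y1 (by rw [a2, b2, e])))
  · intro x _ y _ d _ h
    simp [tb_eq] at h

end Vale.Agent.P048
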