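import Vale.Agent.P048.Ball

namespace Vale.Agent.P048

open Finset

variable {V : Type} {G : SimpleGraph V} {k t : ℕ}

namespace Sys

def setRun (σ : Sys G t) (i : ℕ) (hi : i + 1 < t) (u : List V)
    (hu1 : u.Nodup) (hu2 : ∀ a < t, σ.q a ∉ u)
    (hu3 : ∀ m, m ≠ i + 1 → ∀ v ∈ u, v ∉ σ.r m)
    (hu4 : List.IsChain G.Adj (σ.q i :: (u ++ [σ.q (i + 1)]))) : Sys G t where
  q := σ.q
  r m := if m = i + 1 then u else σ.r m
  r0 := by simp [σ.r0]
  rt m hm := by rw [if_neg (by omega)]; exact σ.rt m hm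
  adjq := σ.adjq
  notq a ha b := by
    split_ifs
    · exact hu2 a ha
    · exact σ.notq a ha b
  nodup m := by
    split_ifs
    · exact hu1
    · exact σ.nodup m
  disj a b hab v hv hw := by
    split_ifs at hv hw
    · omega
    · exact hu3 b (by omega) v hv hw
    · exact hu3 a (by omega) v hw hv
    · exact σ.disj a b hab v hv hw
  chain m hm := by
    split_ifs with h
    · have : m = i := by omega
      subst this
      exact hu4
    · exact σ.chain m hm

lemma insert_cyc (σ : Sys G t) (hk : 2 ≤ k) (hg : t + LL σ.len t = k) {i : ℕ} (hi : i + 1 < t)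
    {A : List V} {z u : V} (hz : σ.q i :: σ.r (i + 1) = A ++ [z]) (hu : u ∉ σ.S)
    (h1 : G.Adj z u) (h2 : G.Adj u (σ.q (i + 1))) : Cyc G (k + 1) := by
  let τ := σ.setRun i hi (σ.r (i + 1) ++ [u])
    (by
      rw [List.nodup_append]
      refine ⟨σ.nodup _, by simp, ?_⟩
      intro a ha b hb hab
      simp only [List.mem_singleton] at hb
      exact hu (hb ▸ hab ▸ σ.r_mem ha))
    (by
      intro a ha hm
      simp only [List.mem_append, List.mem_singleton] at hm
      rcases hm with hm | hm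
      · exact σ.notq a ha _ hm
      · exact hu (hm ▸ σ.q_mem ha))
    (by
      intro m hm v hv
      simp only [List.mem_append, List.mem_singleton] at hv
      rcases hv with hv | hv
      · exact σ.disj _ _ (Ne.symm hm) v hv
      · exact fun h => hu (hv ▸ σ.r_mem h))
    (by
      have c := σ.chain i hi
      rw [← List.cons_append, hz, List.append_assoc, List.singleton_append,
        List.isChain_split] at c
      rw [List.append_assoc, ← List.cons_append, hz, List.append_assoc]
      exact chain_glue c.1 (by simp [h1, h2]))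
  have hL : LL τ.len t = LL σ.len t + 1 := by
    have : ∀ m ∈ range t, τ.len m = σ.len m + if m = i + 1 then 1 else 0 := by
      intro m _
      simp only [τ, len, setRun]
      split_ifs with h
      · subst h; simp
      · simp
    unfold LL
    rw [sum_congr rfl this, sum_add_distrib, sum_ite_eq', if_pos (mem_range.mpr hi)]
  exact cyc_of_range (k + 1) (by omega) t τ (by omega) (by omega)

lemma wrap_cyc (σ : Sys G t) (ht : 1 ≤ t) (hg : t + LL σ.len t = k) {u : V} (hu : u ∉ σ.S)
    (h1 : G.Adj (σ.q (t - 1)) u) (h2 : G.Adj u (σ.q 0)) : Cyc G (k + 1) := by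
  have := σ.cyc_of_path ht [u] (by simp) (by simpa [← mem_S] using hu) (by simp [h1, h2])
  rw [← hg]
  simpa using this

lemma rep_cases (σ : Sys G t) (i : ℕ) :
    (σ.r i = [] ∧ σ.rep i = σ.q i) ∨ ∃ B, σ.r i = σ.rep i :: B := by
  unfold rep
  cases σ.r i with
  | nil => exact Or.inl ⟨rfl, rfl⟩
  | cons a l => exact Or.inr ⟨l, rfl⟩

lemma rep_mem (σ : Sys G t) {i : ℕ} (hi : i < t) : σ.rep i ∈ σ.S := by
  rcases σ.rep_cases i with ⟨_, h⟩ | ⟨B, h⟩
  · exact h ▸ σ.q_mem hi
  · exact σ.r_mem (m := i) (by rw [h]; simp)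

lemma rep_ne (σ : Sys G t) {i j : ℕ} (hi : i < t) (hj : j < t) (hij : i ≠ j) :
    σ.rep i ≠ σ.rep j := by
  intro e
  rcases σ.rep_cases i with ⟨_, h⟩ | ⟨B, h⟩ <;> rcases σ.rep_cases j with ⟨_, h'⟩ | ⟨B', h'⟩
  · exact hij (σ.q_inj hi hj (by rw [← h, ← h', e]))
  · exact σ.notq i hi j (by rw [← h, e, h']; simp)
  · exact σ.notq j hj i (by rw [← h', ← e, h]; simp)
  · exact σ.disj i j hij (σ.rep i) (by rw [h]; simp) (by rw [e, h']; simp)

lemma q_not_rep (σ : Sys G t) {m j : ℕ} (hm : m < t) (hj : j < t) (h : σ.len m ≠ 0) :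
    σ.q m ≠ σ.rep j := by
  intro e
  rcases σ.rep_cases j with ⟨h0, h'⟩ | ⟨B', h'⟩
  · have := σ.q_inj hm hj (by rw [e, h'])
    subst this
    simp [len, h0] at h
  · exact σ.notq m hm j (by rw [e, h']; simp)

noncomputable def T (σ : Sys G t) (J : Finset ℕ) : Finset V := by
  classical
  exact σ.S \ J.image σ.rep

lemma mem_T (σ : Sys G t) (J : Finset ℕ) (v : V) :
    v ∈ σ.T J ↔ v ∈ σ.S ∧ ∀ j ∈ J, v ≠ σ.rep j := by
  classical
  simp only [T, mem_sdiff, mem_image, not_exists, not_and]
  exact and_congr_right (fun _ => forall₂_congr (fun _ _ => ne_comm))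

lemma card_T (σ : Sys G t) (J : Finset ℕ) (hJ : J ⊆ range t) :
    (σ.T J).card + J.card = t + LL σ.len t := by
  classical
  have h1 : (J.image σ.rep).card = J.card := card_image_of_injOn (fun a ha b hb e => by
    by_contra hne
    exact σ.rep_ne (mem_range.mp (hJ ha)) (mem_range.mp (hJ hb)) hne e)
  have h2 : J.image σ.rep ⊆ σ.S := by
    intro v hv
    obtain ⟨a, ha, rfl⟩ := mem_image.mp hv
    exact σ.rep_mem (mem_range.mp (hJ ha))
  rw [← σ.card_S, ← h1]
  exact card_sdiff_add_card_eq_card h2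

end Sys

variable [Fintype V]

lemma w2rep (c : Ctx G k t) {σ : Sys G t} (h : Opt k σ) {i : ℕ} (hi : i < t)
    (h1 : ∀ j < t, j ≠ i → NoL G σ.S (σ.rep i) (σ.rep j) 1)
    (hz : t + LL σ.len t < k ∨ ∃ z z', (z = σ.rep i ∨ z ∈ σ.T (range t)) ∧
      (z' = σ.rep i ∨ z' ∈ σ.T (range t)) ∧ ∀ u, u ∉ σ.S → G.Adj z u → ¬ G.Adj u z') :
    HasW G σ.S (σ.rep i) 2 2 := by
  classical
  obtain ⟨u, hu⟩ := c.w1a (σ.rep_mem hi) σ.S (σ.rep_mem hi) (fun y hy _ => hy)
    (by rw [σ.card_S]; exact h.le)
  have hc := σ.card_T (range t) Subset.rfl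
  rw [card_range] at hc
  have hT : ∀ y ∈ σ.S, G.Adj u y → y ∈ insert (σ.rep i) (σ.T (range t)) := by
    intro y hy ha
    rw [mem_insert, Sys.mem_T]
    by_contra hn
    push Not at hn
    obtain ⟨j, hj, e⟩ := hn.2 hy
    subst e
    exact hu.link ha (h1 j (mem_range.mp hj) (fun e => hn.1 (by rw [e])))
  have hc' := card_insert_le (σ.rep i) (σ.T (range t))
  have hle := h.le
  rcases hz with hz | ⟨z, z', m1, m2, hzz⟩
  · exact c.w2a hu _ hT (by omega)
  · by_cases ha : G.Adj z u
    · refine c.w2a hu ((insert (σ.rep i) (σ.T (range t))).erase z') (fun y hy hy' => ?_) ?_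
      · exact mem_erase.mpr ⟨fun e => hzz u hu.not_mem ha (e ▸ hy'), hT y hy hy'⟩
      · rw [card_erase_of_mem (mem_insert.mpr m2)]
        omega
    · refine c.w2a hu ((insert (σ.rep i) (σ.T (range t))).erase z) (fun y hy hy' => ?_) ?_
      · exact mem_erase.mpr ⟨fun e => ha (e ▸ hy'.symm), hT y hy hy'⟩
      · rw [card_erase_of_mem (mem_insert.mpr m1)]
        omega

lemma w2rep_long (c : Ctx G k t) {σ : Sys G t} (h : Opt k σ) {i : ℕ} (hi : i < t)
    (h1 : ∀ j < t, j ≠ i → NoL G σ.S (σ.rep i) (σ.rep j) 1)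
    (hz : t + LL σ.len t < k ∨ (∃ m, 2 ≤ σ.len m) ∨ σ.len i = 1) :
    HasW G σ.S (σ.rep i) 2 2 := by
  have hk := c.hk
  have hle := h.le
  apply w2rep c h hi h1
  by_cases hg : t + LL σ.len t < k
  · exact Or.inl hg
  right
  have key : ∀ m, 1 ≤ σ.len m → ∃ A z, σ.r m = A ++ [z] ∧ σ.q m ∈ σ.T (range t) ∧
      ∀ u, u ∉ σ.S → G.Adj z u → ¬ G.Adj u (σ.q m) := by
    intro m hm
    have hmt : m < t := by
      by_contra hc
      have := σ.lent m (by omega)
      omega
    have hne : σ.r m ≠ [] := List.length_pos_iff.mp hm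
    obtain ⟨m, rfl⟩ : ∃ m', m = m' + 1 := by
      refine ⟨m - 1, ?_⟩
      have := σ.len0
      rcases m with _ | m <;> omega
    refine ⟨_, _, (List.dropLast_append_getLast hne).symm, ?_, ?_⟩
    · exact (σ.mem_T _ _).mpr ⟨σ.q_mem hmt,
        fun j hj => σ.q_not_rep hmt (mem_range.mp hj) (by omega)⟩
    · intro u hu a1 a2
      refine c.nocyc (σ.insert_cyc (by omega) (by omega) hmt
        (A := σ.q m :: (σ.r (m + 1)).dropLast) ?_ hu a1 a2)
      rw [List.cons_append, List.dropLast_append_getLast hne]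
  rcases hz with hz | ⟨m, hm⟩ | hz
  · exact absurd hz hg
  · obtain ⟨A, z, e, k1, k2⟩ := key m (by omega)
    have hzr : z ∈ σ.r m := by rw [e]; simp
    refine ⟨z, σ.q m, Or.inr ((σ.mem_T _ _).mpr ⟨σ.r_mem hzr, fun j hj e' => ?_⟩), Or.inr k1, k2⟩
    rcases σ.rep_cases j with ⟨_, h'⟩ | ⟨B', h'⟩
    · exact σ.notq j (mem_range.mp hj) m (by rw [← h', ← e']; exact hzr)
    · by_cases hjm : j = m
      · subst hjm
        have hn := σ.nodup j
        unfold Sys.len at hm
        rw [← e'] at h'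
        rw [e] at hn h' hm
        cases A with
        | nil => simp at hm
        | cons a A =>
          simp only [List.cons_append, List.cons.injEq] at h'
          rw [h'.1] at hn
          simp at hn
      · exact σ.disj j m hjm z (by rw [h', e']; simp) hzr
  · obtain ⟨A, z, e, k1, k2⟩ := key i (by omega)
    refine ⟨z, σ.q i, Or.inl ?_, Or.inr k1, k2⟩
    unfold Sys.len at hz
    unfold Sys.rep
    rw [e] at hz ⊢
    cases A with
    | nil => simp
    | cons a A => simp at hz

lemma rep_out (c : Ctx G k t) {σ : Sys G t} (h : Opt k σ) {i : ℕ} (hi : i < t) :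
    ∃ u, InB G σ.S (σ.rep i) 1 u :=
  c.w1a (σ.rep_mem hi) σ.S (σ.rep_mem hi) (fun _ hy _ => hy) (by rw [σ.card_S]; exact h.le)

lemma w3rep (c : Ctx G k t) {σ : Sys G t} {i : ℕ} (J : Finset ℕ) (hJ : J ⊆ range t)
    (hw : HasW G σ.S (σ.rep i) 2 2)
    (h2 : ∀ j ∈ J, j ≠ i → NoL G σ.S (σ.rep i) (σ.rep j) 2)
    (hs : 2 * t + (t + LL σ.len t) + 1 ≤ 2 * k + J.card) : HasW G σ.S (σ.rep i) 3 3 := by
  classical
  have hc := σ.card_T J hJ
  have hc' := card_insert_le (σ.rep i) (σ.T J)
  refine c.wup (by omega) hw (insert (σ.rep i) (σ.T J)) (fun y hy => ?_) (by omega)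
  rw [mem_insert, Sys.mem_T]
  by_cases hn : y = σ.rep i ∨ y ∈ σ.S ∧ ∀ j ∈ J, y ≠ σ.rep j
  · exact Or.inl hn
  · push Not at hn
    obtain ⟨j, hj, e⟩ := hn.2 hy
    subst e
    exact Or.inr (h2 j hj (fun e => hn.1 (by rw [e])))

theorem strat_three (c : Ctx G k t) {σ : Sys G t} (h : Opt k σ) (J : Finset ℕ)
    (hJ : J ⊆ range t)
    (h1 : ∀ i < t, ∀ j < t, i ≠ j → NoL G σ.S (σ.rep i) (σ.rep j) 1)
    (h6 : ∀ i ∈ J, ∀ j ∈ J, i ≠ j → NoL G σ.S (σ.rep i) (σ.rep j) 6)
    (hz : ∃ m, 2 ≤ σ.len m)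
    (hs : 2 * t + (t + LL σ.len t) + 1 ≤ 2 * k + J.card) (hJ3 : k + 1 ≤ 3 * J.card) : False := by
  refine c.pack (S := σ.S) σ.rep (fun _ => 3) (fun _ => 3) J
    (fun a ha => σ.rep_mem (mem_range.mp (hJ ha))) (fun a ha => ?_) (fun a ha b hb hab => ?_)
    (by simp; omega)
  · have hat := mem_range.mp (hJ ha)
    exact w3rep c J hJ (w2rep_long c h hat (fun j hj hne => h1 a hat j hj hne.symm)
      (Or.inr (Or.inl hz))) (fun j hj hne => (h6 a ha j hj hne.symm).mono (by omega)) hs
  · exact ⟨σ.rep_ne (mem_range.mp (hJ ha)) (mem_range.mp (hJ hb)) hab, by omega, h6 a ha b hb hab⟩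

theorem strat_one (c : Ctx G k t) {σ : Sys G t} (h : Opt k σ) (ht : 3 ≤ t) (hkt : k ≤ 2 * t)
    (h4 : ∀ i < t, ∀ j < t, i ≠ j → NoL G σ.S (σ.rep i) (σ.rep j) 4)
    (h5 : k = 2 * t → ∃ i < t, ∀ j < t, j ≠ i → NoL G σ.S (σ.rep i) (σ.rep j) 5) : False := by
  classical
  have hle := h.le
  have h1 : ∀ i < t, ∀ j < t, j ≠ i → NoL G σ.S (σ.rep i) (σ.rep j) 1 :=
    fun i hi j hj hne => (h4 i hi j hj hne.symm).mono (by omega)
  have hmem : ∀ a ∈ range t, σ.rep a ∈ σ.S := fun a ha => σ.rep_mem (mem_range.mp ha)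
  by_cases hz : t + LL σ.len t < k ∨ ∃ m, 2 ≤ σ.len m
  · have hw : ∀ i < t, HasW G σ.S (σ.rep i) 2 2 := fun i hi =>
      w2rep_long c h hi (h1 i hi) (by tauto)
    by_cases hk2 : k = 2 * t
    · obtain ⟨i0, hi0, h5⟩ := h5 hk2
      refine c.pack (S := σ.S) σ.rep (fun i => 2 + if i = i0 then 1 else 0)
        (fun i => 2 + if i = i0 then 1 else 0) (range t) hmem (fun a ha => ?_)
        (fun a ha b hb hab => ?_) ?_
      · split_ifs with e
        · subst e
          exact w3rep c (range t) Subset.rfl (hw a hi0)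
            (fun j hj hne => (h5 j (mem_range.mp hj) hne).mono (by omega)) (by simp; omega)
        · exact hw a (mem_range.mp ha)
      · refine ⟨σ.rep_ne (mem_range.mp ha) (mem_range.mp hb) hab, by omega, ?_⟩
        split_ifs with e1 e2 e2
        · omega
        · subst e1
          exact h5 b (mem_range.mp hb) e2
        · subst e2
          exact (h5 a (mem_range.mp ha) e1).symm
        · exact h4 a (mem_range.mp ha) b (mem_range.mp hb) hab
      · rw [sum_add_distrib, sum_ite_eq', if_pos (mem_range.mpr hi0)]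
        simp
        omega
    · refine c.pack (S := σ.S) σ.rep (fun _ => 2) (fun _ => 2) (range t) hmem
        (fun a ha => hw a (mem_range.mp ha)) (fun a ha b hb hab => ?_) (by simp; omega)
      exact ⟨σ.rep_ne (mem_range.mp ha) (mem_range.mp hb) hab, by omega,
        h4 a (mem_range.mp ha) b (mem_range.mp hb) hab⟩
  · push Not at hz
    obtain ⟨hg, hl⟩ := hz
    by_cases hL : LL σ.len t = 0
    · have hc := σ.card_T (range t) Subset.rfl
      rw [card_range] at hc
      refine c.pack (S := σ.S) σ.rep (fun i => if i = 0 then 3 else 1)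
        (fun i => 1 + if i = 0 then 1 else 0) (range t) hmem (fun a ha => ?_)
        (fun a ha b hb hab => ?_) ?_
      · obtain ⟨u, hu⟩ := rep_out c h (mem_range.mp ha)
        split_ifs with e
        · have hT : ∀ r w, InB G σ.S (σ.rep a) r w → r ≤ 4 → ∀ y ∈ σ.S, G.Adj w y →
              y = σ.rep a := by
            intro r w hw hr y hy hadj
            by_contra hn
            have : y ∉ σ.T (range t) := by
              rw [card_eq_zero.mp (by omega : (σ.T (range t)).card = 0)]
              simp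
            rw [Sys.mem_T] at this
            push Not at this
            obtain ⟨j, hj, e'⟩ := this hy
            subst e'
            exact hw.link hadj ((h4 a (mem_range.mp ha) j (mem_range.mp hj)
              (fun e => hn (by rw [e]))).mono hr)
          rcases c.far (hmem a ha) hu {σ.rep a}
            (fun y hy hadj => mem_singleton.mpr (hT 1 u hu (by omega) y hy hadj))
            (by simp; omega) with hw | ⟨w, hw, hna⟩
          · exact hw.mono (by omega) (by omega)
          · exact c.w2a hw ∅ (fun y hy hadj =>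
              absurd (hT 2 w hw (by omega) y hy hadj ▸ hadj.symm) hna) (by simp; omega)
        · exact hasW_one hu
      · refine ⟨σ.rep_ne (mem_range.mp ha) (mem_range.mp hb) hab,
          fun e => by split_ifs at e <;> omega, ?_⟩
        exact (h4 a (mem_range.mp ha) b (mem_range.mp hb) hab).mono (by split_ifs <;> omega)
      · rw [sum_add_distrib, sum_ite_eq', if_pos (mem_range.mpr (by omega))]
        simp
        omega
    · obtain ⟨i1, hi1, hl1, hw1⟩ : ∃ i1 < t, σ.len i1 = 0 ∧ HasW G σ.S (σ.rep i1) 2 2 := by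
        obtain ⟨m0, hm0, hm0'⟩ := exists_ne_zero_of_sum_ne_zero hL
        obtain ⟨m, hm, hmax⟩ := exists_max_bdd (fun m => m < t ∧ σ.len m ≠ 0) id t
          ⟨m0, mem_range.mp hm0, hm0'⟩ (fun a ha => ha.1.le)
        have hqm : σ.q m ∈ σ.T (range t) := (σ.mem_T _ _).mpr ⟨σ.q_mem hm.1,
          fun j hj => σ.q_not_rep hm.1 (mem_range.mp hj) hm.2⟩
        have hk := c.hk
        by_cases hmt : m + 1 < t
        · have h0 : σ.len (m + 1) = 0 := by
            by_contra hne
            have := hmax (m + 1) ⟨hmt, hne⟩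
            simp at this
          have hr : σ.rep (m + 1) = σ.q (m + 1) := by simp [Sys.rep, σ.r_nil h0]
          refine ⟨m + 1, hmt, h0, w2rep c h hmt (h1 _ hmt) (Or.inr ⟨σ.q m, σ.q (m + 1),
            Or.inr hqm, Or.inl hr.symm, fun u hu a1 a2 => ?_⟩)⟩
          exact c.nocyc (σ.insert_cyc (by omega) (by omega) hmt (A := [])
            (by simp [σ.r_nil h0]) hu a1 a2)
        · have hr : σ.rep 0 = σ.q 0 := by simp [Sys.rep, σ.r0]
          refine ⟨0, by omega, σ.len0, w2rep c h (by omega) (h1 _ (by omega))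
            (Or.inr ⟨σ.q m, σ.q 0, Or.inr hqm, Or.inl hr.symm, fun u hu a1 a2 => ?_⟩)⟩
          have : m = t - 1 := by omega
          exact c.nocyc (σ.wrap_cyc (by omega) (by omega) hu (this ▸ a1) a2)
      refine c.pack (S := σ.S) σ.rep (fun i => 1 + σ.len i + if i = i1 then 1 else 0)
        (fun i => 1 + σ.len i + if i = i1 then 1 else 0) (range t) hmem (fun a ha => ?_)
        (fun a ha b hb hab => ?_) ?_
      · split_ifs with e
        · subst e
          rw [hl1]
          exact hw1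
        · have := hl a
          by_cases h0 : σ.len a = 0
          · obtain ⟨u, hu⟩ := rep_out c h (mem_range.mp ha)
            rw [h0]
            exact hasW_one hu
          · have h0' : σ.len a = 1 := by omega
            rw [h0']
            exact w2rep_long c h (mem_range.mp ha) (h1 a (mem_range.mp ha)) (Or.inr (Or.inr h0'))
      · refine ⟨σ.rep_ne (mem_range.mp ha) (mem_range.mp hb) hab, by omega, ?_⟩
        refine (h4 a (mem_range.mp ha) b (mem_range.mp hb) hab).mono ?_
        have := hl a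
        have := hl b
        split_ifs <;> subst_vars <;> omega
      · rw [sum_add_distrib, sum_add_distrib, sum_ite_eq', if_pos (mem_range.mpr hi1)]
        unfold LL at hg
        simp
        omega

end Vale.Agent.P048
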