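import Vale.Agent.P048.Basic

namespace Vale.Agent.P048

open Finset

variable {V : Type}

/-- A clique `q 0, …, q (t-1)` with runs `r m` of outside vertices joining `q (m-1)` to `q m`. -/
structure Sys (G : SimpleGraph V) (t : ℕ) where
  q : ℕ → V
  r : ℕ → List V
  r0 : r 0 = []
  rt : ∀ m, t ≤ m → r m = []
  adjq : ∀ i < t, ∀ j < t, i ≠ j → G.Adj (q i) (q j)
  notq : ∀ i < t, ∀ j, q i ∉ r j
  nodup : ∀ m, (r m).Nodup
  disj : ∀ i j, i ≠ j → ∀ v ∈ r i, v ∉ r j
  chain : ∀ m, m + 1 < t → List.IsChain G.Adj (q m :: (r (m + 1) ++ [q (m + 1)]))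

def LL (l : ℕ → ℕ) (t : ℕ) : ℕ := ∑ m ∈ range t, l m
def ee (l : ℕ → ℕ) (t : ℕ) : ℕ := ∑ m ∈ range t, if l m = 0 then 0 else 1
def ff (l : ℕ → ℕ) (t : ℕ) : ℕ := ∑ m ∈ range t, if l m = 0 ∧ l (m + 1) = 0 then 1 else 0
def Phi (l : ℕ → ℕ) (t : ℕ) : ℕ := ∑ m ∈ range t, l m * 16 ^ (t - m)

lemma ee_le (l : ℕ → ℕ) (t : ℕ) : ee l t ≤ t := by
  unfold ee
  calc _ ≤ ∑ _m ∈ range t, 1 := sum_le_sum (fun m _ => by split_ifs <;> omega)
    _ = t := by simp

lemma ff_le (l : ℕ → ℕ) (t : ℕ) : ff l t ≤ t := by
  unfold ff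
  calc _ ≤ ∑ _m ∈ range t, 1 := sum_le_sum (fun m _ => by split_ifs <;> omega)
    _ = t := by simp

lemma Phi_le (l : ℕ → ℕ) (t : ℕ) : Phi l t ≤ LL l t * 16 ^ t := by
  unfold Phi LL
  rw [sum_mul]
  exact sum_le_sum (fun m _ => Nat.mul_le_mul_left _ (Nat.pow_le_pow_right (by norm_num) (by omega)))

lemma chain_glue {G : SimpleGraph V} {A B : List V} {x : V}
    (h1 : List.IsChain G.Adj (A ++ [x])) (h2 : List.IsChain G.Adj (x :: B)) :
    List.IsChain G.Adj (A ++ x :: B) := by
  rw [List.isChain_split]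
  exact ⟨h1, h2⟩

lemma chain_rev {G : SimpleGraph V} {A : List V} (h : List.IsChain G.Adj A) :
    List.IsChain G.Adj A.reverse := by
  rw [List.isChain_reverse]
  exact h.imp (fun _ _ hab => hab.symm)

lemma sum_skip (g : ℕ → ℕ) (p s : ℕ) (hp : p ≤ s) :
    ∑ m ∈ range s, g (if m < p then m else m + 1) + g p = ∑ m ∈ range (s + 1), g m := by
  induction s, hp using Nat.le_induction with
  | base =>
    rw [sum_range_succ]
    congr 1
    exact sum_congr rfl (fun m hm => by rw [if_pos (mem_range.mp hm)])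
  | succ s hs ih =>
    rw [sum_range_succ, sum_range_succ _ (s + 1), ← ih, if_neg (by omega)]
    omega

lemma sum_refl (g : ℕ → ℕ) (a b c t : ℕ) (hc : c + 1 = a + b) (hb : b ≤ t) :
    ∑ m ∈ range t, g (if a ≤ m ∧ m < b then c - m else m) = ∑ m ∈ range t, g m := by
  refine sum_nbij' (fun m => if a ≤ m ∧ m < b then c - m else m)
    (fun m => if a ≤ m ∧ m < b then c - m else m) ?_ ?_ ?_ ?_ ?_
  · intro m hm
    simp only [mem_range] at hm ⊢
    split_ifs <;> omega
  · intro m hm
    simp only [mem_range] at hm ⊢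
    split_ifs <;> omega
  · intro m _
    split_ifs <;> omega
  · intro m _
    split_ifs <;> omega
  · intro m _
    rfl

namespace Sys

variable {G : SimpleGraph V} {t : ℕ}

def len (σ : Sys G t) (m : ℕ) : ℕ := (σ.r m).length

def W (σ : Sys G t) (n : ℕ) : List V := (List.range n).flatMap (fun m => σ.r m ++ [σ.q m])

def rep (σ : Sys G t) (i : ℕ) : V := (σ.r i).headD (σ.q i)

lemma len0 (σ : Sys G t) : σ.len 0 = 0 := by simp [len, σ.r0]

lemma lent (σ : Sys G t) (m : ℕ) (h : t ≤ m) : σ.len m = 0 := by simp [len, σ.rt m h]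

lemma r_nil (σ : Sys G t) {m : ℕ} (h : σ.len m = 0) : σ.r m = [] :=
  List.length_eq_zero_iff.mp h

lemma W_succ (σ : Sys G t) (n : ℕ) : σ.W (n + 1) = σ.W n ++ (σ.r n ++ [σ.q n]) := by
  simp [W, List.range_succ, List.flatMap_append]

lemma mem_W (σ : Sys G t) (n : ℕ) (v : V) :
    v ∈ σ.W n ↔ ∃ m < n, v ∈ σ.r m ∨ v = σ.q m := by
  simp [W, List.mem_flatMap]

lemma length_W (σ : Sys G t) (n : ℕ) : (σ.W n).length = n + LL σ.len n := by
  induction n with
  | zero => simp [W, LL]
  | succ n ih =>
    rw [W_succ, List.length_append, ih]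
    simp only [LL, sum_range_succ, len, List.length_append, List.length_singleton]
    omega

lemma q_inj (σ : Sys G t) {i j : ℕ} (hi : i < t) (hj : j < t) (h : σ.q i = σ.q j) : i = j := by
  by_contra hne
  exact (σ.adjq i hi j hj hne).ne h

lemma nodup_W (σ : Sys G t) (n : ℕ) (hn : n ≤ t) : (σ.W n).Nodup := by
  induction n with
  | zero => simp [W]
  | succ n ih =>
    rw [W_succ, List.nodup_append]
    refine ⟨ih (by omega), ?_, ?_⟩
    · rw [List.nodup_append]
      refine ⟨σ.nodup n, by simp, ?_⟩
      intro a ha b hb hab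
      simp only [List.mem_singleton] at hb
      exact σ.notq n (by omega) n (hb ▸ hab ▸ ha)
    · intro a ha b hb hab
      subst hab
      rw [mem_W] at ha
      obtain ⟨m, hm, h1⟩ := ha
      simp only [List.mem_append, List.mem_singleton] at hb
      rcases h1 with h1 | h1 <;> rcases hb with h2 | h2
      · exact σ.disj m n (by omega) a h1 h2
      · exact σ.notq n (by omega) m (h2 ▸ h1)
      · exact σ.notq m (by omega) n (h1 ▸ h2)
      · have := σ.q_inj (by omega : m < t) (by omega : n < t) (h1 ▸ h2)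
        omega

lemma W_shape (σ : Sys G t) (n : ℕ) (hn : n + 1 ≤ t) :
    List.IsChain G.Adj (σ.W (n + 1)) ∧ (∃ A, σ.W (n + 1) = A ++ [σ.q n]) ∧
      ∃ B, σ.W (n + 1) = σ.q 0 :: B := by
  induction n with
  | zero => simp [W, σ.r0]
  | succ n ih =>
    obtain ⟨h1, ⟨A, h2⟩, ⟨B, h3⟩⟩ := ih (by omega)
    refine ⟨?_, ⟨σ.W (n + 1) ++ σ.r (n + 1), by rw [W_succ _ (n + 1)]; simp⟩,
      ⟨B ++ (σ.r (n + 1) ++ [σ.q (n + 1)]), by rw [W_succ _ (n + 1), h3]; simp⟩⟩
    rw [W_succ _ (n + 1), h2, List.append_assoc]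
    exact chain_glue (h2 ▸ h1) (σ.chain n (by omega))

lemma cyc_of_path (σ : Sys G t) (ht : 1 ≤ t) (p : List V) (hp : p.Nodup)
    (hout : ∀ v ∈ p, v ∉ σ.W t)
    (hc : List.IsChain G.Adj (σ.q (t - 1) :: (p ++ [σ.q 0]))) :
    Cyc G (t + LL σ.len t + p.length) := by
  obtain ⟨n, rfl⟩ : ∃ n, t = n + 1 := ⟨t - 1, by omega⟩
  obtain ⟨h1, ⟨A, h2⟩, ⟨B, h3⟩⟩ := σ.W_shape n le_rfl
  have hnd := σ.nodup_W (n + 1) le_rfl
  have hl := σ.length_W (n + 1)
  refine ⟨σ.q 0, B ++ p, ?_, ?_, ?_⟩
  · rw [← List.cons_append, ← h3, List.nodup_append]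
    exact ⟨hnd, hp, fun a ha b hb hab => hout b hb (hab ▸ ha)⟩
  · rw [h3] at hl
    simp only [List.length_cons, List.length_append] at hl ⊢
    omega
  · have : σ.q 0 :: (B ++ p ++ [σ.q 0]) = A ++ σ.q n :: (p ++ [σ.q 0]) := by
      rw [List.append_assoc, ← List.cons_append, ← h3, h2]; simp
    rw [this]
    exact chain_glue (h2 ▸ h1) (by simpa using hc)

/-- Remove a free clique vertex. -/
def erase {s : ℕ} (σ : Sys G (s + 1)) (p : ℕ) (hp : p ≤ s) (h1 : σ.len (p + 1) = 0) :
    Sys G s where
  q m := σ.q (if m < p then m else m + 1)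
  r m := σ.r (if m < p then m else m + 1)
  r0 := by
    by_cases h : 0 < p
    · rw [if_pos h]; exact σ.r0
    · rw [if_neg h]
      have : p = 0 := by omega
      subst this
      exact σ.r_nil h1
  rt m hm := σ.rt _ (by split_ifs <;> omega)
  adjq i hi j hj hij := σ.adjq _ (by split_ifs <;> omega) _ (by split_ifs <;> omega)
    (by split_ifs <;> omega)
  notq i hi j := σ.notq _ (by split_ifs <;> omega) _
  nodup m := σ.nodup _
  disj i j hij := σ.disj _ _ (by split_ifs <;> omega)
  chain m hm := by
    by_cases ha : m + 1 < p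
    · rw [if_pos ha, if_pos (by omega : m < p)]
      exact σ.chain m (by omega)
    · by_cases hb : m < p
      · have : m + 1 = p := by omega
        subst this
        rw [if_neg ha, if_pos hb, σ.r_nil h1]
        simpa using σ.adjq m (by omega) (m + 1 + 1) (by omega) (by omega)
      · rw [if_neg ha, if_neg hb]
        exact σ.chain (m + 1) (by omega)

lemma cyc_of_range (n : ℕ) (hn : 3 ≤ n) : ∀ (t : ℕ) (σ : Sys G t),
    t + LL σ.len t ≤ n + ff σ.len t → n ≤ t + LL σ.len t → Cyc G n := by
  intro t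
  induction t with
  | zero => intro σ _ h; simp [LL] at h; omega
  | succ s ih =>
    intro σ h1 h2
    by_cases he : n = s + 1 + LL σ.len (s + 1)
    · have hs : 1 ≤ s := by
        by_contra hs
        have : s = 0 := by omega
        subst this
        simp [LL, σ.len0] at he
        omega
      have := σ.cyc_of_path (by omega) [] (by simp) (by simp)
        (by simpa using σ.adjq s (by omega) 0 (by omega) (by omega))
      rw [he]
      simpa using this
    · have hf : ff σ.len (s + 1) ≠ 0 := by omega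
      unfold ff at hf
      obtain ⟨p, hp, hp'⟩ := exists_ne_zero_of_sum_ne_zero hf
      have hp0 : σ.len p = 0 ∧ σ.len (p + 1) = 0 := by
        by_contra hc
        exact hp' (if_neg hc)
      have hps : p ≤ s := by have := mem_range.mp hp; omega
      have hL : LL (σ.erase p hps hp0.2).len s = LL σ.len (s + 1) := by
        have := sum_skip σ.len p s hps
        have e : LL (σ.erase p hps hp0.2).len s =
          ∑ m ∈ range s, σ.len (if m < p then m else m + 1) := rfl
        rw [e]
        unfold LL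
        omega
      have hF : ff σ.len (s + 1) ≤ ff (σ.erase p hps hp0.2).len s + 1 := by
        have := sum_skip (fun m => if σ.len m = 0 ∧ σ.len (m + 1) = 0 then 1 else 0) p s hps
        unfold ff
        rw [← this, if_pos hp0]
        refine Nat.add_le_add_right (sum_le_sum (fun m _ => ?_)) 1
        have e1 : (σ.erase p hps hp0.2).len m = σ.len (if m < p then m else m + 1) := rfl
        have e2 : (σ.erase p hps hp0.2).len (m + 1) =
          σ.len (if m + 1 < p then m + 1 else m + 1 + 1) := rfl
        rw [e1, e2]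
        by_cases ha : m + 1 < p
        · rw [if_pos ha, if_pos (by omega : m < p)]
        · by_cases hb : m < p
          · have : m + 1 = p := by omega
            subst this
            rw [if_neg ha, if_pos hb]
            simp [hp0.1, hp0.2]
          · rw [if_neg ha, if_neg hb]
      exact ih (σ.erase p hps hp0.2) (by omega) (by omega)

/-- Drop a set of runs. -/
def drop (σ : Sys G t) (D : ℕ → Bool) : Sys G t where
  q := σ.q
  r m := if D m then [] else σ.r m
  r0 := by simp [σ.r0]
  rt m hm := by simp [σ.rt m hm]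
  adjq := σ.adjq
  notq i hi j := by
    split_ifs
    · simp
    · exact σ.notq i hi j
  nodup m := by
    split_ifs
    · simp
    · exact σ.nodup m
  disj i j hij v hv := by
    by_cases h1 : D i
    · simp [h1] at hv
    · by_cases h2 : D j
      · simp [h2]
      · simp only [h1, h2] at hv ⊢
        exact σ.disj i j hij v hv
  chain m hm := by
    split_ifs
    · simpa using σ.adjq m (by omega) (m + 1) hm (by omega)
    · exact σ.chain m hm

lemma len_drop (σ : Sys G t) (D : ℕ → Bool) (m : ℕ) :
    (σ.drop D).len m = if D m then 0 else σ.len m := by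
  simp only [len, drop]
  split_ifs <;> simp

/-- Reverse the blocks `i, …, j-1` and put the run `u` at place `j`. -/
def flip (σ : Sys G t) (i j : ℕ) (hij : i < j) (hj : j ≤ t) (u : List V) (hu0 : j = t → u = [])
    (hu1 : u.Nodup) (hu2 : ∀ a < t, σ.q a ∉ u)
    (hu3 : ∀ m, m ≠ i → m ≠ j → ∀ v ∈ u, v ∉ σ.r m)
    (hu4 : j < t → List.IsChain G.Adj (σ.q i :: (u ++ [σ.q j]))) : Sys G t where
  q m := σ.q (if i ≤ m ∧ m < j then i + j - 1 - m else m)
  r m := if m = i then [] else if m = j then u else
    if i < m ∧ m < j then (σ.r (i + j - m)).reverse else σ.r m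
  r0 := by
    split_ifs with h1 h2 h3
    · rfl
    · omega
    · omega
    · exact σ.r0
  rt m hm := by
    split_ifs with h1 h2 h3
    · rfl
    · exact hu0 (by omega)
    · omega
    · exact σ.rt m hm
  adjq a ha b hb hab := σ.adjq _ (by split_ifs <;> omega) _ (by split_ifs <;> omega)
    (by split_ifs <;> omega)
  notq a ha b := by
    have hlt : (if i ≤ a ∧ a < j then i + j - 1 - a else a) < t := by split_ifs <;> omega
    generalize (if i ≤ a ∧ a < j then i + j - 1 - a else a) = c at hlt
    split_ifs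
    · simp
    · exact hu2 c hlt
    · rw [List.mem_reverse]; exact σ.notq c hlt _
    · exact σ.notq c hlt _
  nodup m := by
    split_ifs
    · simp
    · exact hu1
    · exact List.nodup_reverse.mpr (σ.nodup _)
    · exact σ.nodup _
  disj a b hab v hv := by
    intro hw
    split_ifs at hv hw
    all_goals try simp only [List.mem_reverse, List.not_mem_nil] at hv hw
    all_goals first
      | omega
      | exact hu3 _ (by omega) (by omega) v hv hw
      | exact hu3 _ (by omega) (by omega) v hw hv
      | exact σ.disj _ _ (by omega) v hv hw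
  chain m hm := by
    by_cases h1 : m + 1 = i
    · rw [if_pos h1, if_neg (by omega), if_pos (by omega)]
      simpa using σ.adjq m (by omega) (i + j - 1 - (m + 1)) (by omega) (by omega)
    · rw [if_neg h1]
      by_cases h2 : m + 1 = j
      · rw [if_pos h2, if_pos (by omega), if_neg (by omega)]
        have e1 : i + j - 1 - m = i := by omega
        rw [e1, h2]
        exact hu4 (by omega)
      · rw [if_neg h2]
        by_cases h3 : i < m + 1 ∧ m + 1 < j
        · rw [if_pos h3, if_pos (by omega), if_pos (by omega)]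
          have := chain_rev (σ.chain (i + j - 1 - (m + 1)) (by omega))
          have e1 : i + j - 1 - (m + 1) + 1 = i + j - 1 - m := by omega
          have e2 : i + j - (m + 1) = i + j - 1 - m := by omega
          rw [e1] at this
          rw [e2]
          simpa using this
        · rw [if_neg h3, if_neg (by omega), if_neg (by omega)]
          exact σ.chain m hm

lemma len_flip (σ : Sys G t) (i j : ℕ) (hij : i < j) (hj : j ≤ t) (u : List V) (hu0 hu1 hu2 hu3 hu4)
    (m : ℕ) : (σ.flip i j hij hj u hu0 hu1 hu2 hu3 hu4).len m =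
      if m = i then 0 else if m = j then u.length else
        σ.len (if i + 1 ≤ m ∧ m < j then i + j - m else m) := by
  simp only [len, flip]
  split_ifs <;> first | omega | simp

end Sys

end Vale.Agent.P048
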